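import Vale.Agent.P078.Core

/-!
Equivariant form of `core`, uniform in the invariant mean.

PLAN. Copy the proof of `core`, with `cl` given, `∀ I` moved inside (`I₀` is only used for continuity), and the extra invariant
`col (τ x) = (col x).map (· + 1)`. `Lam_equiv`: relabel the vertices by `τ` and the colours by `· + 1` in `co` (reindex the sum over colourings; `Matrix.det` under an equivalence).
Selection: `Δ (c + 1) (τ x) = Δ c x` (`ball S n (τ x) = (ball S n x).image τ`), hence `Δ (c + j) (τ^[j] x) = Δ c x`; take `c₀` from `select` and put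
`c x = c₀ (τ^[r - (s x).val] x) + s x` (uses `τ^[r] = id`; locally constant because `s` is).
-/

open Finset Polynomial
open scoped Classical Pointwise

namespace Vale.Agent.P078.G

theorem Lam_equiv {V : Type*} {r : ℕ} [NeZero r] (h : ℝ[X]) {k : V → V → ℂ} {τ : V → V}
    (hτ : Function.Injective τ) (hk : ∀ a b, k (τ a) (τ b) = k a b) {σ σ' : V → Option (Fin r)}
    (hσ : ∀ v, σ' (τ v) = (σ v).map (· + 1)) (U : Finset V) :
    Lam h σ' k (U.image τ) = Lam h σ k U := by
  rw [Lam_gauge (σ := fun v => (σ v).map (· + 1)) (k := k) (θ := fun _ => 1) hτ.injOn (by simp)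
    (fun a _ b _ => by simp [hk]) fun a _ => hσ a]
  unfold Lam ep
  congr 1
  refine sum_congr rfl fun T _ => ?_
  have e1 : co (fun v => (σ v).map (· + 1)) k T = co σ k T := by
    unfold co
    rw [← Equiv.sum_comp (Equiv.addRight (fun _ : T => (1 : Fin r)))]
    refine sum_congr rfl fun c _ => ?_
    congr 1
    · refine prod_congr rfl fun a _ => ?_
      beta_reduce
      cases σ a <;> simp [wt]
    · simp
  have e2 : ∀ v, kap ((σ v).map (· + 1)) = kap (σ v) := fun v => by cases σ v <;> rfl
  simp only [e1, e2]

theorem select2 {X : Type*} [TopologicalSpace X] [CompactSpace X] [T2Space X]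
    [TotallyDisconnectedSpace X] {r : ℕ} [NeZero r] {τ : X → X} (t1 : Continuous τ) (t2 : τ^[r] = id)
    {s : X → Fin r} (s1 : IsLocallyConstant s) (s2 : ∀ x, s (τ x) = s x + 1) {Δ : Fin r → X → ℝ}
    (hΔ : ∀ c, Continuous (Δ c)) {a : ℝ} (h : ∀ x, ∃ c, Δ c x < a)
    (he : ∀ c x, Δ (c + 1) (τ x) = Δ c x) :
    ∃ c : X → Fin r, IsLocallyConstant c ∧ (∀ x, c (τ x) = c x + 1) ∧ ∀ x, Δ (c x) x < a := by
  obtain ⟨c, c1, c2⟩ := select (Nat.pos_of_ne_zero (NeZero.ne r)) hΔ h
  have it : ∀ (j : ℕ) c x, Δ (c + Fin.ofNat r j) (τ^[j] x) = Δ c x := fun j c x => by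
    induction j with
    | zero => simp
    | succ j ih =>
      rw [Function.iterate_succ_apply', ← ih, ← he (c + Fin.ofNat r j), add_assoc]
      congr 2
      exact Fin.ext (by simp [Fin.val_add])
  refine ⟨fun x => c (τ^[r - s x] x) + s x, ?_, fun x => ?_, fun x => ?_⟩
  · have : IsLocallyConstant fun x => fun j : Fin r => c (τ^[r - j] x) :=
      (IsLocallyConstant.iff_eventually_eq _).2 fun x₀ => by
        filter_upwards [Filter.eventually_all.2 fun j : Fin r =>
          (c1.comp_continuous (t1.iterate (r - j))).eventually_eq x₀] with x hx using funext hx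
    exact (this.prodMk s1).comp fun q : (Fin r → Fin r) × Fin r => q.1 q.2 + q.2
  · simp only [s2, ← add_assoc]
    congr 3
    rw [← Function.iterate_succ_apply]
    by_cases hx : (s x : ℕ) + 1 < r
    · rw [Fin.val_add_one_of_lt' hx]
      congr 1
      omega
    · have e : ((s x + 1 : Fin r) : ℕ) = 0 := by
        have : (s x : ℕ) + 1 = r := by have := (s x).2; omega
        simp [Fin.val_add, this]
      rw [e, Nat.sub_zero, Function.iterate_succ', t2, show r - s x = 1 by have := (s x).2; omega]
      rfl
  · have := it (s x) (c (τ^[r - s x] x)) (τ^[r - s x] x)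
    rw [← Function.iterate_add_apply, Nat.add_sub_cancel' (s x).2.le, t2, Fin.ofNat_val_eq_self] at this
    exact this.trans_lt (c2 _)

theorem core2 {Γ X : Type*} [Group Γ] [MulAction Γ X] [TopologicalSpace X] [CompactSpace X] [T2Space X]
    [TotallyDisconnectedSpace X] [ContinuousConstSMul Γ X] {I₀ : C(X, ℝ) →ₗ[ℝ] ℝ} (hI₀ : IsDyn Γ I₀)
    {S : Finset Γ} (hS : Gen S) {k : X → X → ℂ} (hk : IsKer S k) {r : ℕ} [NeZero r] (hr : 2 ≤ r)
    {η : ℝ} (hη : 0 < η) {h : ℝ[X]} (ha : App (5 / √(r : ℝ)) η h) {τ : X → X} (t1 : Continuous τ)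
    (t2 : τ^[r] = id) (t3 : ∀ (w : Γ) x, τ (w • x) = w • τ x) (t4 : ∀ a b, k (τ a) (τ b) = k a b)
    {s : X → Fin r} (s1 : IsLocallyConstant s) (s2 : ∀ x, s (τ x) = s x + 1) {m : ℕ} {cl : X → Fin m}
    (c1 : IsLocallyConstant cl) (c2 : ∀ w ∈ S ^ (h.natDegree + 1), ∀ x, cl (w • x) = cl x → w • x = x)
    (c3 : ∀ x, cl (τ x) = cl x) : ∃ c : X → Fin r, IsLocallyConstant c ∧ (∀ x, c (τ x) = c x + 1) ∧
      Continuous (fun x => dg h (yc k c) (ball S (h.natDegree + 1) x) x) ∧
      ∀ I : C(X, ℝ) →ₗ[ℝ] ℝ, IsDyn Γ I →
        ii I (fun x => dg h (yc k c) (ball S (h.natDegree + 1) x) x) ≤ 4 * η := by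
  have r0 : 0 < r := by omega
  have hz : 0 < 5 / √(r : ℝ) := by positivity
  have sys := sys_LL (h := h) hI₀ hS hk r0
  set n := h.natDegree + 1 with hn
  have hcl := c1
  have hsp := c2
  clear c1 c2
  have inj : Function.Injective τ := Function.LeftInverse.injective (g := τ^[r - 1]) fun x => by
    rw [← Function.iterate_succ_apply, show (r - 1).succ = r by omega, t2, id]
  have bl : ∀ x, ball S n (τ x) = (ball S n x).image τ := fun x => by
    simp only [ball, orb, image_image]
    exact image_congr fun w _ => (t3 w x).symm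
  have sp : ∀ y y', y' ∈ ball S n y → (cl y' : ℕ) = cl y → y' = y := by
    intro y y' h1 h2
    obtain ⟨w, hw, rfl⟩ := mem_orb.1 h1
    exact hsp w hw y (Fin.ext h2)
  have lc : ∀ {St : Type} (f : Fin m → St), IsLocallyConstant fun x => f (cl x) :=
    fun f => hcl.comp f
  have clop : ∀ j : ℕ, IsClopen {x | (cl x : ℕ) = j} := fun j =>
    (lc fun i => (i : ℕ)).isClopen_fiber j
  have cind : ∀ (j : ℕ) (a : ℝ), Continuous fun x => if x ∈ {x | (cl x : ℕ) = j} then a else 0 :=
    fun j a => (lc fun i => if (i : ℕ) = j then a else 0).continuous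
  have tot : ∀ I, IsDyn Γ I → ∀ a : ℝ,
      ∑ j ∈ range m, ii I (fun x => if x ∈ {x | (cl x : ℕ) = j} then a else 0) = a := by
    intro I hI a
    rw [← ii_sum _ fun j _ => cind j a]
    conv_rhs => rw [← ii_const hI a]
    congr 1
    funext x
    simp only [Set.mem_setOf_eq, sum_ite_eq, mem_range, (cl x).2, if_true]
  have p1 : ∀ I, IsDyn Γ I → ∀ j : ℕ,
      ii I (dens S n (LL h k fun x => (decide ((cl x : ℕ) < j), (none : Option (Fin r))))) ≤
      ∑ i ∈ range j, ii I fun x => if x ∈ {x | (cl x : ℕ) = i} then η else 0 := by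
    intro I hI j
    induction j with
    | zero =>
      have : dens S n (LL h k fun x => (decide ((cl x : ℕ) < 0), (none : Option (Fin r)))) =
          fun _ => 0 := by
        funext x
        refine sum_eq_zero fun W _ => ?_
        have : mob (LL h k fun x => (decide ((cl x : ℕ) < 0), (none : Option (Fin r)))) W = 0 :=
          sum_eq_zero fun W' _ => by simp [LL, Lam_empty]
        rw [this, zero_div]
      rw [this, ii_const hI, sum_range_zero]
    | succ j ih =>
      rw [sum_range_succ]
      refine (step hI hS sys (lc fun i => (decide ((i : ℕ) < j), (none : Option (Fin r))))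
        (lc fun i => (decide ((i : ℕ) < j + 1), (none : Option (Fin r)))) (clop j) (η := η)
        (fun x hx => ?_) (fun y hy y' hy' h1 => sp y y' h1 (hy'.trans hy.symm))
        fun y hy => ?_).trans (add_le_add ih (le_of_eq (by congr 1; funext x; congr)))
      · have : (cl x : ℕ) ≠ j := hx
        simp only [Prod.mk.injEq, decide_eq_decide, and_true]
        omega
      · have hy' : (cl y : ℕ) = j := hy
        have e : (ball S n y).filter (fun v => decide ((cl v : ℕ) < j) = true) =
            ((ball S n y).filter fun v => decide ((cl v : ℕ) < j + 1) = true).erase y := by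
          ext v
          simp only [mem_filter, mem_erase, decide_eq_true_eq]
          constructor
          · rintro ⟨h1, h2⟩
            exact ⟨by rintro rfl; omega, h1, by omega⟩
          · rintro ⟨h1, h2, h3⟩
            refine ⟨h2, ?_⟩
            by_contra h4
            exact h1 (sp y v h2 (by omega))
        unfold LL
        simp only
        rw [e]
        exact add_step hr (hk.good _) ha
          (mem_filter.2 ⟨self_mem_ball hS n y, by simp only [decide_eq_true_eq]; omega⟩)
  have p2 : ∀ j : ℕ, ∃ col : X → Option (Fin r), IsLocallyConstant col ∧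
      (∀ x, col x = none ↔ j ≤ (cl x : ℕ)) ∧ (∀ x, col (τ x) = (col x).map (· + 1)) ∧
      ∀ I, IsDyn Γ I → ii I (dens S n (LL h k fun x => (true, col x))) ≤
        η + ∑ i ∈ range j, ii I fun x => if x ∈ {x | (cl x : ℕ) = i} then 3 * η else 0 := by
    intro j
    induction j with
    | zero =>
      refine ⟨fun _ => none, IsLocallyConstant.const _, fun x => by simp, fun _ => rfl, fun I hI => ?_⟩
      have := p1 I hI m
      rw [tot I hI] at this
      simpa using this
    | succ j ih =>
      obtain ⟨col, c1, c2, c4, c3'⟩ := ih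
      have lcs : ∀ c : X → Fin r, IsLocallyConstant c → IsLocallyConstant
          fun x => if (cl x : ℕ) = j then some (c x) else col x := fun c hc =>
        ((hcl.prodMk (hc.prodMk c1)).comp fun q : Fin m × Fin r × Option (Fin r) =>
          if (q.1 : ℕ) = j then some q.2.1 else q.2.2)
      have tt : ∀ col : X → Option (Fin r), IsLocallyConstant col →
          IsLocallyConstant fun x => (true, col x) := fun col hc => hc.comp fun o => (true, o)
      obtain ⟨c, d1, d3, d2⟩ := select2 t1 t2 s1 s2 (a := 3 * η) (Δ := fun c x => (if (cl x : ℕ) = j then 1 else 0) *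
        (LL h k (fun v => (true, if (cl v : ℕ) = j then some c else col v)) (ball S n x) -
          LL h k (fun v => (true, col v)) (ball S n x)))
        (fun c => (lc fun i => if (i : ℕ) = j then (1 : ℝ) else 0).continuous.mul
          ((sys.cont _ (tt _ (lcs _ (IsLocallyConstant.const c))) (S ^ n)).sub
            (sys.cont _ (tt _ c1) (S ^ n))))
        (fun x => by
          by_cases hx : (cl x : ℕ) = j
          · obtain ⟨c, hc⟩ := col_step r0 (hk.good (ball S n x)) hz hη ha (self_mem_ball hS n x) col
              ((c2 x).2 hx.ge)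
            refine ⟨c, ?_⟩
            rw [if_pos hx, one_mul]
            unfold LL
            simp only [filter_true_of_mem, implies_true]
            unfold Lam at hc ⊢
            rw [ep_congr (σ' := Function.update col x (some c)) fun v hv => ?_]
            · exact hc
            · by_cases h1 : v = x
              · subst h1; simp [hx]
              · rw [Function.update_of_ne h1, if_neg fun h2 => h1 (sp x v hv (h2.trans hx.symm))]
          · exact ⟨⟨0, r0⟩, by rw [if_neg hx, zero_mul]; positivity⟩)
        (fun c x => by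
          unfold LL
          simp only [filter_true_of_mem, implies_true]
          rw [c3, bl, Lam_equiv h inj t4 c4, Lam_equiv h inj t4
            (σ := fun v => if (cl v : ℕ) = j then some c else col v) fun v => by
              rw [c3]
              split_ifs
              exacts [rfl, c4 v]])
      refine ⟨fun x => if (cl x : ℕ) = j then some (c x) else col x, lcs c d1, fun x => ?_, fun x => ?_,
        fun I hI => ?_⟩
      · by_cases hx : (cl x : ℕ) = j
        · simp only [hx, if_true]
          simp
        · simp only [hx, if_false, c2]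
          omega
      · simp only [c3]
        split_ifs
        exacts [by rw [d3]; rfl, c4 x]
      · rw [sum_range_succ, ← add_assoc]
        refine (step hI hS sys (tt _ c1) (tt _ (lcs c d1)) (clop j) (η := 3 * η)
          (fun x hx => ?_) (fun y hy y' hy' h1 => sp y y' h1 (hy'.trans hy.symm))
          fun y hy => ?_).trans (add_le_add (c3' I hI) (le_of_eq (by congr 1; funext x; congr)))
        · have : ¬(cl x : ℕ) = j := hx
          simp only [this, if_false]
        · have hy' : (cl y : ℕ) = j := hy
          have := d2 y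
          rw [if_pos hy', one_mul] at this
          rw [sys.loc _ (fun v => (true, if (cl v : ℕ) = j then some (c y) else col v)) _
            fun v hv => ?_]
          · exact this.le
          · by_cases h1 : (cl v : ℕ) = j
            · rw [sp y v hv (h1.trans hy'.symm)]
            · simp only [h1, if_false]
  obtain ⟨col, c1, c2, c4, c3'⟩ := p2 m
  have hc : IsLocallyConstant fun x => (col x).getD ⟨0, r0⟩ := c1.comp fun o => o.getD ⟨0, r0⟩
  have e : ∀ x, col x = some ((col x).getD ⟨0, r0⟩) := by
    intro x
    cases hx : col x with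
    | none => exact absurd ((c2 x).1 hx) (not_le.2 (cl x).2)
    | some a => rfl
  refine ⟨_, hc, fun x => ?_, ?_, fun I hI => ?_⟩
  · rw [c4, e x]
    rfl
  · simpa only [one_smul, ball] using ct_dg (h := h) hI₀ hk hc 1 (S ^ n)
  · have c5 := c3' I hI
    rw [tot I hI] at c5
    rw [← final_id hI hS sys (c1.comp fun o => (true, o))
      (D := fun v U => dg h (yc k fun x => (col x).getD ⟨0, r0⟩) U v) (fun U => ?_) (fun v U => ?_)
      (ct_dg hI hk hc)]
    · have : (fun o => (true, o)) ∘ col = fun x => (true, col x) := rfl
      rw [this]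
      linarith
    · rw [← final_Lam (hk.good U)]
      unfold LL Lam
      simp only [Function.comp, filter_true_of_mem, implies_true]
      rw [ep_congr fun v _ => e v]
    · refine dg_local (R := fun j => ball S j v) (self_mem_ball hS 0 v) (ball_mono hS v)
        (fun j a ha b hb => ?_) (Nat.le_succ _)
      have : k a b ≠ 0 := fun h0 => hb (by simp [yc, h0])
      obtain ⟨w, hw, rfl⟩ := hk.range _ _ this
      have := smul_mem_ball (hS.inv w hw) ha
      rwa [inv_smul_smul] at this

end Vale.Agent.P078.G
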