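import Vale.Agent.P078.G.Diff2

/-!
Decomposition along the normalizer algebra, and spectral cuts.
-/

open Finset Filter Vale.Agent.P070h8
open scoped Classical InnerProductSpace

namespace Vale.Agent.P078.G

variable {H : Type*} [NormedAddCommGroup H] [InnerProductSpace ℂ H] [CompleteSpace H]
  {M : VonNeumannAlgebra H} {A : StarSubalgebra ℂ (H →L[ℂ] H)} {Ω : H}
  {E : (H →L[ℂ] H) → H →L[ℂ] H}

variable {x : H →L[ℂ] H}

theorem kapN (hΩ : IsTraceVector M Ω) (hx : x ∈ M) (hs : IsSelfAdjoint x) (hn : ‖x‖ ≤ 1)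
    {y0 : H →L[ℂ] H} (h0 : y0 ∈ N0 M A) {η : ℝ} (hη : 0 < η) :
    ∃ y ∈ N0 M A, IsSelfAdjoint y ∧ ‖y‖ ≤ 1 ∧ ‖(x - y) Ω‖ ≤ ‖(x - y0) Ω‖ + η := by
  haveI : Nontrivial H := ⟨⟨Ω, 0, fun h => by simpa [h] using hΩ.1⟩⟩
  let y := (1 / 2 : ℂ) • (y0 + star y0)
  have y1 : y ∈ Submodule.span ℂ (Set.range (op : NG M A → H →L[ℂ] H)) :=
    Submodule.smul_mem _ _ (add_mem h0 (N_star h0))
  have y2 : IsSelfAdjoint y := by simp [y, IsSelfAdjoint, add_comm]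
  have y3 : ‖(x - y) Ω‖ ≤ ‖(x - y0) Ω‖ := by
    have e : x - y = (1 / 2 : ℂ) • ((x - y0) + star (x - y0)) := by
      rw [star_sub, hs.star_eq]
      simp only [y]
      module
    have := norm_add_le ((x - y0) Ω) (star (x - y0) Ω)
    rw [norm_star_Om hΩ (sub_mem hx (N_mem h0))] at this
    rw [e, ContinuousLinearMap.smul_apply, norm_smul, ContinuousLinearMap.add_apply]
    norm_num at this ⊢
    linarith
  obtain ⟨ε, e0, e1, e2⟩ : ∃ ε : ℝ, 0 < ε ∧ ε ≤ 1 ∧ 2 * ε ≤ η :=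
    ⟨min 1 (η / 2), by positivity, min_le_left _ _, by linarith [min_le_right 1 (η / 2)]⟩
  obtain ⟨p, hp⟩ := exists_polynomial_near_of_continuousOn (-‖y‖) ‖y‖
    (fun t => (1 - ε) * max (-1) (min 1 t)) (by fun_prop) ε e0
  have k : ∀ t ∈ spectrum ℝ y, |p.eval t| ≤ 1 ∧ |max (-1) (min 1 t) - p.eval t| ≤ 2 * ε := by
    intro t ht
    obtain ⟨a1, a2⟩ := abs_lt.1 (hp t (abs_le.1 (spectrum.norm_le_norm_of_mem ht)))
    have b1 : -1 ≤ max (-1) (min 1 t) := le_max_left _ _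
    have b2 : max (-1) (min 1 t) ≤ 1 := max_le (by norm_num) (min_le_left _ _)
    rw [abs_le, abs_le]
    refine ⟨⟨?_, ?_⟩, ?_, ?_⟩ <;> nlinarith
  refine ⟨cfc p.eval y, cfc_polynomial p y ▸ N_aeval y1 p, cfc_predicate _ y,
    norm_cfc_le zero_le_one fun t ht => (k t ht).1, ?_⟩
  have c1 := (clamp_le hΩ hx hs hn (N_mem y1) y2).trans y3
  have c2 : ‖(cfc (fun t : ℝ => max (-1) (min 1 t)) y - cfc p.eval y) Ω‖ ≤ 2 * ε := by
    refine (ContinuousLinearMap.le_opNorm _ _).trans ?_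
    rw [hΩ.1, mul_one, ← cfc_sub ..]
    exact norm_cfc_le (by positivity) fun t ht => (k t ht).2
  have c3 := norm_add_le ((x - cfc (fun t : ℝ => max (-1) (min 1 t)) y) Ω)
    ((cfc (fun t : ℝ => max (-1) (min 1 t)) y - cfc p.eval y) Ω)
  rw [← ContinuousLinearMap.add_apply, sub_add_sub_cancel] at c3
  linarith

theorem dec_sa (hΩ : IsTraceVector M Ω) (hx : x ∈ M) (hs : IsSelfAdjoint x) (hn : ‖x‖ ≤ 1) :
    ∃ d ∈ M, IsSelfAdjoint d ∧ ‖d‖ ≤ 1 ∧ x - d ∈ Zs M A Ω ∧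
      ∀ η : ℝ, 0 < η → ∃ y ∈ N0 M A, IsSelfAdjoint y ∧ ‖y‖ ≤ 1 ∧ ‖(d - y) Ω‖ ≤ η := by
  let K0 : Submodule ℂ H := (N0 M A).map (ContinuousLinearMap.apply ℂ H Ω).toLinearMap
  let K := K0.topologicalClosure
  haveI : CompleteSpace K := K0.isClosed_topologicalClosure.completeSpace_coe
  set v := K.starProjection (x Ω) with hv
  have vK : v ∈ K := K.starProjection_apply_mem _
  have perp : ∀ u ∈ K, ⟪x Ω - v, u⟫_ℂ = 0 := fun u hu => K.starProjection_inner_eq_zero _ u hu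
  have near : ∀ η : ℝ, 0 < η → ∃ y ∈ N0 M A, IsSelfAdjoint y ∧ ‖y‖ ≤ 1 ∧ ‖v - y Ω‖ ≤ η := by
    intro η hη
    set D := ‖x Ω - v‖ with hD
    have D0 : 0 ≤ D := norm_nonneg _
    obtain ⟨t, t0, t1, t2⟩ : ∃ t : ℝ, 0 < t ∧ t ≤ 1 ∧ 4 * t * (D + 1) ≤ η ^ 2 :=
      ⟨min 1 (η ^ 2 / (4 * (D + 1))), by positivity, min_le_left _ _, by
        have := min_le_right 1 (η ^ 2 / (4 * (D + 1)))
        rw [le_div_iff₀ (by positivity)] at this
        linarith⟩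
    obtain ⟨_, ⟨y0, h0, rfl⟩, d⟩ := Metric.mem_closure_iff.1 vK t t0
    obtain ⟨y, y1, y2, y3, y4⟩ := kapN hΩ hx hs hn h0 t0
    refine ⟨y, y1, y2, y3, ?_⟩
    have d' : ‖v - y0 Ω‖ ≤ t := by simpa [dist_eq_norm] using d.le
    have k1 : ‖(x - y0) Ω‖ ≤ D + t := by
      have := norm_add_le (x Ω - v) (v - y0 Ω)
      rw [sub_add_sub_cancel] at this
      rw [ContinuousLinearMap.sub_apply]
      linarith
    have k2 : ‖(x - y) Ω‖ ^ 2 = D ^ 2 + ‖v - y Ω‖ ^ 2 := by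
      have := norm_add_sq_eq_norm_sq_add_norm_sq_of_inner_eq_zero (𝕜 := ℂ) (x Ω - v) (v - y Ω)
        (perp _ (sub_mem vK (K0.le_topologicalClosure ⟨y, y1, rfl⟩)))
      rw [sub_add_sub_cancel] at this
      rw [ContinuousLinearMap.sub_apply, sq, sq, sq, this]
    have k3 : ‖(x - y) Ω‖ ^ 2 ≤ (D + 2 * t) ^ 2 :=
      pow_le_pow_left₀ (norm_nonneg _) (by linarith) 2
    exact le_of_pow_le_pow_left₀ two_ne_zero hη.le (by nlinarith)
  choose y y1 y2 y3 y4 using fun n : ℕ => near (1 / ((n : ℝ) + 1)) (by positivity)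
  have lim : Tendsto (fun n => y n Ω) atTop (nhds v) := by
    refine tendsto_iff_norm_sub_tendsto_zero.2 (squeeze_zero (fun _ => norm_nonneg _)
      (fun n => ?_) tendsto_one_div_add_atTop_nhds_zero_nat)
    rw [norm_sub_rev]
    exact y4 n
  obtain ⟨d, dM, hd⟩ := lim_mem hΩ (fun n => N_mem (y1 n)) y3 lim.cauchySeq
  have dv : d Ω = v := tendsto_nhds_unique (hd Ω) lim
  refine ⟨d, dM, ContinuousLinearMap.isSelfAdjoint_iff_isSymmetric.2 fun a b => ?_,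
    ContinuousLinearMap.opNorm_le_bound _ zero_le_one fun ξ => ?_, ⟨sub_mem hx dM, fun g => ?_⟩,
    fun η hη => ?_⟩
  · exact tendsto_nhds_unique ((hd a).inner tendsto_const_nhds)
      ((tendsto_const_nhds.inner (hd b)).congr fun n =>
        ((ContinuousLinearMap.isSelfAdjoint_iff_isSymmetric.1 (y2 n)) a b).symm)
  · exact le_of_tendsto' (hd ξ).norm fun n => ((y n).le_opNorm ξ).trans
      (mul_le_mul_of_nonneg_right (y3 n) (norm_nonneg _))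
  · rw [tau_mul, ContinuousLinearMap.sub_apply, dv, ← inner_conj_symm,
      perp (star (op g) Ω) (K0.le_topologicalClosure
        ⟨_, N_star (Submodule.subset_span ⟨g, rfl⟩), rfl⟩), map_zero]
  · obtain ⟨y, a, b, c, e⟩ := near η hη
    exact ⟨y, a, b, c, by rwa [ContinuousLinearMap.sub_apply, dv]⟩

theorem Zs_add {z z' : H →L[ℂ] H} (h : z ∈ Zs M A Ω) (h' : z' ∈ Zs M A Ω) : z + z' ∈ Zs M A Ω :=
  ⟨add_mem h.1 h'.1, fun g => by rw [mul_add, tau_add, h.2, h'.2, add_zero]⟩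

theorem dec1 (hΩ : IsTraceVector M Ω) (hx : x ∈ M) (hs : IsSelfAdjoint x) {η : ℝ} (hη : 0 < η) :
    ∃ z ∈ Zs M A Ω, ∃ y ∈ N0 M A, ‖(x - z - y) Ω‖ ≤ η := by
  set t : ℝ := ‖x‖ + 1 with ht
  have t0 : 0 < t := by positivity
  obtain ⟨d, -, -, -, d1, d2⟩ := dec_sa (A := A) hΩ (smul_mem_M hx ((t⁻¹ : ℝ) : ℂ))
    (by rw [IsSelfAdjoint, star_smul, hs.star_eq]; simp) (by
      rw [norm_smul, Complex.norm_real, Real.norm_of_nonneg (by positivity), inv_mul_le_iff₀ t0]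
      linarith)
  obtain ⟨y, y1, -, -, y2⟩ := d2 (η / t) (by positivity)
  refine ⟨_, Zs_smul d1 (t : ℂ), _, Submodule.smul_mem _ (t : ℂ) y1, ?_⟩
  have e : x - (t : ℂ) • (((t⁻¹ : ℝ) : ℂ) • x - d) - (t : ℂ) • y = (t : ℂ) • (d - y) := by
    rw [smul_sub, smul_smul, ← Complex.ofReal_mul, mul_inv_cancel₀ t0.ne']
    simp [smul_sub]
  rw [e, ContinuousLinearMap.smul_apply, norm_smul, Complex.norm_real, Real.norm_of_nonneg t0.le]
  rwa [le_div_iff₀' t0] at y2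

theorem dec (hΩ : IsTraceVector M Ω) (hx : x ∈ M) {η : ℝ} (hη : 0 < η) :
    ∃ z ∈ Zs M A Ω, ∃ y ∈ N0 M A, ‖(x - z - y) Ω‖ ≤ η := by
  obtain ⟨z, z1, y, y1, h⟩ := dec1 (A := A) hΩ (add_mem hx (star_mem hx)) (by
    simp [IsSelfAdjoint, add_comm]) hη
  obtain ⟨z', z2, y', y2, h'⟩ := dec1 (A := A) hΩ
    (smul_mem_M (sub_mem hx (star_mem hx)) Complex.I) (by simp [IsSelfAdjoint, ← smul_neg]) hη
  refine ⟨_, Zs_smul (Zs_add z1 (Zs_smul z2 (-Complex.I))) (1 / 2), (1 / 2 : ℂ) • (y + -Complex.I • y'),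
    Submodule.smul_mem _ _ (add_mem y1 (Submodule.smul_mem _ _ y2)), ?_⟩
  have e : x - (1 / 2 : ℂ) • (z + -Complex.I • z') - (1 / 2 : ℂ) • (y + -Complex.I • y') =
      (1 / 2 : ℂ) • ((x + star x - z - y) + -Complex.I • (Complex.I • (x - star x) - z' - y')) := by
    simp only [smul_sub, smul_smul, neg_mul, Complex.I_mul_I, neg_neg, one_smul]
    module
  have := norm_add_le ((x + star x - z - y) Ω) ((-Complex.I • (Complex.I • (x - star x) - z' - y')) Ω)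
  rw [ContinuousLinearMap.smul_apply, norm_smul, norm_neg, Complex.norm_I, one_mul] at this
  rw [e, ContinuousLinearMap.smul_apply, norm_smul, ContinuousLinearMap.add_apply,
    ContinuousLinearMap.smul_apply]
  norm_num at this h h' ⊢
  linarith

theorem spl (hx : x ∈ M) (hs : IsSelfAdjoint x) {c : ℝ} (hc : 0 ≤ c) :
    ∃ q ∈ M, IsStarProjection q ∧ ‖x * q‖ ≤ c ∧
      ∀ (n : ℕ) (ξ : H), c ^ n * ‖(1 - q) ξ‖ ≤ ‖(x ^ n) ξ‖ := by
  have sb : IsSelfAdjoint (x * x - ((c ^ 2 : ℝ) : ℂ) • (1 : H →L[ℂ] H)) := by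
    simp [IsSelfAdjoint, hs.star_eq]
  obtain ⟨g, g1, g2, g3, g4⟩ := cut sb
  have cm : ∀ T, Commute T x → Commute T (x * x - ((c ^ 2 : ℝ) : ℂ) • (1 : H →L[ℂ] H)) :=
    fun T h => (h.mul_right h).sub_right ((Commute.one_right T).smul_right _)
  have gM : g ∈ M := mem_of_comm fun T hT => g2 T
    (cm T (VonNeumannAlgebra.mem_commutant_iff.1 hT x hx).symm)
    (cm _ (VonNeumannAlgebra.mem_commutant_iff.1 (star_mem hT) x hx).symm)
  have xg : Commute x g := g2 x (cm x rfl) (by rw [hs.star_eq]; exact cm x rfl)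
  have key : ∀ p : H →L[ℂ] H, IsStarProjection p → ∀ ξ,
      (⟪ξ, (p * (x * x - ((c ^ 2 : ℝ) : ℂ) • (1 : H →L[ℂ] H)) * p) ξ⟫_ℂ).re =
        ‖x (p ξ)‖ ^ 2 - c ^ 2 * ‖p ξ‖ ^ 2 := fun p hp ξ => by
    have e1 : ⟪ξ, (p * (x * x - ((c ^ 2 : ℝ) : ℂ) • (1 : H →L[ℂ] H)) * p) ξ⟫_ℂ =
        ⟪p ξ, (x * x - ((c ^ 2 : ℝ) : ℂ) • (1 : H →L[ℂ] H)) (p ξ)⟫_ℂ := by
      rw [← inner_star_right, hp.isSelfAdjoint.star_eq]
      rfl
    have e2 := re_inner_star_mul x (p ξ)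
    rw [hs.star_eq] at e2
    rw [e1, ContinuousLinearMap.sub_apply, inner_sub_right, Complex.sub_re, e2,
      ContinuousLinearMap.smul_apply, ContinuousLinearMap.one_apply, inner_smul_right,
      Complex.re_ofReal_mul, inner_self_eq_norm_sq_to_K]
    norm_cast
  have pn : ∀ p : H →L[ℂ] H, IsStarProjection p → ∀ ξ, ‖p ξ‖ ≤ ‖ξ‖ := fun p hp ξ =>
    (p.le_opNorm ξ).trans (mul_le_of_le_one_left (norm_nonneg _) hp.norm_le)
  refine ⟨g, gM, g1, ContinuousLinearMap.opNorm_le_bound _ hc fun ξ => ?_, fun n ξ => ?_⟩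
  · have k1 := re_inner_nonneg (neg_nonneg.2 g3) ξ
    rw [ContinuousLinearMap.neg_apply, inner_neg_right, Complex.neg_re, key g g1] at k1
    refine le_trans (le_of_pow_le_pow_left₀ two_ne_zero (by positivity) ?_)
      (mul_le_mul_of_nonneg_left (pn g g1 ξ) hc)
    rw [mul_pow, ContinuousLinearMap.mul_apply]
    linarith
  · have c1 : Commute x (1 - g) := (Commute.one_right x).sub_right xg
    have k2 : ∀ ζ, c * ‖(1 - g) ζ‖ ≤ ‖(1 - g) (x ζ)‖ := fun ζ => by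
      have k1 := re_inner_nonneg g4 ζ
      rw [key _ g1.one_sub] at k1
      rw [← ContinuousLinearMap.mul_apply, ← c1.eq, ContinuousLinearMap.mul_apply]
      exact le_of_pow_le_pow_left₀ two_ne_zero (norm_nonneg _) (by rw [mul_pow]; linarith)
    refine le_trans ?_ (pn _ g1.one_sub _)
    induction n with
    | zero => simp
    | succ n ih =>
      rw [pow_succ' x, ContinuousLinearMap.mul_apply, pow_succ', mul_assoc]
      exact (mul_le_mul_of_nonneg_left ih hc).trans (k2 _)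

end Vale.Agent.P078.G
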