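import Vale.Agent.P078.Kap
import Vale.Agent.P078.Gel

/-!
General MASAs in tracial algebras: definitions.
-/

open Finset Filter
open scoped Classical

namespace Vale.Agent.P078.G

variable {H : Type*} [NormedAddCommGroup H] [InnerProductSpace ℂ H] [CompleteSpace H]

/-- Finite partitions of unity in `A`. -/
structure Part (A : StarSubalgebra ℂ (H →L[ℂ] H)) where
  ι : Type
  [fin : Fintype ι]
  e : ι → H →L[ℂ] H
  mem : ∀ i, e i ∈ A
  proj : ∀ i, IsStarProjection (e i)
  orth : ∀ i j, i ≠ j → e i * e j = 0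
  sum : ∑ i, e i = 1

attribute [instance] Part.fin

variable {M : VonNeumannAlgebra H} {A : StarSubalgebra ℂ (H →L[ℂ] H)}

/-- Refinement. -/
instance : Preorder (Part A) where
  le P Q := ∃ π : Q.ι → P.ι, ∀ i, P.e i = ∑ j, if π j = i then Q.e j else 0
  le_refl P := ⟨id, fun i => by simp⟩
  le_trans P Q R := by
    rintro ⟨π, h⟩ ⟨ρ, h'⟩
    refine ⟨π ∘ ρ, fun i => ?_⟩
    have : ∀ j, (if π j = i then Q.e j else 0) =
        ∑ l, if ρ l = j then (if π j = i then R.e l else 0) else 0 := fun j => by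
      split_ifs
      · exact h' j
      · simp
    rw [h, sum_congr rfl fun j _ => this j, sum_comm]
    simp

/-- The trivial partition. -/
def Part.triv (A : StarSubalgebra ℂ (H →L[ℂ] H)) : Part A where
  ι := Unit
  e := fun _ => 1
  mem := fun _ => one_mem A
  proj := fun _ => IsStarProjection.one _
  orth := fun _ _ h => absurd rfl h
  sum := by simp

instance : Nonempty (Part A) := ⟨Part.triv A⟩

/-- Pinching. -/
noncomputable def Part.S (P : Part A) (y : H →L[ℂ] H) : H →L[ℂ] H := ∑ i, P.e i * y * P.e i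

variable (E : (H →L[ℂ] H) → H →L[ℂ] H) (Ω : H)

/-- Block functional of a finite family. -/
noncomputable def Ph (Q : Part A) {κ : Type} [Fintype κ] (X : κ → H →L[ℂ] H) : ℝ :=
  ∑ m, ‖E (∑ l, X l * Q.e m * star (X l)) Ω‖ ^ 2

noncomputable def DQ (Q : Part A) (y : H →L[ℂ] H) : ℝ := ∑ m, ‖E (y * Q.e m * star y) Ω‖ ^ 2

/-- Size of the atomic part of `y`. -/
noncomputable def DD (A : StarSubalgebra ℂ (H →L[ℂ] H)) (y : H →L[ℂ] H) : ℝ :=
  ⨅ Q : Part A, DQ E Ω Q y

noncomputable def F4 (Q : Part A) (y : Fin 4 → H →L[ℂ] H) : ℂ :=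
  ∑ m, tau Ω (E (y 0 * Q.e m * star (y 1)) * E (y 2 * Q.e m * star (y 3)))

variable {E Ω}

/-- Span of the normalizer. -/
noncomputable def N0 (M : VonNeumannAlgebra H) (A : StarSubalgebra ℂ (H →L[ℂ] H)) :
    Submodule ℂ (H →L[ℂ] H) := Submodule.span ℂ (Set.range (op : NG M A → H →L[ℂ] H))

/-- Elements of `M` orthogonal to the normalizer. -/
def Zs (M : VonNeumannAlgebra H) (A : StarSubalgebra ℂ (H →L[ℂ] H)) (Ω : H) : Set (H →L[ℂ] H) :=
  {z | z ∈ M ∧ ∀ g : NG M A, tau Ω (op g * z) = 0}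

variable {r : ℕ} [NeZero r]

/-- Value of the `k`-th character on a lazy cell. -/
noncomputable def chi (k : ZMod r) : Option (ZMod r) → ℂ
  | none => 1
  | some a => ZMod.stdAddChar (k * a)

/-- The lazy law on one cell. -/
noncomputable def pw (r : ℕ) (ε : ℝ) : Option (ZMod r) → ℝ
  | none => 1 - ε
  | some _ => ε / r

/-- A unitary representation of `ZMod r` in `A`. -/
structure Seed (A : StarSubalgebra ℂ (H →L[ℂ] H)) (r : ℕ) where
  W : ZMod r → H →L[ℂ] H
  mem : ∀ k, W k ∈ A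
  zero : W 0 = 1
  add : ∀ k k', W (k + k') = W k * W k'
  star : ∀ k, star (W k) = W (-k)

omit [NeZero r] in
theorem Seed.norm_le (W : Seed A r) (k : ZMod r) : ‖W.W k‖ ≤ 1 := by
  have h : ‖W.W k‖ * ‖W.W k‖ ≤ 1 := by
    rw [← CStarRing.norm_star_mul_self, W.star, ← W.add, neg_add_cancel, W.zero]
    exact ContinuousLinearMap.norm_id_le
  nlinarith [norm_nonneg (W.W k)]

/-- The trivial seed. -/
def Seed.one (A : StarSubalgebra ℂ (H →L[ℂ] H)) (r : ℕ) : Seed A r where
  W := fun _ => 1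
  mem := fun _ => one_mem A
  zero := rfl
  add := fun _ _ => (mul_one _).symm
  star := fun _ => star_one _

/-- Product of seeds. -/
def Seed.mul (hA : IsMASA M A) (W W' : Seed A r) : Seed A r where
  W := fun k => W.W k * W'.W k
  mem := fun k => mul_mem (W.mem k) (W'.mem k)
  zero := by rw [W.zero, W'.zero, mul_one]
  add := fun k k' => by
    rw [W.add, W'.add, mul_assoc, mul_assoc, ← mul_assoc (W.W k'), hA.2.1 _ (W.mem k') _ (W'.mem k),
      mul_assoc]
  star := fun k => by rw [star_mul, W.star, W'.star, hA.2.1 _ (W'.mem _) _ (W.mem _)]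

/-- Global shift of a seed. -/
noncomputable def Seed.sh (W : Seed A r) : Seed A r where
  W := fun k => (ZMod.stdAddChar k : ℂ) • W.W k
  mem := fun k => A.smul_mem (W.mem k) _
  zero := by simp [W.zero]
  add := fun k k' => by
    rw [AddChar.map_add_eq_mul, W.add, smul_mul_smul_comm]
  star := fun k => by
    rw [star_smul, W.star, AddChar.map_neg_eq_conj]
    rfl

theorem chi_add (k k' : ZMod r) (o : Option (ZMod r)) : chi (k + k') o = chi k o * chi k' o := by
  cases o <;> simp [chi, add_mul, AddChar.map_add_eq_mul]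

theorem chi_neg (k : ZMod r) (o : Option (ZMod r)) : chi (-k) o = star (chi k o) := by
  cases o with
  | none => simp [chi]
  | some a => simp only [chi, neg_mul, AddChar.map_neg_eq_conj]; rfl

/-- The seed given by a lazy configuration on the cells of `P`. -/
noncomputable def Part.lz (P : Part A) (ω : P.ι → Option (ZMod r)) : Seed A r where
  W := fun k => ∑ l, chi k (ω l) • P.e l
  mem := fun _ => sum_mem fun l _ => A.smul_mem (P.mem l) _
  zero := by
    rw [← P.sum]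
    exact sum_congr rfl fun l _ => by cases ω l <;> simp [chi]
  add := fun k k' => by
    rw [sum_mul_sum]
    refine sum_congr rfl fun l _ => ?_
    rw [sum_eq_single l (fun j _ hj => by rw [smul_mul_smul_comm, P.orth l j hj.symm, smul_zero])
      (by simp), smul_mul_smul_comm, (P.proj l).isIdempotentElem.eq, chi_add]
  star := fun k => by
    rw [star_sum]
    exact sum_congr rfl fun l _ => by rw [star_smul, (P.proj l).isSelfAdjoint.star_eq, chi_neg]

/-- `sg U s i n = U i * s i * U (i+1) * ... * s (i+n-1) * U (i+n)`. -/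
def sg (U s : ℕ → H →L[ℂ] H) (i : ℕ) : ℕ → H →L[ℂ] H
  | 0 => U i
  | n + 1 => sg U s i n * s (i + n) * U (i + n + 1)

/-- Words with `n` slots and letters `U 0, ..., U n`. -/
structure Wd (H : Type*) [NormedAddCommGroup H] [InnerProductSpace ℂ H] (r : ℕ) where
  n : ℕ
  U : ℕ → H →L[ℂ] H
  k : ℕ → ZMod r
  z : ℕ → Prop

def Wd.ev (w : Wd H r) (W : Seed A r) : H →L[ℂ] H := sg w.U (fun t => W.W (w.k t)) 0 w.n

structure Good (M : VonNeumannAlgebra H) (A : StarSubalgebra ℂ (H →L[ℂ] H)) (Ω : H)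
    (E : (H →L[ℂ] H) → H →L[ℂ] H) (w : Wd H r) : Prop where
  norm : ∀ t ≤ w.n, ‖w.U t‖ ≤ 1
  k : ∀ t < w.n, w.k t ≠ 0
  z : ∀ t ≤ w.n, w.z t → w.U t ∈ Zs M A Ω
  nz : ∀ t ≤ w.n, ¬w.z t → ∃ g : NG M A, ∃ a ∈ A, w.U t = op g * a
  sep : ∀ i m, 1 ≤ i → i + m < w.n → (∀ t, i ≤ t → t ≤ i + m → ¬w.z t) →
    ∀ s : ℕ → H →L[ℂ] H, (∀ t, s t ∈ A) → E (sg w.U s i m) = 0

variable (M A Ω E r)

/-- Words that do not start with a centered slot block. -/
def Kg : Set (Seed A r → H →L[ℂ] H) :=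
  {ξ | ∃ w : Wd H r, Good M A Ω E w ∧ (w.n = 0 ∨ w.z 0) ∧ ξ = w.ev}

/-- Words that start with a centered slot block. -/
def Lg : Set (Seed A r → H →L[ℂ] H) :=
  {ξ | ∃ w : Wd H r, Good M A Ω E w ∧ (0 < w.n ∧ ¬w.z 0) ∧ ξ = w.ev}

/-- The algebra generated by `A` and the conjugates of the seed. -/
noncomputable def Balg : Subalgebra ℂ (Seed A r → H →L[ℂ] H) :=
  Algebra.adjoin ℂ ({b | ∃ a ∈ A, b = fun _ => a} ∪
    {b | ∃ (g : NG M A) (k : ZMod r), b = fun W => star (op g) * W.W k * op g})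

variable {M A Ω E r}

/-- A finitely additive probability on `S`, as a linear functional. -/
structure IsMean {S : Type*} (Λ : (S → ℂ) →ₗ[ℂ] ℂ) : Prop where
  le : ∀ (f : S → ℂ) (c d : ℝ), (∀ s, ‖f s‖ ≤ c) → (∀ s, (f s).re ≤ d) → (Λ f).re ≤ d
  conj : ∀ (f : S → ℂ) (c : ℝ), (∀ s, ‖f s‖ ≤ c) → Λ (fun s => star (f s)) = star (Λ f)

/-- A family of partitions. -/
def IsPart (A : StarSubalgebra ℂ (H →L[ℂ] H)) {r : ℕ} (p : Fin r → H →L[ℂ] H) : Prop :=
  (∀ i, p i ∈ A ∧ IsStarProjection (p i)) ∧ (∀ i j, i ≠ j → p i * p j = 0) ∧ ∑ i, p i = 1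

end Vale.Agent.P078.G
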