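import Vale.Agent.P078.G.Diff1

/-!
Elements orthogonal to the normalizer have no atomic part.

PLAN. `Zs` is `Clo` and closed under `star` and multiplication by `N0` (`A_le_N`, `N_mul`). If `DD z > 0`, `stage` gives `y₁`; `v = star y₁ ∈ Zs` has
`v a v* ∈ A` and `DQ P v = Σ ‖v e v* Ω‖² = Σ ‖e v* v e Ω‖² = ‖S_P (v* v) Ω‖² ≥ ‖E (v* v) Ω‖² > 0`. `stage` for `v` gives `y₂ ∈ Zs`, `y₂* A y₂ ⊆ A`;
`{y | ∀ a ∈ A, y a v* ∈ A}` is `Clo` so contains `y₂`, then `{y' | ∀ a ∈ A, y₂ a y'* ∈ A}` is `Clo`, contains `v`, so contains `y₂`.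
`no_norm`: `u = y c` with `c ∈ A`, `u* u = e` a nonzero projection (clopen set where `ev (y* y) > δ`). If `u b u* = b` for all projections `b = b e` of `A`
then `u` commutes with all projections, `u ∈ A`, `tau (u* u) = 0`. Otherwise `p = b (1 - u b u*) ≠ 0` (equal traces, faithfulness), and
`g = u p + p u* + (1 - p - u p u*)` is a self-adjoint unitary of the normalizer (`mem_norm`) with `g u p = p`, against `u p ∈ Zs`.
-/

open Finset Filter
open scoped Classical

namespace Vale.Agent.P078.G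

variable {H : Type*} [NormedAddCommGroup H] [InnerProductSpace ℂ H] [CompleteSpace H]
  {M : VonNeumannAlgebra H} {A : StarSubalgebra ℂ (H →L[ℂ] H)} {Ω : H}
  {E : (H →L[ℂ] H) → H →L[ℂ] H}

variable {z y : H →L[ℂ] H}

theorem Zs_tau (hz : z ∈ Zs M A Ω) (hy : y ∈ N0 M A) : tau Ω (y * z) = 0 := by
  induction hy using Submodule.span_induction with
  | mem _ h => obtain ⟨w, rfl⟩ := h; exact hz.2 w
  | zero => simp [tau]
  | add _ _ _ _ h1 h2 => rw [add_mul, tau_add, h1, h2, add_zero]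
  | smul c _ _ h => rw [smul_mul_assoc, tau_smul, h, mul_zero]

theorem Zs_left (hz : z ∈ Zs M A Ω) (hy : y ∈ N0 M A) : y * z ∈ Zs M A Ω :=
  ⟨mul_mem (N_mem hy) hz.1, fun g => by
    rw [← mul_assoc]
    exact Zs_tau hz (N_mul (Submodule.subset_span ⟨g, rfl⟩) hy)⟩

theorem Zs_right (hΩ : IsTraceVector M Ω) (hz : z ∈ Zs M A Ω) (hy : y ∈ N0 M A) :
    z * y ∈ Zs M A Ω :=
  ⟨mul_mem hz.1 (N_mem hy), fun g => by
    rw [← mul_assoc, tau_comm hΩ (mul_mem (op_mem g) hz.1) (N_mem hy), ← mul_assoc]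
    exact Zs_tau hz (N_mul hy (Submodule.subset_span ⟨g, rfl⟩))⟩

theorem Zs_star (hΩ : IsTraceVector M Ω) (hz : z ∈ Zs M A Ω) : star z ∈ Zs M A Ω :=
  ⟨star_mem hz.1, fun g => by
    have h := tau_star (Ω := Ω) (op g⁻¹ * z)
    rw [hz.2, map_zero, star_mul, op_inv, star_star] at h
    rw [tau_comm hΩ (op_mem g) (star_mem hz.1), h]⟩

theorem Zs_smul (hz : z ∈ Zs M A Ω) (c : ℂ) : c • z ∈ Zs M A Ω :=
  ⟨smul_mem_M hz.1 c, fun g => by rw [mul_smul_comm, tau_smul, hz.2, mul_zero]⟩

namespace D2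

theorem zero_of_tau (hΩ : IsTraceVector M Ω) (hy : y ∈ M) (h : tau Ω (star y * y) = 0) : y = 0 := by
  have h1 := re_tau (Ω := Ω) y
  rw [h, Complex.zero_re] at h1
  exact hΩ.2.2 y hy (norm_eq_zero.1 (pow_eq_zero_iff two_ne_zero |>.1 h1.symm))

theorem swap0 {w : H →L[ℂ] H} (hA : IsMASA M A) (hΩ : IsTraceVector M Ω) (hw : w ∈ Zs M A Ω)
    (h1 : ∀ a ∈ A, star w * a * w ∈ A) (h2 : ∀ a ∈ A, w * a * star w ∈ A)
    (hi : w * (star w * w) = w) (hn : w * w = 0) : w = 0 := by
  have pA : star w * w ∈ A := by simpa using h1 1 (one_mem A)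
  have qA : w * star w ∈ A := by simpa using h2 1 (one_mem A)
  obtain ⟨r, hr⟩ : ∃ r, r = 1 - star w * w - w * star w := ⟨_, rfl⟩
  have rA : r ∈ A := hr ▸ sub_mem (sub_mem (one_mem A) pA) qA
  have rs : star r = r := by simp [hr]
  have waw : ∀ a ∈ A, w * a * w = 0 := fun a ha => by
    calc w * a * w = w * (star w * w) * a * w := by rw [hi]
      _ = w * (star w * w * a) * w := by simp only [mul_assoc]
      _ = w * (a * (star w * w)) * w := by rw [hA.2.1 _ pA _ ha]
      _ = w * a * star w * (w * w) := by simp only [mul_assoc]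
      _ = 0 := by rw [hn, mul_zero]
  have wr : w * r = 0 := by
    rw [hr, mul_sub, mul_sub, hi, mul_one, ← mul_assoc, hn]
    simp
  have rw0 : r * w = 0 := by
    rw [hr, sub_mul, sub_mul, mul_assoc w, hi, one_mul, mul_assoc, hn]
    simp
  have sr : star w * r = 0 := by simpa [rs] using congrArg star rw0
  have rs0 : r * star w = 0 := by simpa [rs] using congrArg star wr
  have key : ∀ a ∈ A, (w + star w + r) * a * (w + star w + r) =
      w * a * star w + star w * a * w + r * a * r := fun a ha => by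
    have e1 := waw a ha
    have e2 : star w * a * star w = 0 := by
      simpa [mul_assoc] using congrArg star (waw _ (star_mem ha))
    have e3 : w * a * r = 0 := by rw [mul_assoc, hA.2.1 _ ha _ rA, ← mul_assoc, wr, zero_mul]
    have e4 : star w * a * r = 0 := by rw [mul_assoc, hA.2.1 _ ha _ rA, ← mul_assoc, sr, zero_mul]
    have e5 : r * a * w = 0 := by rw [hA.2.1 _ rA _ ha, mul_assoc, rw0, mul_zero]
    have e6 : r * a * star w = 0 := by rw [hA.2.1 _ rA _ ha, mul_assoc, rs0, mul_zero]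
    simp only [add_mul, mul_add, e1, e2, e3, e4, e5, e6]
    abel
  have gs : star (w + star w + r) = w + star w + r := by
    rw [star_add, star_add, star_star, rs, add_comm (star w)]
  have rr : r * r = r := by
    conv_lhs => rw [hr]
    rw [← hr, hr, mul_sub, mul_sub, ← hr, mul_one, ← mul_assoc, ← mul_assoc, rs0, rw0]
    simp
  have gg : (w + star w + r) * (w + star w + r) = 1 := by
    have := key 1 (one_mem A)
    simp only [mul_one] at this
    rw [this, rr, hr]
    abel
  have gA : ∀ a ∈ A, (w + star w + r) * a * (w + star w + r) ∈ A := fun a ha => by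
    rw [key a ha]
    exact add_mem (add_mem (h2 a ha) (h1 a ha)) (mul_mem (mul_mem rA ha) rA)
  have gu : w + star w + r ∈ unitary (H →L[ℂ] H) := by
    rw [Unitary.mem_iff, gs]
    exact ⟨gg, gg⟩
  have gn : w + star w + r ∈ normalizer M A :=
    mem_norm.2 ⟨add_mem (add_mem hw.1 (star_mem hw.1)) (hA.1 r rA), gu, by rw [gs]; exact gA,
      by rw [gs]; exact gA⟩
  have h := hw.2 ⟨⟨_, gu⟩, gn⟩
  have e : op (⟨⟨_, gu⟩, gn⟩ : NG M A) * w = star w * w := by
    change (w + star w + r) * w = _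
    rw [add_mul, add_mul, hn, rw0, zero_add, add_zero]
  rw [e] at h
  exact zero_of_tau hΩ hw.1 h

theorem piso {u : H →L[ℂ] H} (hA : IsMASA M A) (hΩ : IsTraceVector M Ω) (hu : u ∈ Zs M A Ω)
    (h1 : ∀ a ∈ A, star u * a * u ∈ A) (h2 : ∀ a ∈ A, u * a * star u ∈ A)
    (hi : u * (star u * u) = u) : u = 0 := by
  obtain ⟨e, he⟩ : ∃ e, e = star u * u := ⟨_, rfl⟩
  have eA : e ∈ A := by simpa [he] using h1 1 (one_mem A)
  have es : star e = e := by simp [he]
  have ee : e * e = e := by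
    conv_lhs => rw [he]
    rw [mul_assoc, hi, he]
  rw [← he] at hi
  have key : ∀ b ∈ A, IsStarProjection b → u * b * star u = b * e := fun b hb hp => by
    have bb : b * b = b := hp.isIdempotentElem.eq
    have bs : star b = b := hp.isSelfAdjoint.star_eq
    obtain ⟨q, hq⟩ : ∃ q, q = u * b * star u := ⟨_, rfl⟩
    have qA : q ∈ A := hq ▸ h2 b hb
    have qs : star q = q := by simp [hq, bs, mul_assoc]
    have qu : q * u = u * b := by
      rw [hq, mul_assoc, ← he, mul_assoc, hA.2.1 _ hb _ eA, ← mul_assoc, hi]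
    have qq : q * q = q := by
      calc q * q = q * u * b * star u := by simp only [hq, mul_assoc]
        _ = u * (b * b) * star u := by rw [qu, mul_assoc u b b]
        _ = q := by rw [bb, hq]
    have be : b * e * (b * e) = b * e := by
      calc b * e * (b * e) = b * (e * b) * e := by simp only [mul_assoc]
        _ = b * b * (e * e) := by rw [hA.2.1 _ eA _ hb]; simp only [mul_assoc]
        _ = b * e := by rw [bb, ee]
    have beA : b * e ∈ A := mul_mem hb eA
    have bes : star (b * e) = b * e := by rw [star_mul, es, bs, hA.2.1 _ eA _ hb]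
    obtain ⟨p, hp'⟩ : ∃ p, p = b * e * (1 - q) := ⟨_, rfl⟩
    have q1 : 1 - q ∈ A := sub_mem (one_mem A) qA
    have pA : p ∈ A := hp' ▸ mul_mem beA q1
    have ps : star p = p := by
      rw [hp', star_mul, bes, star_sub, star_one, qs, hA.2.1 _ q1 _ beA]
    have pq : p * q = 0 := by
      rw [hp', mul_assoc, sub_mul, one_mul, qq, sub_self, mul_zero]
    have bp : b * p = p := by rw [hp', ← mul_assoc, ← mul_assoc, bb]
    have ep : e * p = p := by
      rw [hp', ← mul_assoc, ← mul_assoc, hA.2.1 _ eA _ hb, mul_assoc b e e, ee]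
    have pp : p * p = p := by
      have a1 : p * b = p := by rw [hA.2.1 _ pA _ hb, bp]
      have a2 : p * e = p := by rw [hA.2.1 _ pA _ eA, ep]
      calc p * p = p * (b * e * (1 - q)) := by rw [← hp']
        _ = p * b * e * (1 - q) := by simp only [mul_assoc]
        _ = p := by rw [a1, a2, mul_sub, pq, mul_one, sub_zero]
    have ww : star (u * p) * (u * p) = p := by
      calc star (u * p) * (u * p) = p * (star u * u * p) := by
            rw [star_mul, ps]; simp only [mul_assoc]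
        _ = p := by rw [← he, ep, pp]
    have w0 : u * p = 0 := by
      refine swap0 hA hΩ (Zs_right hΩ hu (A_le_N hA pA)) (fun a ha => ?_) (fun a ha => ?_) ?_ ?_
      · have := mul_mem (mul_mem pA (h1 a ha)) pA
        simpa [ps, mul_assoc] using this
      · have := h2 _ (mul_mem (mul_mem pA ha) pA)
        simpa [ps, mul_assoc] using this
      · rw [ww, mul_assoc, pp]
      · calc u * p * (u * p) = u * p * (u * b * p) := by rw [mul_assoc u b p, bp]
          _ = u * (p * q) * u * p := by rw [← qu]; simp only [mul_assoc]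
          _ = 0 := by rw [pq]; simp
    have p0 : p = 0 := by rw [← ww, w0, mul_zero]
    have a1 : b * e * q = b * e := by
      rw [p0, mul_sub, mul_one, eq_comm, sub_eq_zero] at hp'
      exact hp'.symm
    have a2 : q * (b * e) = b * e := by rw [hA.2.1 _ qA _ beA, a1]
    have a3 : star (q - b * e) * (q - b * e) = q - b * e := by
      rw [star_sub, qs, bes, sub_mul, mul_sub, mul_sub, qq, a1, a2, be]
      abel
    have a4 : tau Ω (star (q - b * e) * (q - b * e)) = 0 := by
      rw [a3, tau_sub, hq, tau_comm hΩ (mul_mem hu.1 (hA.1 b hb)) (star_mem hu.1), ← mul_assoc, ← he,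
        hA.2.1 _ eA _ hb, sub_self]
    rw [← hq]
    exact sub_eq_zero.1 (zero_of_tau hΩ (hA.1 _ (sub_mem qA beA)) a4)
  have k1 : u * star u = e := by simpa using key 1 (one_mem A) (IsStarProjection.one _)
  have uA : u ∈ A := mem_of_proj hA hu.1 fun b hb hp => by
    calc u * b = u * e * b := by rw [hi]
      _ = u * b * star u * u := by
          rw [mul_assoc, hA.2.1 _ eA _ hb, he]; simp only [mul_assoc]
      _ = b * (u * (star u * u)) := by rw [key b hb hp, ← k1]; simp only [mul_assoc]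
      _ = b * u := by rw [← he, hi]
  exact zero_of_tau hΩ hu.1 (Zs_tau hu (A_le_N hA (star_mem uA)))

theorem tend_mul (hΩ : IsTraceVector M Ω) {y : ℕ → H →L[ℂ] H} {m b : H →L[ℂ] H} (hy : ∀ n, y n ∈ M)
    (hm : m ∈ M) (hb : b ∈ M) (h : Tendsto (fun n => y n Ω) atTop (nhds (m Ω))) :
    Tendsto (fun n => (y n * b) Ω) atTop (nhds ((m * b) Ω)) := by
  rw [tendsto_iff_norm_sub_tendsto_zero] at h ⊢
  have h' := h.mul_const ‖b‖
  rw [zero_mul] at h'
  refine squeeze_zero (fun _ => norm_nonneg _) (fun n => ?_) h'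
  have := norm_mul_Om hΩ (sub_mem (hy n) hm) hb
  rw [sub_mul] at this
  exact this

theorem limA (hA : IsMASA M A) (hΩ : IsTraceVector M Ω) {y : ℕ → H →L[ℂ] H} {m : H →L[ℂ] H}
    (hy : ∀ n, y n ∈ A) (hm : m ∈ M) (h : Tendsto (fun n => y n Ω) atTop (nhds (m Ω))) : m ∈ A := by
  refine comm_mem hA hm fun a ha => sub_eq_zero.1 (hΩ.2.2 _
    (sub_mem (mul_mem hm (hA.1 a ha)) (mul_mem (hA.1 a ha) hm)) ?_)
  have t1 := tend_mul hΩ (fun n => hA.1 _ (hy n)) hm (hA.1 a ha) h
  have t2 : Tendsto (fun n => (y n * a) Ω) atTop (nhds ((a * m) Ω)) := by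
    have := (a.continuous.tendsto _).comp h
    refine this.congr fun n => ?_
    rw [hA.2.1 _ (hy n) _ ha]
    rfl
  exact sub_eq_zero.2 (tendsto_nhds_unique t1 t2)

theorem clo1 (hA : IsMASA M A) (hΩ : IsTraceVector M Ω) {v : H →L[ℂ] H} (hv : v ∈ M) :
    Clo M A Ω {y | ∀ a ∈ A, y * a * star v ∈ A} where
  zero := fun a _ => by simpa using zero_mem A
  add := fun y hy y' hy' a ha => by
    rw [add_mul, add_mul]
    exact add_mem (hy a ha) (hy' a ha)
  mul := fun y hy a ha b hb c hc => by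
    have := mul_mem ha (hy _ (mul_mem hb hc))
    simpa only [mul_assoc] using this
  lim := fun y C m hm hy h a ha => by
    have hb : a * star v ∈ M := mul_mem (hA.1 a ha) (star_mem hv)
    rw [mul_assoc]
    refine limA hA hΩ (y := fun n => y n * (a * star v)) (fun n => ?_) (mul_mem hm hb)
      (tend_mul hΩ (fun n => (hy n).2.1) hm hb h)
    have := (hy n).1 a ha
    rwa [mul_assoc] at this

theorem cloZ (hA : IsMASA M A) (hΩ : IsTraceVector M Ω) : Clo M A Ω (Zs M A Ω) where
  zero := ⟨zero_mem _, fun g => by simp [tau]⟩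
  add := fun y hy y' hy' => ⟨add_mem hy.1 hy'.1, fun g => by
    rw [mul_add, tau_add, hy.2, hy'.2, add_zero]⟩
  mul := fun y hy a ha b hb => Zs_right hΩ (Zs_left hy (A_le_N hA ha)) (A_le_N hA hb)
  lim := fun y C m hm hy h => ⟨hm, fun g => by
    have t := (tendsto_const_nhds (x := star (op g) Ω)).inner (𝕜 := ℂ) h
    rw [tau_mul]
    refine tendsto_nhds_unique t (tendsto_const_nhds.congr fun n => ?_)
    rw [← tau_mul, (hy n).1.2]⟩

theorem norm_swap (hΩ : IsTraceVector M Ω) {x : H →L[ℂ] H} (hx : x ∈ M) :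
    ‖(x * star x) Ω‖ ^ 2 = ‖(star x * x) Ω‖ ^ 2 := by
  rw [← re_tau, ← re_tau, star_mul, star_mul, star_star, mul_assoc,
    tau_comm hΩ hx (mul_mem (star_mem hx) (mul_mem hx (star_mem hx)))]
  simp only [mul_assoc]

theorem DD_pos (hA : IsMASA M A) (hΩ : IsTraceVector M Ω) (hE : IsE M A Ω E) {v : H →L[ℂ] H}
    (hv : v ∈ M) (h0 : v ≠ 0) (h : ∀ a ∈ A, v * a * star v ∈ A) : 0 < DD E Ω A v := by
  have vv : star v * v ∈ M := mul_mem (star_mem hv) hv
  have p : 0 < ‖E (star v * v) Ω‖ ^ 2 := by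
    refine pow_pos (norm_pos_iff.2 fun e => h0 (zero_of_tau hΩ hv ?_)) 2
    rw [← hE.tr _ vv, tau, e, inner_zero_right]
  refine p.trans_le (le_ciInf fun Q => ?_)
  rw [← E_S hA hE Q vv]
  refine (pow_le_pow_left₀ (norm_nonneg _) (hE.norm2 _ (S_mem hA Q vv)) 2).trans ?_
  rw [S_sq hA hΩ Q vv, DQ]
  refine le_of_eq (sum_congr rfl fun i _ => ?_)
  have := norm_swap hΩ (mul_mem hv (hA.1 _ (Q.mem i)))
  rw [star_mul, (Q.proj i).isSelfAdjoint.star_eq] at this
  have e1 : v * Q.e i * (Q.e i * star v) = v * Q.e i * star v := by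
    rw [← mul_assoc, mul_assoc v, (Q.proj i).isIdempotentElem.eq]
  have e2 : Q.e i * star v * (v * Q.e i) = Q.e i * (star v * v) * Q.e i := by simp only [mul_assoc]
  rw [e1, e2] at this
  rw [hE.self _ (h _ (Q.mem i)), this]

end D2

theorem Zs_E (hA : IsMASA M A) (hΩ : IsTraceVector M Ω) (hE : IsE M A Ω E) (hz : z ∈ Zs M A Ω) :
    E z = 0 := by
  have h := hE.mem z hz.1
  refine D2.zero_of_tau hΩ (hA.1 _ h) ?_
  rw [← hE.left _ (star_mem h) z hz.1, hE.tr _ (mul_mem (hA.1 _ (star_mem h)) hz.1)]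
  exact Zs_tau hz (A_le_N hA (star_mem h))

theorem no_norm (hA : IsMASA M A) (hΩ : IsTraceVector M Ω) (hy : y ∈ Zs M A Ω)
    (h1 : ∀ a ∈ A, star y * a * y ∈ A) (h2 : ∀ a ∈ A, y * a * star y ∈ A) : y = 0 := by
  obtain ⟨X, _, _, _, _, _, _, ev, hG⟩ := exists_gel hA
  have hA' : star y * y ∈ A := by simpa using h1 1 (one_mem A)
  have h0 : 0 ≤ star y * y := star_mul_self_nonneg y
  refine CStarRing.star_mul_self_eq_zero_iff y |>.1 (hG.inj _ hA' ?_)
  ext x0
  by_contra n
  have p : 0 < (ev (star y * y) x0).re := by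
    refine (ev_real hG hA' h0 x0).2.lt_of_ne fun e => n ?_
    rw [(ev_real hG hA' h0 x0).1, ← e]
    rfl
  obtain ⟨δ, hδ⟩ : ∃ δ, δ = (ev (star y * y) x0).re / 2 := ⟨_, rfl⟩
  have δ0 : 0 < δ := by rw [hδ]; positivity
  have cf : Continuous fun x => (ev (star y * y) x).re := by fun_prop
  obtain ⟨V, V1, V2, V3⟩ := compact_exists_isClopen_in_isOpen
    (isOpen_lt (continuous_const (y := δ)) cf) (x := x0) (by simp only [Set.mem_setOf_eq]; linarith)
  have cg : Continuous fun x => (((√(max δ (ev (star y * y) x).re))⁻¹ : ℝ) : ℂ) :=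
    Complex.continuous_ofReal.comp (Continuous.inv₀ (by fun_prop) fun x =>
      (Real.sqrt_pos.2 (δ0.trans_le (le_max_left _ _))).ne')
  obtain ⟨c, cA, hc⟩ := hG.surj ⟨_, V1.continuous_indicator cg⟩
  have eA : star c * (star y * y) * c ∈ A := mul_mem (mul_mem (star_mem cA) hA') cA
  have ev1 : ∀ x, ev (star c * (star y * y) * c) x = if x ∈ V then 1 else 0 := fun x => by
    rw [hG.mul _ (mul_mem (star_mem cA) hA') _ cA, hG.mul _ (star_mem cA) _ hA', hG.star _ cA, hc]
    simp only [ContinuousMap.mul_apply, ContinuousMap.star_apply, ContinuousMap.coe_mk]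
    split_ifs with hx
    · have l : δ < (ev (star y * y) x).re := V3 hx
      have l0 := δ0.trans l
      rw [Set.indicator_of_mem hx, max_eq_right l.le, (ev_real hG hA' h0 x).1, Complex.ofReal_re,
        Complex.star_def, Complex.conj_ofReal, ← Complex.ofReal_mul, ← Complex.ofReal_mul,
        Complex.ofReal_eq_one]
      have s := Real.mul_self_sqrt l0.le
      have s0 := (Real.sqrt_pos.2 l0).ne'
      field_simp
      nlinarith
    · rw [Set.indicator_of_notMem hx, mul_zero]
  have uu : star (y * c) * (y * c) = star c * (star y * y) * c := by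
    rw [star_mul]; simp only [mul_assoc]
  obtain ⟨e, he⟩ : ∃ e, e = star c * (star y * y) * c := ⟨_, rfl⟩
  rw [← he] at eA ev1 uu
  have ee : e * e = e := hG.ext (mul_mem eA eA) eA fun x => by
    rw [hG.mul _ eA _ eA, ContinuousMap.mul_apply, ev1]
    split_ifs <;> simp
  have es : star e = e := by rw [← uu]; simp [mul_assoc]
  have u0 : y * c = 0 := by
    refine D2.piso hA hΩ (Zs_right hΩ hy (A_le_N hA cA)) (fun a ha => ?_) (fun a ha => ?_) ?_
    · have := mul_mem (mul_mem (star_mem cA) (h1 a ha)) cA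
      simpa [mul_assoc] using this
    · have := h2 _ (mul_mem (mul_mem cA ha) (star_mem cA))
      simpa [mul_assoc] using this
    · rw [uu, ← sub_eq_zero, ← CStarRing.star_mul_self_eq_zero_iff]
      calc star (y * c * e - y * c) * (y * c * e - y * c)
          = (e - 1) * (star (y * c) * (y * c)) * (e - 1) := by
            rw [← mul_sub_one, star_mul (y * c), star_sub, es, star_one]; simp only [mul_assoc]
        _ = 0 := by rw [uu, sub_mul, ee, one_mul, sub_self, zero_mul]
  have := ev1 x0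
  rw [← uu, u0, mul_zero, hG.zero, if_pos V2] at this
  exact zero_ne_one this

theorem DD_zero (hA : IsMASA M A) (hΩ : IsTraceVector M Ω) (hE : IsE M A Ω E) (hz : z ∈ Zs M A Ω) :
    DD E Ω A z = 0 := by
  by_contra n
  obtain ⟨y₁, m1, n1, a1, c1⟩ := stage hA hΩ hE hz.1 ((DD_nonneg z).lt_of_ne' n)
  have v1 : star y₁ ∈ Zs M A Ω := Zs_star hΩ (c1 _ (D2.cloZ hA hΩ) hz)
  have v2 : ∀ a ∈ A, star y₁ * a * star (star y₁) ∈ A := by simpa using a1
  obtain ⟨y₂, m2, n2, a2, c2⟩ := stage hA hΩ hE v1.1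
    (D2.DD_pos hA hΩ hE v1.1 (by simpa using n1) v2)
  have b1 := c2 _ (D2.clo1 hA hΩ v1.1) v2
  have b2 := c2 _ (D2.clo1 hA hΩ m2) fun a ha => by
    have := star_mem (b1 _ (star_mem ha))
    simpa [mul_assoc] using this
  exact n2 (no_norm hA hΩ (c2 _ (D2.cloZ hA hΩ) v1) a2 b2)

end Vale.Agent.P078.G
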