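import Vale.Agent.P078.G.Words
import Vale.Agent.P078.G.Dec

/-!
The free norm bound.

PLAN. `abs_bound`: for `v, v'` in the closure `V₀` of `K ⊔ L` approximate `p i v ≈ k + l`, `p i v' ≈ k' + l'`; `‖k‖² = ⟪k, k + l⟫ ≈ ⟪p i k, p i v⟫` gives `‖k‖ ≲ ‖p i v‖ / √r`,
`⟪x (k + l), k' + l'⟫ = ⟪x k, k' + l'⟫ + ⟪x l, k'⟫`, `Σ ‖p i v‖² = ‖v‖²`; test with `v' = y v ∈ V₀`.
`free`: `V` = submodule of bounded `M`-valued families, semi-inner product `Λ (tau (ξ* η))` (`PreInnerProductSpace.Core`; put the structure on a type synonym or use `letI`), multiplication operators;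
`‖b ξ‖ ≤ sup ‖b W‖ ‖ξ‖`, `‖m ρ‖ ≤ ‖m Ω‖` for constant `m ∈ M` and `‖ρ W‖ ≤ 1` (`norm_mul_Om`). `K, L` = spans of `Kg, Lg`; `KL_word`, `z_Lg`, `Kg_head` with `dec` applied to `x U`, `Balg_mul`;
`t i = ⟪k, p i k⟫` satisfies `t (i+1) = t i` by `Balg_sh` and approximation, `Σ t i = ‖k‖²`. Then `‖y^n 1‖ ≤ (2/√r)^n`, and `IsMean.le` applied to `-f` gives a seed.
-/

open Finset Filter
open scoped Classical

namespace Vale.Agent.P078.G

variable {H : Type*} [NormedAddCommGroup H] [InnerProductSpace ℂ H] [CompleteSpace H]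
  {M : VonNeumannAlgebra H} {A : StarSubalgebra ℂ (H →L[ℂ] H)} {Ω : H}
  {E : (H →L[ℂ] H) → H →L[ℂ] H}

namespace FreeA

open scoped InnerProductSpace

theorem re_self {V : Type*} [SeminormedAddCommGroup V] [InnerProductSpace ℂ V] (v : V) :
    (⟪v, v⟫_ℂ).re = ‖v‖ ^ 2 := inner_self_eq_norm_sq (𝕜 := ℂ) v

theorem re_le {V : Type*} [SeminormedAddCommGroup V] [InnerProductSpace ℂ V] (v w : V) :
    (⟪v, w⟫_ℂ).re ≤ ‖v‖ * ‖w‖ := (Complex.re_le_norm _).trans (norm_inner_le_norm v w)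

theorem le_of_sq {a b : ℝ} (ha : 0 ≤ a) (hb : 0 ≤ b) (h : a ^ 2 ≤ a * b) : a ≤ b := by
  by_contra hc
  nlinarith [not_le.1 hc]

theorem pyth {V : Type*} [SeminormedAddCommGroup V] [InnerProductSpace ℂ V] {r : ℕ}
    {p : Fin r → V →ₗ[ℂ] V} (p1 : ∀ i v w, ⟪p i v, w⟫_ℂ = ⟪v, p i w⟫_ℂ)
    (p2 : ∀ i v, p i (p i v) = p i v) (p4 : ∀ v, ∑ i, p i v = v) (v : V) :
    (∀ i, ‖p i v‖ ^ 2 = (⟪v, p i v⟫_ℂ).re) ∧ ∑ i, ‖p i v‖ ^ 2 = ‖v‖ ^ 2 := by
  have h : ∀ i, ‖p i v‖ ^ 2 = (⟪v, p i v⟫_ℂ).re := fun i => by rw [← re_self, p1, p2]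
  refine ⟨h, ?_⟩
  simp only [h]
  rw [← Complex.re_sum, ← inner_sum, p4, re_self]

end FreeA

open FreeA

open scoped InnerProductSpace in
theorem abs_bound {V : Type*} [SeminormedAddCommGroup V] [InnerProductSpace ℂ V] {r : ℕ} (hr : 0 < r)
    (K L : Submodule ℂ V) (p : Fin r → V →ₗ[ℂ] V) (x : V →ₗ[ℂ] V)
    (p1 : ∀ i v w, ⟪p i v, w⟫_ℂ = ⟪v, p i w⟫_ℂ) (p2 : ∀ i v, p i (p i v) = p i v)
    (p3 : ∀ i j v, i ≠ j → p i (p j v) = 0) (p4 : ∀ v, ∑ i, p i v = v) (hx : ∀ v, ‖x v‖ ≤ ‖v‖)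
    (hKL : ∀ k ∈ K, ∀ l ∈ L, ⟪k, l⟫_ℂ = 0) (hK : ∀ i, ∀ k ∈ K, ‖p i k‖ ^ 2 ≤ ‖k‖ ^ 2 / r)
    (hL : ∀ l ∈ L, x l ∈ K)
    (i1 : ∀ i, ∀ v ∈ K ⊔ L, p i v ∈ closure ((K ⊔ L : Submodule ℂ V) : Set V))
    (i2 : ∀ v ∈ K, x v ∈ closure ((K ⊔ L : Submodule ℂ V) : Set V)) (n : ℕ) :
    ∀ v ∈ K, ‖(fun u => ∑ i, p i (x (p i u)))^[n] v‖ ≤ (2 / √(r : ℝ)) ^ n * ‖v‖ := by
  have r0 : 0 < √(r : ℝ) := Real.sqrt_pos.2 (by exact_mod_cast hr)
  have pn : ∀ i v, ‖p i v‖ ≤ ‖v‖ := fun i v => le_of_sq (norm_nonneg _) (norm_nonneg _) (by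
    rw [(pyth p1 p2 p4 v).1 i, mul_comm]
    exact re_le _ _)
  have pc : ∀ i, Continuous (p i) := fun i =>
    AddMonoidHomClass.continuous_of_bound (p i) 1 fun v => by rw [one_mul]; exact pn i v
  have xc : Continuous x := AddMonoidHomClass.continuous_of_bound x 1 fun v => by
    rw [one_mul]; exact hx v
  let T := (K ⊔ L).topologicalClosure
  have t1 : ∀ i, ∀ v ∈ T, p i v ∈ T := fun i v hv => by
    have := map_mem_closure (pc i) hv (i1 i)
    rwa [closure_closure] at this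
  have t2 : ∀ v ∈ T, x v ∈ T := fun v hv => by
    have := map_mem_closure (t := T) xc hv fun u hu => by
      obtain ⟨k, hk, l, hl, rfl⟩ := Submodule.mem_sup.1 hu
      rw [map_add]
      exact add_mem (i2 k hk) ((K ⊔ L).le_topologicalClosure (Submodule.mem_sup_left (hL l hl)))
    rwa [(K ⊔ L).isClosed_topologicalClosure.closure_eq] at this
  have k1 : ∀ i, ∀ k ∈ K, ∀ l ∈ L,
      ‖k‖ ≤ ‖p i (k + l)‖ / √(r : ℝ) + ‖k + l - p i (k + l)‖ := fun i k hk l hl => by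
    refine le_of_sq (norm_nonneg _) (by positivity) ?_
    have e : (⟪k, k⟫_ℂ).re = (⟪p i k, p i (k + l)⟫_ℂ).re + (⟪k, k + l - p i (k + l)⟫_ℂ).re := by
      rw [p1, p2, ← Complex.add_re, ← inner_add_right, add_sub_cancel, inner_add_right, hKL k hk l hl,
        add_zero]
    have e2 : ‖p i k‖ ≤ ‖k‖ / √(r : ℝ) := by
      refine (pow_le_pow_iff_left₀ (norm_nonneg _) (by positivity) two_ne_zero).1 ?_
      rw [div_pow, Real.sq_sqrt (Nat.cast_nonneg r)]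
      exact hK i k hk
    have e3 := mul_le_mul_of_nonneg_right e2 (norm_nonneg (p i (k + l)))
    have e4 := re_le (p i k) (p i (k + l))
    have e5 := re_le k (k + l - p i (k + l))
    rw [← re_self, e, mul_add, ← mul_div_assoc, ← div_mul_eq_mul_div]
    linarith
  have k2 : ∀ k ∈ K, ∀ l ∈ L, ‖l‖ ≤ ‖k + l‖ := fun k hk l hl => by
    refine le_of_sq (norm_nonneg _) (norm_nonneg _) ?_
    have := re_le (k + l) l
    rw [inner_add_left, hKL k hk l hl, zero_add, re_self] at this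
    linarith
  have k3 : ∀ i, ∀ u ∈ K ⊔ L, ∀ u' ∈ K ⊔ L, ‖⟪x u, u'⟫_ℂ‖ ≤
      (‖p i u‖ / √(r : ℝ) + ‖u - p i u‖) * ‖u'‖ + ‖u‖ * (‖p i u'‖ / √(r : ℝ) + ‖u' - p i u'‖) := by
    intro i u hu u' hu'
    obtain ⟨k, hk, l, hl, rfl⟩ := Submodule.mem_sup.1 hu
    obtain ⟨k', hk', l', hl', rfl⟩ := Submodule.mem_sup.1 hu'
    have e : ⟪x (k + l), k' + l'⟫_ℂ = ⟪x k, k' + l'⟫_ℂ + ⟪x l, k'⟫_ℂ := by
      rw [map_add, inner_add_left, inner_add_right (x l), hKL _ (hL l hl) l' hl', add_zero]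
    rw [e]
    refine (norm_add_le _ _).trans (add_le_add ((norm_inner_le_norm _ _).trans ?_)
      ((norm_inner_le_norm _ _).trans ?_))
    · exact mul_le_mul_of_nonneg_right ((hx k).trans (k1 i k hk l hl)) (norm_nonneg _)
    · exact mul_le_mul ((hx l).trans (k2 k hk l hl)) (k1 i k' hk' l' hl') (norm_nonneg _)
        (norm_nonneg _)
  have k4 : ∀ i, ∀ u ∈ T, ∀ u' ∈ T, ‖⟪x u, u'⟫_ℂ‖ ≤
      (‖p i u‖ / √(r : ℝ) + ‖u - p i u‖) * ‖u'‖ + ‖u‖ * (‖p i u'‖ / √(r : ℝ) + ‖u' - p i u'‖) := by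
    intro i u hu u' hu'
    have c := pc i
    have hm : (u, u') ∈ closure ((K ⊔ L : Submodule ℂ V) ×ˢ (K ⊔ L : Submodule ℂ V) : Set (V × V)) := by
      rw [closure_prod_eq]
      exact ⟨hu, hu'⟩
    exact (isClosed_le (f := fun q : V × V => ‖⟪x q.1, q.2⟫_ℂ‖)
      (g := fun q : V × V => (‖p i q.1‖ / √(r : ℝ) + ‖q.1 - p i q.1‖) * ‖q.2‖ +
        ‖q.1‖ * (‖p i q.2‖ / √(r : ℝ) + ‖q.2 - p i q.2‖)) (by fun_prop) (by fun_prop)).closure_subset_iff.2
      (fun q hq => k3 i q.1 hq.1 q.2 hq.2) hm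
  have k5 : ∀ v ∈ T, ∑ i, p i (x (p i v)) ∈ T := fun v hv =>
    sum_mem fun i _ => t1 i _ (t2 _ (t1 i v hv))
  have k6 : ∀ v ∈ T, ‖∑ i, p i (x (p i v))‖ ≤ 2 / √(r : ℝ) * ‖v‖ := fun v hv => by
    obtain ⟨v', e⟩ : ∃ v', v' = ∑ i, p i (x (p i v)) := ⟨_, rfl⟩
    have hv' : v' ∈ T := e ▸ k5 v hv
    rw [← e]
    refine le_of_sq (norm_nonneg _) (by positivity) ?_
    have e1 : ‖v'‖ ^ 2 ≤ ∑ i, 2 / √(r : ℝ) * (‖p i v‖ * ‖p i v'‖) := by
      rw [← re_self]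
      nth_rewrite 1 [e]
      rw [sum_inner, Complex.re_sum]
      refine sum_le_sum fun i _ => (Complex.re_le_norm _).trans ?_
      rw [p1]
      refine (k4 i _ (t1 i v hv) _ (t1 i v' hv')).trans (le_of_eq ?_)
      rw [p2, p2, sub_self, sub_self, norm_zero]
      ring
    have e2 : ∑ i, ‖p i v‖ * ‖p i v'‖ ≤ ‖v‖ * ‖v'‖ := by
      refine (pow_le_pow_iff_left₀ (by positivity) (by positivity) two_ne_zero).1 ?_
      rw [mul_pow, ← (pyth p1 p2 p4 v).2, ← (pyth p1 p2 p4 v').2]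
      exact sum_mul_sq_le_sq_mul_sq _ _ _
    rw [← mul_sum] at e1
    have e3 := mul_le_mul_of_nonneg_left e2 (show 0 ≤ 2 / √(r : ℝ) by positivity)
    linarith
  have k7 : ∀ v ∈ T, ‖(fun u => ∑ i, p i (x (p i u)))^[n] v‖ ≤ (2 / √(r : ℝ)) ^ n * ‖v‖ := by
    induction n with
    | zero => simp
    | succ n ih =>
      intro v hv
      rw [Function.iterate_succ_apply, pow_succ, mul_assoc]
      exact (ih _ (k5 v hv)).trans (mul_le_mul_of_nonneg_left (k6 v hv) (by positivity))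
  exact fun v hv => k7 v ((K ⊔ L).le_topologicalClosure (Submodule.mem_sup_left hv))

namespace FreeA

open scoped InnerProductSpace

variable {S : Type*} {Λ : (S → ℂ) →ₗ[ℂ] ℂ}

/-- Bounded families of vectors. -/
def Bv (S H : Type*) [NormedAddCommGroup H] [InnerProductSpace ℂ H] : Submodule ℂ (S → H) where
  carrier := {v | ∃ C : ℝ, ∀ s, ‖v s‖ ≤ C}
  zero_mem' := ⟨0, fun _ => by simp⟩
  add_mem' := by
    rintro v w ⟨C, h⟩ ⟨D, h'⟩
    exact ⟨C + D, fun s => (norm_add_le _ _).trans (add_le_add (h s) (h' s))⟩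
  smul_mem' := by
    rintro c v ⟨C, h⟩
    exact ⟨‖c‖ * C, fun s => (norm_smul_le c (v s)).trans
      (mul_le_mul_of_nonneg_left (h s) (norm_nonneg _))⟩

/-- Bounded families with the mean inner product. -/
def VV (H : Type*) [NormedAddCommGroup H] [InnerProductSpace ℂ H] (_h : IsMean Λ) : Type _ :=
  ↥(Bv S H)

variable {hΛ : IsMean Λ}

instance : AddCommGroup (VV H hΛ) := inferInstanceAs (AddCommGroup (Bv S H))

instance : Module ℂ (VV H hΛ) := inferInstanceAs (Module ℂ (Bv S H))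

/-- The underlying family. -/
def val : VV H hΛ →ₗ[ℂ] S → H := (Bv S H).subtype

/-- Constructor. -/
def mk (v : S → H) (h : ∃ C : ℝ, ∀ s, ‖v s‖ ≤ C) : VV H hΛ := ⟨v, h⟩

omit [CompleteSpace H] in
theorem val_bd (v : VV H hΛ) : ∃ C : ℝ, ∀ s, ‖val v s‖ ≤ C := Subtype.property (p := (· ∈ Bv S H)) v

omit [CompleteSpace H] in
theorem val_inj {v w : VV H hΛ} (h : ∀ s, val v s = val w s) : v = w :=
  Subtype.ext (p := (· ∈ Bv S H)) (funext h)

omit [CompleteSpace H] in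
theorem inn_bd (v w : VV H hΛ) : ∃ C : ℝ, ∀ s, ‖⟪val v s, val w s⟫_ℂ‖ ≤ C := by
  obtain ⟨C, h⟩ := val_bd v
  obtain ⟨D, h'⟩ := val_bd w
  exact ⟨C * D, fun s => (norm_inner_le_norm _ _).trans
    (mul_le_mul (h s) (h' s) (norm_nonneg _) ((norm_nonneg _).trans (h s)))⟩

/-- The semi-inner product. -/
noncomputable abbrev vcore : PreInnerProductSpace.Core ℂ (VV H hΛ) where
  inner v w := Λ fun s => ⟪val v s, val w s⟫_ℂ
  conj_inner_symm v w := by
    obtain ⟨C, h⟩ := inn_bd w v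
    refine (hΛ.conj _ C h).symm.trans (congrArg Λ (funext fun s => inner_conj_symm _ _))
  re_inner_nonneg v := by
    obtain ⟨C, h⟩ := inn_bd v v
    have := hΛ.le (-fun s => ⟪val v s, val v s⟫_ℂ) C 0 (fun s => by simpa using h s) fun s => by
      rw [Pi.neg_apply, Complex.neg_re, re_self]
      exact neg_nonpos.2 (sq_nonneg _)
    rw [map_neg, Complex.neg_re] at this
    exact neg_nonpos.1 this
  add_left u v w := by
    rw [← map_add]
    exact congrArg Λ (funext fun s => by simp [inner_add_left])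
  smul_left u v c := by
    rw [← smul_eq_mul, ← map_smul]
    exact congrArg Λ (funext fun s => by simp [inner_smul_left, mul_comm])

noncomputable instance : SeminormedAddCommGroup (VV H hΛ) :=
  InnerProductSpace.Core.toSeminormedAddCommGroup (c := vcore)

noncomputable instance : InnerProductSpace ℂ (VV H hΛ) := InnerProductSpace.ofCore vcore

omit [CompleteSpace H] in
theorem inn_def (v w : VV H hΛ) : ⟪v, w⟫_ℂ = Λ fun s => ⟪val v s, val w s⟫_ℂ := rfl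

omit [CompleteSpace H] in
theorem norm_le {v : VV H hΛ} {d : ℝ} (hd : 0 ≤ d) (h : ∀ s, ‖val v s‖ ≤ d) : ‖v‖ ≤ d := by
  obtain ⟨C, hC⟩ := inn_bd v v
  refine (pow_le_pow_iff_left₀ (norm_nonneg _) hd two_ne_zero).1 ?_
  rw [← re_self, inn_def]
  exact hΛ.le _ C _ hC fun s => by
    rw [re_self]
    exact pow_le_pow_left₀ (norm_nonneg _) (h s) 2

omit [CompleteSpace H] in
theorem norm_mono {v w : VV H hΛ} {d : ℝ} (hd : 0 ≤ d) (h : ∀ s, ‖val v s‖ ≤ d * ‖val w s‖) :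
    ‖v‖ ≤ d * ‖w‖ := by
  obtain ⟨C, hC⟩ := inn_bd v v
  obtain ⟨D, hD⟩ := inn_bd w w
  refine (pow_le_pow_iff_left₀ (norm_nonneg _) (by positivity) two_ne_zero).1 ?_
  have := hΛ.le ((fun s => ⟪val v s, val v s⟫_ℂ) - ((d ^ 2 : ℝ) : ℂ) • fun s => ⟪val w s, val w s⟫_ℂ)
    (C + ‖((d ^ 2 : ℝ) : ℂ)‖ * D) 0 (fun s => (norm_sub_le _ _).trans (add_le_add (hC s)
      ((norm_smul_le ((d ^ 2 : ℝ) : ℂ) ⟪val w s, val w s⟫_ℂ).trans
        (mul_le_mul_of_nonneg_left (hD s) (norm_nonneg _))))) fun s => by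
    rw [Pi.sub_apply, Pi.smul_apply, smul_eq_mul, Complex.sub_re, Complex.re_ofReal_mul, re_self,
      re_self, ← mul_pow]
    exact sub_nonpos.2 (pow_le_pow_left₀ (norm_nonneg _) (h s) 2)
  rw [map_sub, map_smul, smul_eq_mul, Complex.sub_re, Complex.re_ofReal_mul, ← inn_def, ← inn_def,
    re_self, re_self] at this
  rw [mul_pow]
  linarith

omit [CompleteSpace H] in
theorem exists_pt (v : VV H hΛ) {η : ℝ} (hη : 0 < η) : ∃ s, ‖val v s‖ ^ 2 ≤ ‖v‖ ^ 2 + η := by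
  by_contra hc
  push Not at hc
  obtain ⟨C, h⟩ := inn_bd v v
  have := hΛ.le (-fun s => ⟪val v s, val v s⟫_ℂ) C (-(‖v‖ ^ 2 + η)) (fun s => by simpa using h s)
    fun s => by
      rw [Pi.neg_apply, Complex.neg_re, re_self]
      exact neg_le_neg (hc s).le
  rw [map_neg, Complex.neg_re, ← inn_def, re_self] at this
  linarith

/-- Action of a bounded family of operators. -/
def act (b : S → H →L[ℂ] H) (hb : ∃ C : ℝ, ∀ s, ‖b s‖ ≤ C) : VV H hΛ →ₗ[ℂ] VV H hΛ where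
  toFun v := mk (fun s => b s (val v s)) (by
    obtain ⟨C, h⟩ := hb
    obtain ⟨D, h'⟩ := val_bd v
    exact ⟨C * D, fun s => ((b s).le_opNorm _).trans
      (mul_le_mul (h s) (h' s) (norm_nonneg _) ((norm_nonneg _).trans (h s)))⟩)
  map_add' v w := val_inj fun s => map_add (b s) (val v s) (val w s)
  map_smul' c v := val_inj fun s => map_smul (b s) c (val v s)

omit [CompleteSpace H] in
theorem val_act (b : S → H →L[ℂ] H) (hb : ∃ C : ℝ, ∀ s, ‖b s‖ ≤ C) (v : VV H hΛ) (s : S) :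
    val (act b hb v) s = b s (val v s) := rfl

variable (hΛ Ω) in
/-- Vectors given by a set of families of operators. -/
def sp (T : Set (S → H →L[ℂ] H)) : Submodule ℂ (VV H hΛ) :=
  Submodule.span ℂ {v | ∃ ξ ∈ T, ∀ s, val v s = ξ s Ω}

omit [CompleteSpace H] in
theorem sp_union (T T' : Set (S → H →L[ℂ] H)) : sp Ω hΛ T ⊔ sp Ω hΛ T' = sp Ω hΛ (T ∪ T') := by
  rw [sp, sp, ← Submodule.span_union, sp]
  congr 1
  ext v
  simp only [Set.mem_union, Set.mem_setOf_eq, or_and_right, exists_or]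

omit [CompleteSpace H] in
theorem of_sp {T : Set (S → H →L[ℂ] H)} {v : VV H hΛ} (h : v ∈ sp Ω hΛ T) :
    ∃ ξ ∈ Submodule.span ℂ T, ∀ s, val v s = ξ s Ω := by
  induction h using Submodule.span_induction with
  | mem x hx =>
    obtain ⟨ξ, h1, h2⟩ := hx
    exact ⟨ξ, Submodule.subset_span h1, h2⟩
  | zero => exact ⟨0, zero_mem _, fun s => by simp⟩
  | add x y _ _ h1 h2 =>
    obtain ⟨ξ, a1, a2⟩ := h1
    obtain ⟨ζ, b1, b2⟩ := h2
    exact ⟨ξ + ζ, add_mem a1 b1, fun s => by simp [a2, b2]⟩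
  | smul c x _ h1 =>
    obtain ⟨ξ, a1, a2⟩ := h1
    exact ⟨c • ξ, Submodule.smul_mem _ c a1, fun s => by simp [a2]⟩

omit [CompleteSpace H] in
theorem ex_sp {T : Set (S → H →L[ℂ] H)} (hT : ∀ ξ ∈ T, ∀ s, ‖ξ s‖ ≤ 1) {ξ : S → H →L[ℂ] H}
    (h : ξ ∈ Submodule.span ℂ T) : ∃ v ∈ sp Ω hΛ T, ∀ s, val v s = ξ s Ω := by
  induction h using Submodule.span_induction with
  | mem x hx =>
    exact ⟨mk (fun s => x s Ω) ⟨1 * ‖Ω‖, fun s => ((x s).le_opNorm _).trans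
      (mul_le_mul_of_nonneg_right (hT x hx s) (norm_nonneg _))⟩,
      Submodule.subset_span ⟨x, hx, fun _ => rfl⟩, fun _ => rfl⟩
  | zero => exact ⟨0, zero_mem _, fun s => by simp⟩
  | add x y _ _ h1 h2 =>
    obtain ⟨ξ, a1, a2⟩ := h1
    obtain ⟨ζ, b1, b2⟩ := h2
    exact ⟨ξ + ζ, add_mem a1 b1, fun s => by simp [a2, b2]⟩
  | smul c x _ h1 =>
    obtain ⟨ξ, a1, a2⟩ := h1
    exact ⟨c • ξ, Submodule.smul_mem _ c a1, fun s => by simp [a2]⟩

omit [CompleteSpace H] in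
theorem to_sp {T : Set (S → H →L[ℂ] H)} (hT : ∀ ξ ∈ T, ∀ s, ‖ξ s‖ ≤ 1) {ξ : S → H →L[ℂ] H}
    (h : ξ ∈ Submodule.span ℂ T) {v : VV H hΛ} (hv : ∀ s, val v s = ξ s Ω) : v ∈ sp Ω hΛ T := by
  obtain ⟨v', h1, h2⟩ := ex_sp (Ω := Ω) (hΛ := hΛ) hT h
  rwa [val_inj fun s => (hv s).trans (h2 s).symm]

theorem const_fin {r : ℕ} [NeZero r] {t : Fin r → ℝ} (h : ∀ i, t (i + 1) = t i) (i : Fin r) :
    t i = t 0 := by
  obtain ⟨n, hn⟩ := i
  induction n with
  | zero => rfl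
  | succ n ih =>
    rw [← ih (by omega), ← h ⟨n, by omega⟩]
    congr 1
    refine Fin.ext ?_
    rw [Fin.val_add, Fin.val_one', Nat.mod_eq_of_lt (show 1 < r by omega), Nat.mod_eq_of_lt hn]

end FreeA

open scoped InnerProductSpace in
theorem free (hA : IsMASA M A) (hΩ : IsTraceVector M Ω) (hE : IsE M A Ω E) {r : ℕ} [NeZero r]
    {Λ : (Seed A r → ℂ) →ₗ[ℂ] ℂ} (hΛ : IsMean Λ)
    (hw : ∀ w : Wd H r, Good M A Ω E w → 0 < w.n → Λ (fun W => tau Ω (w.ev W)) = 0)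
    {x : H →L[ℂ] H} (hx : x ∈ Zs M A Ω) (hn : ‖x‖ ≤ 1) {p : Seed A r → Fin r → H →L[ℂ] H}
    (h1 : ∀ W, IsPart A (p W))
    (h2 : ∀ i, ∀ η : ℝ, 0 < η → ∃ b ∈ Balg M A r, ∀ W, ‖p W i - b W‖ ≤ η)
    (h3 : ∀ W i, p W.sh (i + 1) = p W i) (n : ℕ) {η : ℝ} (hη : 0 < η) :
    ∃ W, ‖((∑ i, p W i * x * p W i) ^ n) Ω‖ ^ 2 ≤ (4 / r) ^ n + η := by
  have r0 : 0 < r := Nat.pos_of_ne_zero (NeZero.ne r)
  have bU : ∀ ξ ∈ Kg M A E Ω r ∪ Lg M A E Ω r, ∀ W, ‖ξ W‖ ≤ 1 := fun ξ h W => (gen_bd hA h W).2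
  have bK : ∀ ξ ∈ Kg M A E Ω r, ∀ W, ‖ξ W‖ ≤ 1 := fun ξ h => bU ξ (.inl h)
  have bL : ∀ ξ ∈ Lg M A E Ω r, ∀ W, ‖ξ W‖ ≤ 1 := fun ξ h => bU ξ (.inr h)
  have bB : ∀ b ∈ Balg M A r, ∃ C : ℝ, ∀ W, ‖b W‖ ≤ C := fun b hb =>
    (Balg_bd hA hb).imp fun C h W => (h W).2
  let P : Fin r → VV H hΛ →ₗ[ℂ] VV H hΛ := fun i =>
    act (fun W => p W i) ⟨1, fun W => ((h1 W).1 i).2.norm_le⟩
  let X : VV H hΛ →ₗ[ℂ] VV H hΛ := act (fun _ => x) ⟨1, fun _ => hn⟩
  have vP : ∀ i v W, val (P i v) W = p W i (val v W) := fun _ _ _ => rfl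
  have vX : ∀ v W, val (X v) W = x (val v W) := fun _ _ => rfl
  have p1 : ∀ i v w, ⟪P i v, w⟫_ℂ = ⟪v, P i w⟫_ℂ := fun i v w => congrArg Λ (funext fun W => by
    rw [vP, vP, ← P070h8.inner_star_left, ((h1 W).1 i).2.isSelfAdjoint.star_eq])
  have p2 : ∀ i v, P i (P i v) = P i v := fun i v => val_inj fun W => by
    rw [vP, vP, ← ContinuousLinearMap.mul_apply, ((h1 W).1 i).2.isIdempotentElem.eq]
  have p4 : ∀ v, ∑ i, P i v = v := fun v => val_inj fun W => by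
    rw [map_sum, Finset.sum_apply]
    simp only [vP]
    rw [← ContinuousLinearMap.sum_apply, (h1 W).2.2]
    rfl
  have hKL : ∀ k ∈ sp Ω hΛ (Kg M A E Ω r), ∀ l ∈ sp Ω hΛ (Lg M A E Ω r), ⟪k, l⟫_ℂ = 0 := by
    intro k hk l hl
    induction hk using Submodule.span_induction with
    | mem k hk =>
      induction hl using Submodule.span_induction with
      | mem l hl =>
        obtain ⟨ξ, a1, a2⟩ := hk
        obtain ⟨ζ, b1, b2⟩ := hl
        obtain ⟨w, c1, c2, c3⟩ := KL_word hA hΩ hE a1 b1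
        rw [← hw w c1 c2, inn_def]
        exact congrArg Λ (funext fun W => by rw [c3, tau_mul, star_star, a2, b2])
      | zero => exact inner_zero_right _
      | add u v _ _ e1 e2 => rw [inner_add_right, e1, e2, add_zero]
      | smul c u _ e1 => rw [inner_smul_right, e1, mul_zero]
    | zero => exact inner_zero_left _
    | add u v _ _ e1 e2 => rw [inner_add_left, e1, e2, add_zero]
    | smul c u _ e1 => rw [inner_smul_left, e1, mul_zero]
  have hK : ∀ i, ∀ k ∈ sp Ω hΛ (Kg M A E Ω r), ‖P i k‖ ^ 2 ≤ ‖k‖ ^ 2 / r := by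
    intro i k hk
    obtain ⟨ξ, a1, a2⟩ := of_sp hk
    have c : ∀ j, ‖P (j + 1) k‖ ^ 2 = ‖P j k‖ ^ 2 := fun j => by
      rw [(pyth p1 p2 p4 k).1, (pyth p1 p2 p4 k).1]
      refine congrArg Complex.re (eq_of_sub_eq_zero (norm_le_zero_iff.1
        (le_of_forall_pos_le_add fun δ hδ => ?_)))
      obtain ⟨b, b1, b2⟩ := h2 (j + 1) (δ / (2 * (‖k‖ ^ 2 + 1))) (by positivity)
      obtain ⟨l, l1, l2⟩ := ex_sp (Ω := Ω) (hΛ := hΛ) bL (Balg_sh hA hΩ hE b1 a1)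
      have e : ⟪k, P (j + 1) k⟫_ℂ - ⟪k, P j k⟫_ℂ = ⟪k, P (j + 1) k - P j k + l⟫_ℂ := by
        rw [inner_add_right, hKL k hk l l1, add_zero, inner_sub_right]
      have e2 : ‖P (j + 1) k - P j k + l‖ ≤ (2 * (δ / (2 * (‖k‖ ^ 2 + 1)))) * ‖k‖ :=
        norm_mono (by positivity) fun W => by
          have e3 : val (P (j + 1) k - P j k + l) W =
              ((p W (j + 1) - b W) - (p W.sh (j + 1) - b W.sh)) (val k W) := by
            rw [map_add, map_sub, Pi.add_apply, Pi.sub_apply, vP, vP, l2, h3, a2]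
            simp only [Pi.mul_apply, Pi.sub_apply, ContinuousLinearMap.mul_apply,
              ContinuousLinearMap.sub_apply]
            abel
          rw [e3]
          refine (ContinuousLinearMap.le_opNorm _ _).trans (mul_le_mul_of_nonneg_right
            ((norm_sub_le _ _).trans ?_) (norm_nonneg _))
          linarith [b2 W, b2 W.sh]
      rw [e, zero_add]
      refine (norm_inner_le_norm _ _).trans
        ((mul_le_mul_of_nonneg_left e2 (norm_nonneg _)).trans ?_)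
      have e4 : ‖k‖ * (2 * (δ / (2 * (‖k‖ ^ 2 + 1))) * ‖k‖) = δ * (‖k‖ ^ 2 / (‖k‖ ^ 2 + 1)) := by
        field_simp
      rw [e4]
      exact mul_le_of_le_one_right hδ.le (div_le_one_of_le₀ (by linarith) (by positivity))
    have c2 := const_fin (t := fun j => ‖P j k‖ ^ 2) c
    have c3 := (pyth p1 p2 p4 k).2
    rw [sum_congr rfl fun j _ => (c2 j).trans (c2 i).symm, sum_const, card_univ, Fintype.card_fin,
      nsmul_eq_mul] at c3
    rw [le_div_iff₀ (by exact_mod_cast r0), ← c3, mul_comm]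
  have hL : ∀ l ∈ sp Ω hΛ (Lg M A E Ω r), X l ∈ sp Ω hΛ (Kg M A E Ω r) := fun l hl => by
    obtain ⟨ζ, a1, a2⟩ := of_sp hl
    refine to_sp bK (WordsA.mul_span (b := fun _ => x)
      (fun ξ h => Submodule.subset_span (z_Lg hA hΩ hx hn h)) a1) fun W => ?_
    rw [vX, a2]
    rfl
  have i1 : ∀ i, ∀ v ∈ sp Ω hΛ (Kg M A E Ω r) ⊔ sp Ω hΛ (Lg M A E Ω r), P i v ∈ closure
      ((sp Ω hΛ (Kg M A E Ω r) ⊔ sp Ω hΛ (Lg M A E Ω r) : Submodule ℂ (VV H hΛ)) : Set (VV H hΛ)) := by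
    intro i v hv
    rw [sp_union] at hv ⊢
    obtain ⟨ξ, a1, a2⟩ := of_sp hv
    refine Metric.mem_closure_iff.2 fun δ hδ => ?_
    obtain ⟨b, b1, b2⟩ := h2 i (δ / (‖v‖ + 1)) (by positivity)
    obtain ⟨l, l1, l2⟩ := ex_sp (Ω := Ω) (hΛ := hΛ) bU (Balg_mul hA hΩ hE b1 a1)
    refine ⟨l, l1, ?_⟩
    rw [dist_eq_norm]
    refine (norm_mono (w := v) (d := δ / (‖v‖ + 1)) (by positivity) fun W => ?_).trans_lt ?_
    · have e3 : val (P i v - l) W = (p W i - b W) (val v W) := by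
        rw [map_sub, Pi.sub_apply, vP, l2, a2]
        rfl
      rw [e3]
      exact (ContinuousLinearMap.le_opNorm _ _).trans
        (mul_le_mul_of_nonneg_right (b2 W) (norm_nonneg _))
    · rw [div_mul_eq_mul_div, div_lt_iff₀ (by positivity)]
      linarith
  have i2 : ∀ v ∈ sp Ω hΛ (Kg M A E Ω r), X v ∈ closure
      ((sp Ω hΛ (Kg M A E Ω r) ⊔ sp Ω hΛ (Lg M A E Ω r) : Submodule ℂ (VV H hΛ)) : Set (VV H hΛ)) := by
    intro v hv
    rw [sp_union]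
    change X v ∈ (sp Ω hΛ (Kg M A E Ω r ∪ Lg M A E Ω r)).topologicalClosure
    induction hv using Submodule.span_induction with
    | mem v hv =>
      obtain ⟨ξ, a1, a2⟩ := hv
      obtain ⟨U, u1, ρ, u2, u3, u4⟩ := Kg_head hA a1
      refine Metric.mem_closure_iff.2 fun δ hδ => ?_
      obtain ⟨z, z1, y, y1, d⟩ := dec (A := A) hΩ (mul_mem hx.1 u1) (half_pos hδ)
      have c0 : ((‖z‖ + 1 : ℝ) : ℂ) ≠ 0 := Complex.ofReal_ne_zero.2 (by positivity)
      have m1 : (fun W => z * ρ W) ∈ Submodule.span ℂ (Kg M A E Ω r ∪ Lg M A E Ω r) := by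
        have := Submodule.smul_mem (Submodule.span ℂ (Kg M A E Ω r ∪ Lg M A E Ω r))
          ((‖z‖ + 1 : ℝ) : ℂ) (Submodule.subset_span (.inl (u3 _ (Zs_smul z1 ((‖z‖ + 1 : ℝ) : ℂ)⁻¹) (by
            rw [norm_smul, norm_inv, Complex.norm_real, Real.norm_of_nonneg (by positivity)]
            exact inv_mul_le_one_of_le₀ (by linarith) (by positivity)))))
        have e : (((‖z‖ + 1 : ℝ) : ℂ) • fun W => ((‖z‖ + 1 : ℝ) : ℂ)⁻¹ • z * ρ W) =
            fun W => z * ρ W := by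
          funext W
          rw [Pi.smul_apply, smul_mul_assoc, smul_smul, mul_inv_cancel₀ c0, one_smul]
        exact e ▸ this
      have m2 : (fun W => y * ρ W) ∈ Submodule.span ℂ (Kg M A E Ω r ∪ Lg M A E Ω r) := by
        clear d
        induction y1 using Submodule.span_induction with
        | mem y hy =>
          obtain ⟨g, rfl⟩ := hy
          exact Submodule.subset_span (u4 g)
        | zero =>
          simp only [zero_mul]
          exact zero_mem _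
        | add y y' _ _ e1 e2 =>
          simp only [add_mul]
          exact add_mem e1 e2
        | smul c y _ e1 =>
          simp only [smul_mul_assoc]
          exact Submodule.smul_mem _ c e1
      obtain ⟨l, l1, l2⟩ := ex_sp (Ω := Ω) (hΛ := hΛ) bU (add_mem m1 m2)
      refine ⟨l, l1, ?_⟩
      rw [dist_eq_norm]
      refine (norm_le (half_pos hδ).le fun W => ?_).trans_lt (half_lt_self hδ)
      have e3 : val (X v - l) W = ((x * U - z - y) * ρ W) Ω := by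
        rw [map_sub, Pi.sub_apply, vX, l2, a2, (u2 W).1]
        simp only [Pi.add_apply, ContinuousLinearMap.mul_apply, ContinuousLinearMap.sub_apply,
          ContinuousLinearMap.add_apply]
        abel
      rw [e3]
      exact (norm_mul_Om hΩ (sub_mem (sub_mem (mul_mem hx.1 u1) z1.1) (N_mem y1)) (u2 W).2.1).trans
        ((mul_le_of_le_one_right (norm_nonneg _) (u2 W).2.2).trans d)
    | zero => rw [map_zero]; exact zero_mem _
    | add u v _ _ e1 e2 => rw [map_add]; exact add_mem e1 e2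
    | smul c u _ e1 => rw [map_smul]; exact Submodule.smul_mem _ c e1
  obtain ⟨v, v1, v2⟩ := ex_sp (Ω := Ω) (hΛ := hΛ) bK (Submodule.subset_span one_Kg)
  have key := abs_bound r0 _ _ P X p1 p2 (fun i j v hij => val_inj fun W => by
      rw [vP, vP, ← ContinuousLinearMap.mul_apply, (h1 W).2.1 i j hij, map_zero]
      rfl) p4
    (fun v => (norm_mono zero_le_one fun W => by
      rw [vX]
      exact (x.le_opNorm _).trans (mul_le_mul_of_nonneg_right hn (norm_nonneg _))).trans_eq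
        (one_mul _)) hKL hK hL i1 i2 n v v1
  have v3 : ‖v‖ ≤ 1 := norm_le zero_le_one fun W => by
    rw [v2]
    exact hΩ.1.le
  have it : ∀ (m : ℕ) W, val ((fun u => ∑ i, P i (X (P i u)))^[m] v) W =
      ((∑ i, p W i * x * p W i) ^ m) Ω := fun m W => by
    induction m with
    | zero => exact v2 W
    | succ m ih =>
      rw [Function.iterate_succ_apply', pow_succ', ContinuousLinearMap.mul_apply, ← ih, map_sum,
        Finset.sum_apply, ContinuousLinearMap.sum_apply]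
      rfl
  obtain ⟨W, hW⟩ := exists_pt ((fun u => ∑ i, P i (X (P i u)))^[n] v) hη
  refine ⟨W, ?_⟩
  rw [it] at hW
  refine hW.trans (add_le_add ?_ le_rfl)
  have e : (4 / r : ℝ) ^ n = ((2 / √(r : ℝ)) ^ n) ^ 2 := by
    rw [← pow_mul, mul_comm, pow_mul, div_pow 2, Real.sq_sqrt (Nat.cast_nonneg r)]
    norm_num
  rw [e]
  exact pow_le_pow_left₀ (norm_nonneg _)
    (key.trans (mul_le_of_le_one_right (by positivity) v3)) 2

end Vale.Agent.P078.G
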