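import Vale.Agent.P078.G.Mean
import Vale.Agent.P078.G.Free
import Vale.Agent.P078.G.Ext

/-!
Assembly for arbitrary MASAs of tracial algebras.
-/

open Finset Filter
open scoped Classical

namespace Vale.Agent.P078.G

variable {H : Type*} [NormedAddCommGroup H] [InnerProductSpace ℂ H] [CompleteSpace H]
  {M : VonNeumannAlgebra H} {A : StarSubalgebra ℂ (H →L[ℂ] H)} {Ω : H}
  {E : (H →L[ℂ] H) → H →L[ℂ] H} {x y : H →L[ℂ] H}

theorem kap3 (hA : IsMASA M A) (hE : IsE M A Ω E) (hx : x ∈ M) (y1 : y ∈ N0 M A)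
    (y2 : IsSelfAdjoint y) (y3 : ‖y‖ ≤ 1) {η : ℝ} (y4 : ‖(x - y) Ω‖ ≤ η) :
    ∃ (S : Finset (NG M A)) (l : NG M A → ℂ) (x' : H →L[ℂ] H), Gen S ∧ x' = ∑ u ∈ S, l u • op u ∧
      x' ∈ M ∧ IsSelfAdjoint x' ∧ ‖x'‖ ≤ 1 ∧ E x' = 0 ∧
        ‖((1 / 2 : ℂ) • (x - E x) - x') Ω‖ ≤ η := by
  have yM := N_mem y1
  have EA := hE.mem y yM
  have h1 : (1 / 2 : ℂ) • (y - E y) ∈ Submodule.span ℂ (Set.range (op : NG M A → H →L[ℂ] H)) :=
    Submodule.smul_mem _ _ (sub_mem y1 (A_le_N hA EA))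
  obtain ⟨l, hl⟩ := Finsupp.mem_span_range_iff_exists_finsupp.1 h1
  refine ⟨insert 1 (l.support ∪ l.support.image (·⁻¹)), l, _, ⟨mem_insert_self _ _, fun w hw => ?_⟩,
    ?_, N_mem h1, ?_, ?_, ?_, ?_⟩
  · simp only [mem_insert, mem_union, mem_image] at hw ⊢
    rcases hw with rfl | hw | ⟨v, hv, rfl⟩
    exacts [.inl inv_one, .inr (.inr ⟨w, hw, rfl⟩), .inr (.inl (by rwa [inv_inv]))]
  · rw [← hl]
    exact Finsupp.sum_of_support_subset _ (subset_union_left.trans (subset_insert _ _)) _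
      fun _ _ => zero_smul _ _
  · have := hE.star y yM
    rw [y2.star_eq] at this
    simp [IsSelfAdjoint, y2.star_eq, ← this]
  · have := norm_sub_le y (E y)
    have := hE.norm y yM
    rw [norm_smul]
    norm_num
    linarith
  · rw [hE.smul _ (sub_mem yM (hA.1 _ EA)), hE.sub yM (hA.1 _ EA), hE.self _ EA, sub_self, smul_zero]
  · have e : (1 / 2 : ℂ) • (x - E x) - (1 / 2 : ℂ) • (y - E y) =
        (1 / 2 : ℂ) • ((x - y) - E (x - y)) := by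
      rw [hE.sub hx yM]
      module
    have := norm_sub_le ((x - y) Ω) (E (x - y) Ω)
    have := hE.norm2 _ (sub_mem hx yM)
    rw [e, ContinuousLinearMap.smul_apply, norm_smul, ContinuousLinearMap.sub_apply _ (E _)]
    rw [show ‖(1 / 2 : ℂ)‖ = 1 / 2 by simp]
    linarith

theorem rest_le (hΩ : IsTraceVector M Ω) (hy : y ∈ M) (hn : ‖y‖ ≤ 1) {q : H →L[ℂ] H} (qM : q ∈ M)
    (hq : IsStarProjection q) : ‖(y - q * y * q) Ω‖ ≤ 2 * ‖(1 - q) Ω‖ := by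
  have e : y - q * y * q = (1 - q) * y + q * y * (1 - q) := by noncomm_ring
  have k1 := (norm_mul_Om hΩ (sub_mem (one_mem M) qM) hy).trans
    (mul_le_of_le_one_right (norm_nonneg _) hn)
  have k2 : ‖(q * y * (1 - q)) Ω‖ ≤ ‖(1 - q) Ω‖ := ((q * y).le_opNorm _).trans
    (mul_le_of_le_one_left (norm_nonneg _)
      ((norm_mul_le _ _).trans (mul_le_one₀ hq.norm_le (norm_nonneg _) hn)))
  have := norm_add_le (((1 - q) * y) Ω) ((q * y * (1 - q)) Ω)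
  rw [e, ContinuousLinearMap.add_apply]
  linarith

theorem cmp_le {q : H →L[ℂ] H} (hq : IsStarProjection q) (y : H →L[ℂ] H) :
    ‖q * y * q‖ ≤ ‖y * q‖ ∧ ‖q * y * q‖ ≤ ‖y‖ := by
  have k : ‖q * y * q‖ ≤ ‖y * q‖ := by
    rw [mul_assoc]
    exact (norm_mul_le _ _).trans (mul_le_of_le_one_left (norm_nonneg _) hq.norm_le)
  exact ⟨k, k.trans ((norm_mul_le _ _).trans (mul_le_of_le_one_right (norm_nonneg _) hq.norm_le))⟩

theorem pave_one (hA : IsMASA M A) (hΩ : IsTraceVector M Ω) (hx : x ∈ M)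
    (hs : IsSelfAdjoint x) (hn : ‖x‖ ≤ 1) (hE : IsE M A Ω E) {r : ℕ}
    (hr : 2 ≤ r) (F : Finset H) {δ : ℝ} (hδ : 0 < δ) : ∃ p : Fin r → (H →L[ℂ] H), IsPart A p ∧
        ∃ q ∈ M, IsStarProjection q ∧ (∀ ξ ∈ F, ‖(1 - q) ξ‖ < δ) ∧
          ‖q * (∑ i, p i * x * p i - E x) * q‖ ≤ 730 / √(r : ℝ) := by
  haveI : NeZero r := ⟨by omega⟩
  obtain ⟨η₀, η₀0, hη₀⟩ := small_of_tau hΩ F hδ
  have r0 : (0 : ℝ) < r := by exact_mod_cast (by omega : 0 < r)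
  have sr : 0 < √(r : ℝ) := by positivity
  have hz : 0 < 5 / √(r : ℝ) := by positivity
  set z := 5 / √(r : ℝ) with hzd
  obtain ⟨κ, hκ⟩ : ∃ κ, κ = η₀ / (4 * √(r : ℝ)) := ⟨_, rfl⟩
  have κ0 : 0 < κ := by rw [hκ]; positivity
  have η0 : 0 < z ^ 2 * κ ^ 2 / 5 := by positivity
  set η := z ^ 2 * κ ^ 2 / 5 with hη
  obtain ⟨h, ha⟩ := approx_phi hz η0
  obtain ⟨C, C0, hC⟩ := tauh_lip hΩ h
  obtain ⟨d, dM, ds, dn, dz, da⟩ := dec_sa (A := A) hΩ hx hs hn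
  obtain ⟨y, y1, y2, y3, y4⟩ := da _ (show 0 < η / C by positivity)
  obtain ⟨S, l, x', hS, e1, x1, x2, x3, x4, x5⟩ := kap3 hA hE dM y1 y2 y3 y4
  obtain ⟨p, p1, p2, p3, p4⟩ := exists_p hA hΩ hE hS e1 x2 x3 x4 hr η0 ha
  obtain ⟨Λ, hΛ, hw⟩ := exists_mean (r := r) hA hΩ hE
  obtain ⟨n, hn'⟩ := exists_pow_lt_of_lt_one (show 0 < κ ^ 2 / 2 by positivity)
    (show (1 / 4 : ℝ) < 1 by norm_num)
  set s := (1 / 2 : ℂ) • (x - d) with hsd
  have sZ : s ∈ Zs M A Ω := Zs_smul dz _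
  have half : ∀ a b : H →L[ℂ] H, ‖a‖ ≤ 1 → ‖b‖ ≤ 1 → ‖(1 / 2 : ℂ) • (a - b)‖ ≤ 1 := fun a b h1 h2 => by
    rw [norm_smul]
    have := norm_sub_le a b
    simp only [one_div, norm_inv, Complex.norm_ofNat]
    linarith
  have hsa : ∀ a b : H →L[ℂ] H, IsSelfAdjoint a → IsSelfAdjoint b →
      IsSelfAdjoint ((1 / 2 : ℂ) • (a - b)) := fun a b h1 h2 => by
    rw [IsSelfAdjoint, star_smul, star_sub, h1.star_eq, h2.star_eq]
    simp
  have sn := half x d hn dn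
  obtain ⟨W, hW⟩ := free hA hΩ hE hΛ hw sZ sn p1 p2 p3 n (η := (4 / r) ^ n) (by positivity)
  have t1 := p4 W
  obtain ⟨q0, q1, q2⟩ := p1 W
  generalize p W = p at hW t1 q0 q1 q2
  have pM : ∀ i, p i ∈ M := fun i => hA.1 _ (q0 i).1
  have EM : E d ∈ M := hA.1 _ (hE.mem d dM)
  have Es : IsSelfAdjoint (E d) := by rw [IsSelfAdjoint, ← hE.star d dM, ds.star_eq]
  set x₀ := (1 / 2 : ℂ) • (d - E d) with hx₀
  have x₀M : x₀ ∈ M := smul_mem_M (sub_mem dM EM) _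
  have x₀n : ‖x₀‖ ≤ 1 := half _ _ dn ((hE.norm d dM).trans dn)
  have pm : ∀ y ∈ M, ∑ i, p i * y * p i ∈ M := fun y hy =>
    sum_mem fun i _ => mul_mem (mul_mem (pM i) hy) (pM i)
  have pn := fun y (hy : y ∈ M) => pinch hΩ pM (fun i => (q0 i).2) q1 q2 hy
  have ps : ∀ y, IsSelfAdjoint y → IsSelfAdjoint (∑ i, p i * y * p i) := fun y hy => by
    rw [IsSelfAdjoint, star_sum]
    refine sum_congr rfl fun i _ => ?_
    rw [star_mul, star_mul, (q0 i).2.isSelfAdjoint.star_eq, hy.star_eq, mul_assoc]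
  have t2 : tauh Ω h (∑ i, p i * x₀ * p i) ≤ 5 * η := by
    have k1 := hC _ (pm x₀ x₀M) _ (pm x' x1) ((pn x₀ x₀M).1.trans x₀n) ((pn x' x1).1.trans x3)
    have e : ∑ i, p i * x₀ * p i - ∑ i, p i * x' * p i = ∑ i, p i * (x₀ - x') * p i := by
      rw [← sum_sub_distrib]
      exact sum_congr rfl fun i _ => by noncomm_ring
    rw [e] at k1
    have k2 := mul_le_mul_of_nonneg_left ((pn _ (sub_mem x₀M x1)).2.trans x5) C0.le
    rw [mul_div_cancel₀ _ C0.ne'] at k2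
    linarith
  have e : ∑ i, p i * x * p i - E x = (2 : ℂ) • (∑ i, p i * x₀ * p i + ∑ i, p i * s * p i) := by
    have e0 : E x = E d := by
      have := hE.sub hx dM
      rw [Zs_E hA hΩ hE dz] at this
      exact sub_eq_zero.1 this.symm
    have e1 : ∑ i, p i * E d * p i = E d := by
      have : ∀ i, p i * E d * p i = p i * E d := fun i => by
        rw [mul_assoc, hA.2.1 _ (hE.mem d dM) _ (q0 i).1, ← mul_assoc, (q0 i).2.isIdempotentElem.eq]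
      simp only [this]
      rw [← sum_mul, q2, one_mul]
    rw [← sum_add_distrib, smul_sum, e0]
    conv_lhs => rw [← e1, ← sum_sub_distrib]
    refine sum_congr rfl fun i _ => ?_
    rw [hx₀, hsd]
    simp only [mul_smul_comm, smul_mul_assoc, mul_sub, sub_mul]
    module
  have a1 := pm x₀ x₀M
  have a2 := ps x₀ (hsa _ _ ds Es)
  have a3 := (pn x₀ x₀M).1.trans x₀n
  have b1 := pm s sZ.1
  have b2 := ps s (hsa _ _ hs ds)
  have b3 := (pn s sZ.1).1.trans sn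
  generalize ∑ i, p i * x₀ * p i = Y at t2 e a1 a2 a3
  generalize ∑ i, p i * s * p i = Y' at hW e b1 b2 b3
  obtain ⟨u, uM, up, u3, u4⟩ := big_proj hΩ a1 a2 a3 hz ha
  obtain ⟨v, vM, vp, v3, v4⟩ := spl b1 b2 (c := 4 / √(r : ℝ)) (by positivity)
  have u5 : ‖(1 - u) Ω‖ ≤ κ := by
    have k1 : z ^ 2 * ‖(1 - u) Ω‖ ^ 2 ≤ z ^ 2 * κ ^ 2 := by rw [hη] at t2; linarith
    exact le_of_pow_le_pow_left₀ two_ne_zero κ0.le (le_of_mul_le_mul_left k1 (by positivity))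
  have v5 : ‖(1 - v) Ω‖ ≤ κ := by
    have k1 := (pow_le_pow_left₀ (by positivity) (v4 n Ω) 2).trans hW
    have k2 : ((4 / √(r : ℝ)) ^ n) ^ 2 * (1 / 4) ^ n = (4 / r) ^ n := by
      rw [← pow_mul, mul_comm n, pow_mul, ← mul_pow, div_pow, Real.sq_sqrt r0.le]
      congr 1
      ring
    rw [mul_pow, ← k2] at k1
    have k3 : ‖(1 - v) Ω‖ ^ 2 ≤ 2 * (1 / 4) ^ n :=
      le_of_mul_le_mul_left (a := ((4 / √(r : ℝ)) ^ n) ^ 2) (by linarith) (by positivity)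
    exact le_of_pow_le_pow_left₀ two_ne_zero κ0.le (by linarith)
  set R := (Y - u * Y * u) + (Y' - v * Y' * v) with hR
  have RM : R ∈ M := add_mem (sub_mem a1 (mul_mem (mul_mem uM a1) uM))
    (sub_mem b1 (mul_mem (mul_mem vM b1) vM))
  have Rs : IsSelfAdjoint R := by
    simp [hR, IsSelfAdjoint, a2.star_eq, b2.star_eq, up.isSelfAdjoint.star_eq,
      vp.isSelfAdjoint.star_eq, mul_assoc]
  have Rn : ‖R Ω‖ ≤ 4 * κ := by
    have := norm_add_le ((Y - u * Y * u) Ω) ((Y' - v * Y' * v) Ω)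
    have := rest_le hΩ a1 a3 uM up
    have := rest_le hΩ b1 b3 vM vp
    rw [hR, ContinuousLinearMap.add_apply]
    linarith
  obtain ⟨q, qM, qp, q3, q4⟩ := spl RM Rs (c := 1 / √(r : ℝ)) (by positivity)
  refine ⟨p, ⟨q0, q1, q2⟩, q, qM, qp, hη₀ _ (sub_mem (one_mem M) qM) qp.one_sub.norm_le ?_, ?_⟩
  · have k1 := q4 1 Ω
    rw [pow_one, pow_one] at k1
    have k2 : 4 * κ = 1 / √(r : ℝ) * η₀ := by rw [hκ]; field_simp
    exact le_of_mul_le_mul_left (k1.trans (Rn.trans k2.le)) (by positivity)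
  · have e2 : q * (Y + Y') * q = q * (u * Y * u) * q + q * (v * Y' * v) * q + q * R * q := by
      rw [hR]; noncomm_ring
    have k1 := norm_add₃_le (a := q * (u * Y * u) * q) (b := q * (v * Y' * v) * q) (c := q * R * q)
    have k2 := (cmp_le qp (u * Y * u)).2
    have k3 := (cmp_le qp (v * Y' * v)).2
    have k4 := (cmp_le qp R).1
    have k5 := (cmp_le vp Y').1
    have k6 : (730 : ℝ) / √r = 2 * (72 * z + 4 / √r + 1 / √r) := by rw [hzd]; ring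
    rw [e, mul_smul_comm, smul_mul_assoc, norm_smul, e2, k6]
    simp only [Complex.norm_ofNat]
    linarith

theorem pave (hA : IsMASA M A) (hΩ : IsTraceVector M Ω) {ε : ℝ} (hε : 0 < ε)
    {r : ℕ} (hr : 2 ≤ r) (h : 730 ^ 2 / ε ^ 2 ≤ r) (hx : x ∈ M) (hs : IsSelfAdjoint x) :
    SoPavable M A x ε r := by
  intro F δ hδ
  obtain ⟨E, hE⟩ := exists_E hA hΩ
  have Es : IsSelfAdjoint (E x) := by
    rw [IsSelfAdjoint, ← hE.star x hx, hs.star_eq]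
  have k : 730 / √(r : ℝ) ≤ ε := by
    have r0 : (0 : ℝ) < r := by exact_mod_cast (by omega : 0 < r)
    rw [div_le_iff₀ (by positivity)] at h ⊢
    refine le_of_pow_le_pow_left₀ two_ne_zero (by positivity) ?_
    rw [mul_pow, Real.sq_sqrt r0.le]
    linarith
  obtain ⟨t, t0, x₁, x1, x2, x3, e, tn⟩ : ∃ t : ℝ, 0 ≤ t ∧ ∃ x₁ ∈ M, IsSelfAdjoint x₁ ∧ ‖x₁‖ ≤ 1 ∧
      x = (t : ℂ) • x₁ ∧ t = ‖x‖ := by
    by_cases h0 : x = 0
    · exact ⟨0, le_rfl, 0, zero_mem M, IsSelfAdjoint.zero _, by simp, by simp [h0], by simp [h0]⟩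
    · have n0 : ‖x‖ ≠ 0 := norm_ne_zero_iff.2 h0
      refine ⟨‖x‖, norm_nonneg _, ((‖x‖⁻¹ : ℝ) : ℂ) • x, smul_mem_M hx _, ?_, ?_, ?_, rfl⟩
      · rw [IsSelfAdjoint, star_smul, hs.star_eq]; simp
      · rw [norm_smul]; simp [n0]
      · rw [smul_smul, ← Complex.ofReal_mul, mul_inv_cancel₀ n0]; simp
  obtain ⟨p, ⟨p1, p2, p3⟩, q, q1, q2, q3, q4⟩ := pave_one hA hΩ x1 x2 x3 hE hr F hδ
  refine ⟨p, p1, p2, p3, E x, hE.mem x hx, Es, hE.norm x hx, q, q1, q2, q3, ?_⟩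
  have e2 : q * (∑ i, p i * x * p i - E x) * q = (t : ℂ) • (q * (∑ i, p i * x₁ * p i - E x₁) * q) := by
    conv_lhs => rw [e, hE.smul _ x1]
    simp only [mul_smul_comm, smul_mul_assoc, ← smul_sum, ← smul_sub]
  rw [e2, norm_smul, ← tn, Complex.norm_real, Real.norm_of_nonneg t0, mul_comm]
  exact mul_le_mul_of_nonneg_right (q4.trans k) t0

end Vale.Agent.P078.G
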