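import Vale.Agent.P078.G.Pin

/-!
Hoelder type bounds, symmetry, and the one-slot estimate.

PLAN (pointwise on the Gelfand space, `exists_gel`, `exists_dyn`, `ev_cs`, `nsq`, `tau_le`).
`hold2`: `n c l m x = √(re ev (E (Y c l e_m Y c l*)) x)` (`ev_cs` with `a = Y e_m`, `b = Y' e_m`), `N c m x = √(Σ_l n²)` for `c ∈ J`,
`N = n` otherwise; `Σ_l Π_c n ≤ Π_c N` (Cauchy-Schwarz on two members of `J`, `n ≤ N` for the others); then Cauchy-Schwarz twice for the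
positive functional `Σ_m I` (or AM-GM with scaling), `Σ_m I (N⁴) = Ph` or `DQ`. `hold1` similar without `l`.
`sym`: `B_m = Σ_l Y_l e_m Y_l*`, `‖E B Ω‖² ≤ ‖S_P B Ω‖² = Σ_k ‖f_k B f_k Ω‖²` (`E_S`, `norm2`, `S_sq`),
`‖f_k B_m f_k Ω‖² = Σ_{l l'} ‖e_m (Y_l* f_k Y_l') e_m Ω‖²` (trace), sum over `m` is `‖S_Q Z Ω‖² → ‖E Z Ω‖²` (`tendsto_S`), and
`|E (Y_l* f_k Y_l')|² ≤ E (Y_l* f_k Y_l) E (Y_l'* f_k Y_l')` pointwise.
`stepb1`: the first half of `sym` with the trivial `P`: `Ph Q Y ≤ Σ_{l l'} ‖S_Q (Y_l* Y_l') Ω‖² → Σ ‖E (U'* e_l G e_l' U') Ω‖²`,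
`G = U* U`; pointwise `≤ E (U'* e_l G e_l' G e_l U') β_l'`, `β_l = E (U'* e_l U') ≤ θ + Σ β² / θ`, and
`Σ_{l l'} E (U'* e_l G e_l' G e_l U') ≤ 1`. `stepb2`: `sym` and `stepb1` for `(star U', star U)`.
-/

open Finset Filter
open scoped Classical

namespace Vale.Agent.P078.G

variable {H : Type*} [NormedAddCommGroup H] [InnerProductSpace ℂ H] [CompleteSpace H]
  {M : VonNeumannAlgebra H} {A : StarSubalgebra ℂ (H →L[ℂ] H)} {Ω : H}
  {E : (H →L[ℂ] H) → H →L[ℂ] H}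

variable {y U U' : H →L[ℂ] H} {η θ : ℝ}

namespace HolAux

theorem blk {e : H →L[ℂ] H} (he : IsStarProjection e) (a b : H →L[ℂ] H) :
    a * e * star b = a * e * star (b * e) := by
  rw [star_mul, he.isSelfAdjoint.star_eq, ← mul_assoc, mul_assoc a e e, he.isIdempotentElem.eq]

omit [CompleteSpace H] in
theorem tau_sum {κ : Type*} (s : Finset κ) (f : κ → H →L[ℂ] H) :
    tau Ω (∑ i ∈ s, f i) = ∑ i ∈ s, tau Ω (f i) := by
  simp [tau]

theorem sq_sum (hΩ : IsTraceVector M Ω) {κ : Type} [Fintype κ] {a : κ → H →L[ℂ] H}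
    (ha : ∀ l, a l ∈ M) :
    ‖(∑ l, a l * star (a l)) Ω‖ ^ 2 = ∑ l, ∑ l', ‖(star (a l) * a l') Ω‖ ^ 2 := by
  rw [← re_tau, star_sum, sum_mul_sum, tau_sum, Complex.re_sum]
  refine sum_congr rfl fun l _ => ?_
  rw [tau_sum, Complex.re_sum]
  refine sum_congr rfl fun l' _ => ?_
  rw [← re_tau, star_mul, star_mul, star_star, ← mul_assoc,
    tau_comm hΩ (mul_mem (mul_mem (ha l) (star_mem (ha l))) (ha l')) (star_mem (ha l'))]
  simp only [mul_assoc]

theorem prod_le {κ : Type} [Fintype κ] {n : Fin 4 → κ → ℝ} {N : Fin 4 → ℝ} {J : Finset (Fin 4)}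
    (hJ : 2 ≤ J.card) (h0 : ∀ c l, 0 ≤ n c l) (h1 : ∀ c, 0 ≤ N c) (h2 : ∀ c l, n c l ^ 2 ≤ N c ^ 2)
    (h3 : ∀ c ∈ J, ∑ l, n c l ^ 2 ≤ N c ^ 2) : ∑ l, ∏ c, n c l ≤ ∏ c, N c := by
  obtain ⟨i, hi, j, hj, hij⟩ := one_lt_card.1 hJ
  have e : ∀ f : Fin 4 → ℝ, ∏ c, f c = f i * f j * ∏ c ∈ (univ.erase i).erase j, f c := fun f => by
    rw [mul_assoc, mul_prod_erase _ f (mem_erase.2 ⟨hij.symm, mem_univ j⟩),
      mul_prod_erase _ f (mem_univ i)]
  have h4 : ∑ l, n i l * n j l ≤ N i * N j := by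
    refine (abs_le_of_sq_le_sq' ?_ (mul_nonneg (h1 i) (h1 j))).2
    rw [mul_pow]
    exact (sum_mul_sq_le_sq_mul_sq _ _ _).trans
      (mul_le_mul (h3 i hi) (h3 j hj) (sum_nonneg fun l _ => sq_nonneg _) (sq_nonneg _))
  rw [e N]
  calc ∑ l, ∏ c, n c l ≤ ∑ l, n i l * n j l * ∏ c ∈ (univ.erase i).erase j, N c := by
        refine sum_le_sum fun l _ => ?_
        rw [e fun c => n c l]
        exact mul_le_mul_of_nonneg_left (Finset.prod_le_prod (fun c _ => h0 c l) fun c _ =>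
          (abs_le_of_sq_le_sq' (h2 c l) (h1 c)).2) (mul_nonneg (h0 i l) (h0 j l))
    _ ≤ _ := by
        rw [← sum_mul]
        exact mul_le_mul_of_nonneg_right h4 (prod_nonneg fun c _ => h1 c)

theorem tS (hA : IsMASA M A) (hΩ : IsTraceVector M Ω) (hE : IsE M A Ω E) (hy : y ∈ M) :
    Tendsto (fun Q : Part A => ‖Q.S y Ω‖ ^ 2) atTop (nhds (‖E y Ω‖ ^ 2)) := by
  have h : Tendsto (fun Q : Part A => Q.S y Ω) atTop (nhds (E y Ω)) := by
    refine Metric.tendsto_nhds.2 fun ε hε => ?_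
    filter_upwards [tendsto_S hA hΩ hE hy (half_pos hε)] with Q hQ
    rw [dist_eq_norm]
    exact lt_of_le_of_lt hQ (half_lt_self hε)
  exact h.norm.pow 2

theorem half (hA : IsMASA M A) (hΩ : IsTraceVector M Ω) (hE : IsE M A Ω E) {κ : Type} [Fintype κ]
    {Y : κ → H →L[ℂ] H} (hY : ∀ l, Y l ∈ M) (P : Part A) (hη : 0 < η) :
    ∀ᶠ Q : Part A in atTop, Ph E Ω Q Y ≤
      ∑ k, ∑ l, ∑ l', ‖E (star (Y l) * P.e k * Y l') Ω‖ ^ 2 + η := by
  have hZ : ∀ k l l', star (Y l) * P.e k * Y l' ∈ M := fun k l l' =>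
    mul_mem (mul_mem (star_mem (hY l)) (hA.1 _ (P.mem k))) (hY l')
  have h : Tendsto (fun Q : Part A => ∑ k, ∑ l, ∑ l', ‖Q.S (star (Y l) * P.e k * Y l') Ω‖ ^ 2) atTop
      (nhds (∑ k, ∑ l, ∑ l', ‖E (star (Y l) * P.e k * Y l') Ω‖ ^ 2)) :=
    tendsto_finsetSum _ fun k _ => tendsto_finsetSum _ fun l _ => tendsto_finsetSum _ fun l' _ =>
      tS hA hΩ hE (hZ k l l')
  filter_upwards [h.eventually (gt_mem_nhds (lt_add_of_pos_right _ hη))] with Q hQ
  refine le_trans ?_ hQ.le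
  have hB : ∀ m, ∑ l, Y l * Q.e m * star (Y l) ∈ M := fun m => sum_mem fun l _ =>
    mul_mem (mul_mem (hY l) (hA.1 _ (Q.mem m))) (star_mem (hY l))
  have h1 : ∀ m, ‖E (∑ l, Y l * Q.e m * star (Y l)) Ω‖ ^ 2 ≤
      ∑ k, ∑ l, ∑ l', ‖(Q.e m * (star (Y l) * P.e k * Y l') * Q.e m) Ω‖ ^ 2 := fun m => by
    rw [← E_S hA hE P (hB m)]
    refine (pow_le_pow_left₀ (norm_nonneg _) (hE.norm2 _ (S_mem hA P (hB m))) 2).trans ?_
    rw [S_sq hA hΩ P (hB m)]
    refine le_of_eq (sum_congr rfl fun k _ => ?_)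
    have e := sq_sum hΩ (a := fun l => P.e k * Y l * Q.e m) fun l =>
      mul_mem (mul_mem (hA.1 _ (P.mem k)) (hY l)) (hA.1 _ (Q.mem m))
    have p1 : ∀ z, P.e k * (P.e k * z) = P.e k * z := fun z => by
      rw [← mul_assoc, (P.proj k).isIdempotentElem.eq]
    have p2 : ∀ z, Q.e m * (Q.e m * z) = Q.e m * z := fun z => by
      rw [← mul_assoc, (Q.proj m).isIdempotentElem.eq]
    simp only [star_mul, (P.proj k).isSelfAdjoint.star_eq, (Q.proj m).isSelfAdjoint.star_eq,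
      mul_assoc, p1, p2] at e
    simp only [mul_sum, sum_mul, mul_assoc]
    exact e
  refine (sum_le_sum fun m _ => h1 m).trans (le_of_eq ?_)
  rw [sum_comm]
  refine sum_congr rfl fun k _ => ?_
  rw [sum_comm]
  refine sum_congr rfl fun l _ => ?_
  rw [sum_comm]
  exact sum_congr rfl fun l' _ => (S_sq hA hΩ Q (hZ k l l')).symm

section
variable {X : Type*} [TopologicalSpace X] [MulAction (NG M A) X] {ev : (H →L[ℂ] H) → C(X, ℂ)}
  {I : C(X, ℝ) →ₗ[ℝ] ℝ}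

theorem mono (hI : IsDyn (NG M A) I) {f g : C(X, ℝ)} (h : ∀ x, f x ≤ g x) : I f ≤ I g := by
  have h1 := hI.pos (g - f) fun x => sub_nonneg.2 (h x)
  rw [map_sub] at h1
  linarith

theorem cs (hI : IsDyn (NG M A) I) {ι : Type} [Fintype ι] (f g : ι → C(X, ℝ)) :
    (∑ m, I (f m * g m)) ^ 2 ≤ (∑ m, I (f m ^ 2)) * ∑ m, I (g m ^ 2) := by
  have h := discrim_le_zero (a := ∑ m, I (f m ^ 2)) (b := 2 * ∑ m, I (f m * g m))
    (c := ∑ m, I (g m ^ 2)) fun t => by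
      rw [sum_mul, mul_sum, sum_mul, ← sum_add_distrib, ← sum_add_distrib]
      refine sum_nonneg fun m _ => ?_
      have h1 := hI.pos ((t * t) • f m ^ 2 + (2 * t) • (f m * g m) + g m ^ 2) fun x => by
        simp only [ContinuousMap.add_apply, ContinuousMap.smul_apply, ContinuousMap.mul_apply,
          ContinuousMap.pow_apply, smul_eq_mul]
        nlinarith [sq_nonneg (t * f m x + g m x)]
      simp only [map_add, map_smul, smul_eq_mul] at h1
      linarith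
  rw [discrim] at h
  linarith

theorem hol4 (hI : IsDyn (NG M A) I) {ι : Type} [Fintype ι] (N : Fin 4 → ι → C(X, ℝ)) :
    (∑ m, I (∏ c, N c m)) ^ 4 ≤ ∏ c, ∑ m, I (N c m ^ 4) := by
  have h1 := cs hI (fun m => N 0 m * N 1 m) fun m => N 2 m * N 3 m
  have h2 := cs hI (fun m => N 0 m ^ 2) fun m => N 1 m ^ 2
  have h3 := cs hI (fun m => N 2 m ^ 2) fun m => N 3 m ^ 2
  simp only [← pow_mul, mul_pow, ← mul_assoc] at h1 h2 h3
  simp only [Fin.prod_univ_four]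
  calc _ = ((∑ m, I (N 0 m * N 1 m * N 2 m * N 3 m)) ^ 2) ^ 2 := by ring
    _ ≤ _ := pow_le_pow_left₀ (sq_nonneg _) h1 2
    _ ≤ _ := by
      rw [mul_pow, mul_assoc]
      exact mul_le_mul h2 h3 (sq_nonneg _) ((sq_nonneg _).trans h2)

variable (E ev) in
/-- The function `E (a a*)`. -/
noncomputable def qq (a : H →L[ℂ] H) : C(X, ℝ) := ⟨fun x => (ev (E (a * star a)) x).re, by fun_prop⟩

/-- Pointwise square root. -/
noncomputable def rt (f : C(X, ℝ)) : C(X, ℝ) := ⟨fun x => √(f x), by fun_prop⟩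

theorem le_rt (f : C(X, ℝ)) (x : X) : f x ≤ rt f x ^ 2 := by
  change _ ≤ √_ ^ 2
  rw [Real.sq_sqrt']
  exact le_max_left _ _

/-- Pointwise squared modulus. -/
noncomputable def sqm (f : C(X, ℂ)) : C(X, ℝ) := ⟨fun x => ‖f x‖ ^ 2, by fun_prop⟩

theorem qq_real (hE : IsE M A Ω E) (hG : IsGel M A ev) (hy : y ∈ M) (x : X) :
    ev (E (y * star y)) x = (qq E ev y x : ℂ) ∧ 0 ≤ qq E ev y x :=
  ev_real hG (hE.mem _ (mul_mem hy (star_mem hy)))
    (hE.pos _ (mul_mem hy (star_mem hy)) (mul_star_self_nonneg y)) x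

theorem ev_qq (hE : IsE M A Ω E) (hG : IsGel M A ev) {κ : Type} [Fintype κ] {a : κ → H →L[ℂ] H}
    (ha : ∀ l, a l ∈ M) (x : X) :
    ev (E (∑ l, a l * star (a l))) x = ((∑ l, qq E ev (a l) x : ℝ) : ℂ) := by
  have h : ∀ l, a l * star (a l) ∈ M := fun l => mul_mem (ha l) (star_mem (ha l))
  rw [E_sum hE _ fun l _ => h l, ev_sum hG _ fun l _ => hE.mem _ (h l), Complex.ofReal_sum]
  exact sum_congr rfl fun l _ => (qq_real hE hG (ha l) x).1

theorem nsq_sum (hE : IsE M A Ω E) (hG : IsGel M A ev)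
    (hτ : ∀ a ∈ A, ∀ f : C(X, ℝ), (∀ x, f x = (ev a x).re) → I f = (tau Ω a).re)
    {κ : Type} [Fintype κ] {a : κ → H →L[ℂ] H} (ha : ∀ l, a l ∈ M) :
    ‖E (∑ l, a l * star (a l)) Ω‖ ^ 2 = I ((∑ l, qq E ev (a l)) ^ 2) := by
  refine nsq hG hτ (hE.mem _ (sum_mem fun l _ => mul_mem (ha l) (star_mem (ha l)))) _ fun x => ?_
  rw [ev_qq hE hG ha, Complex.norm_real, Real.norm_eq_abs, sq_abs, ContinuousMap.pow_apply,
    ContinuousMap.sum_apply]

theorem Ph_eq (hA : IsMASA M A) (hE : IsE M A Ω E) (hG : IsGel M A ev)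
    (hτ : ∀ a ∈ A, ∀ f : C(X, ℝ), (∀ x, f x = (ev a x).re) → I f = (tau Ω a).re) (Q : Part A)
    {κ : Type} [Fintype κ] {a : κ → H →L[ℂ] H} (ha : ∀ l, a l ∈ M) :
    Ph E Ω Q a = ∑ m, I (rt (∑ l, qq E ev (a l * Q.e m)) ^ 4) := by
  refine sum_congr rfl fun m _ => ?_
  have h : ∀ l, a l * Q.e m ∈ M := fun l => mul_mem (ha l) (hA.1 _ (Q.mem m))
  rw [sum_congr rfl fun l _ => blk (Q.proj m) (a l) (a l), nsq_sum hE hG hτ h]
  congr 1
  ext x
  have h0 : 0 ≤ (∑ l, qq E ev (a l * Q.e m)) x := by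
    rw [ContinuousMap.sum_apply]
    exact sum_nonneg fun l _ => (qq_real hE hG (h l) x).2
  change _ ^ 2 = √_ ^ 4
  rw [show 4 = 2 * 2 from rfl, pow_mul, Real.sq_sqrt h0]

theorem pair (hE : IsE M A Ω E) (hG : IsGel M A ev) {a b : H →L[ℂ] H} (ha : a ∈ M) (hb : b ∈ M)
    (x : X) : ‖ev (E (a * star b)) x‖ ≤ √(qq E ev a x) * √(qq E ev b x) := by
  rw [← Real.sqrt_mul (qq_real hE hG ha x).2]
  exact Real.le_sqrt_of_sq_le (ev_cs hE hG ha hb x)

end

theorem gram (hA : IsMASA M A) (hΩ : IsTraceVector M Ω) (hE : IsE M A Ω E) {κ : Type} [Fintype κ]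
    {a : κ → H →L[ℂ] H} (ha : ∀ l, a l ∈ M) :
    ∑ l, ∑ l', ‖E (a l * star (a l')) Ω‖ ^ 2 ≤ ‖E (∑ l, a l * star (a l)) Ω‖ ^ 2 := by
  obtain ⟨X, _, _, _, _, _, _, ev, hG⟩ := exists_gel hA
  obtain ⟨I, hI, hτ⟩ := exists_dyn hA hΩ hG
  rw [nsq_sum hE hG hτ ha, sq, sum_mul_sum, map_sum]
  refine sum_le_sum fun l _ => ?_
  rw [map_sum]
  refine sum_le_sum fun l' _ => ?_
  rw [nsq hG hτ (hE.mem _ (mul_mem (ha l) (star_mem (ha l')))) (sqm _) fun _ => rfl]
  exact mono hI fun x => ev_cs hE hG (ha l) (ha l') x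

end HolAux

open HolAux

theorem hold2 (hA : IsMASA M A) (hΩ : IsTraceVector M Ω) (hE : IsE M A Ω E) (Q : Part A)
    {κ : Type} [Fintype κ] {Y : Fin 4 → κ → H →L[ℂ] H} (hY : ∀ c l, Y c l ∈ M) {b : Fin 4 → ℝ}
    {J : Finset (Fin 4)} (hJ : 2 ≤ J.card) (h1 : ∀ c ∈ J, Ph E Ω Q (Y c) ≤ b c)
    (h2 : ∀ c ∉ J, ∃ y ∈ M, (∀ l, Y c l = y) ∧ DQ E Ω Q y ≤ b c) :
    ‖∑ l, F4 E Ω Q fun c => Y c l‖ ^ 4 ≤ ∏ c, b c := by
  obtain ⟨X, _, _, _, _, _, _, ev, hG⟩ := exists_gel hA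
  obtain ⟨I, hI, hτ⟩ := exists_dyn hA hΩ hG
  have hM : ∀ c l m, Y c l * Q.e m ∈ M := fun c l m => mul_mem (hY c l) (hA.1 _ (Q.mem m))
  have q0 : ∀ c l m x, 0 ≤ qq E ev (Y c l * Q.e m) x := fun c l m x => (qq_real hE hG (hM c l m) x).2
  have hN : ∀ c, ∃ N : Q.ι → C(X, ℝ), (∀ m x, 0 ≤ N m x) ∧
      (∀ l m x, qq E ev (Y c l * Q.e m) x ≤ N m x ^ 2) ∧
      (c ∈ J → ∀ m x, ∑ l, qq E ev (Y c l * Q.e m) x ≤ N m x ^ 2) ∧ ∑ m, I (N m ^ 4) ≤ b c := by
    intro c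
    by_cases hc : c ∈ J
    · have e : ∀ m x, ∑ l, qq E ev (Y c l * Q.e m) x ≤ rt (∑ l, qq E ev (Y c l * Q.e m)) x ^ 2 :=
        fun m x => by
          rw [← ContinuousMap.sum_apply]
          exact le_rt _ x
      refine ⟨fun m => rt (∑ l, qq E ev (Y c l * Q.e m)), fun m x => Real.sqrt_nonneg _,
        fun l m x => le_trans ?_ (e m x), fun _ => e, ?_⟩
      · exact single_le_sum (f := fun l => qq E ev (Y c l * Q.e m) x) (fun l _ => q0 c l m x)
          (mem_univ l)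
      · rw [← Ph_eq hA hE hG hτ Q (hY c)]
        exact h1 c hc
    · obtain ⟨y, hy, e, h⟩ := h2 c hc
      refine ⟨fun m => rt (∑ _l : Unit, qq E ev (y * Q.e m)), fun m x => Real.sqrt_nonneg _,
        fun l m x => ?_, fun h => absurd h hc, ?_⟩
      · simp only [e l, Fintype.sum_unique]
        exact le_rt _ x
      · rw [← Ph_eq hA hE hG hτ Q (a := fun _ : Unit => y) fun _ => hy, ← DQ_eq]
        exact h
  choose N N0 N1 N2 N3 using hN
  have key : ‖∑ l, F4 E Ω Q fun c => Y c l‖ ≤ ∑ m, I (∏ c, N c m) := by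
    simp only [F4]
    rw [sum_comm]
    refine norm_sum_le_of_le _ fun m _ => ?_
    have hm : ∀ c c' l, E (Y c l * Q.e m * star (Y c' l)) ∈ A := fun c c' l =>
      hE.mem _ (mul_mem (hM c l m) (star_mem (hY c' l)))
    rw [← tau_sum]
    refine tau_le hG hI hτ (sum_mem fun l _ => mul_mem (hm 0 1 l) (hm 2 3 l)) _ fun x => ?_
    rw [ev_sum hG _ fun l _ => mul_mem (hm 0 1 l) (hm 2 3 l), ContinuousMap.prod_apply]
    refine le_trans (norm_sum_le_of_le _ fun l _ => ?_)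
      (prod_le (n := fun c l => √(qq E ev (Y c l * Q.e m) x)) hJ (fun c l => Real.sqrt_nonneg _)
        (fun c => N0 c m x) (fun c l => ?_) fun c hc => ?_)
    · rw [hG.mul _ (hm 0 1 l) _ (hm 2 3 l), ContinuousMap.mul_apply, norm_mul, Fin.prod_univ_four,
        mul_assoc (_ * _), blk (Q.proj m) (Y 0 l), blk (Q.proj m) (Y 2 l)]
      exact mul_le_mul (pair hE hG (hM 0 l m) (hM 1 l m) x) (pair hE hG (hM 2 l m) (hM 3 l m) x)
        (norm_nonneg _) (by positivity)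
    · rw [Real.sq_sqrt (q0 c l m x)]
      exact N1 c l m x
    · rw [sum_congr rfl fun l _ => Real.sq_sqrt (q0 c l m x)]
      exact N2 c hc m x
  refine (pow_le_pow_left₀ (norm_nonneg _) key 4).trans ((hol4 hI N).trans ?_)
  refine Finset.prod_le_prod (fun c _ => sum_nonneg fun m _ => hI.pos _ fun x => ?_) fun c _ => N3 c
  rw [ContinuousMap.pow_apply]
  positivity

theorem hold1 (hA : IsMASA M A) (hΩ : IsTraceVector M Ω) (hE : IsE M A Ω E) (Q : Part A)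
    {Y : Fin 4 → H →L[ℂ] H} (hY : ∀ c, Y c ∈ M) : ‖F4 E Ω Q Y‖ ^ 4 ≤ ∏ c, DQ E Ω Q (Y c) := by
  have h := hold2 hA hΩ hE Q (Y := fun c (_ : Unit) => Y c) (fun c _ => hY c)
    (b := fun c => DQ E Ω Q (Y c)) (J := univ) (by simp) (fun c _ => (DQ_eq Q (Y c)).ge)
    fun c hc => absurd (mem_univ c) hc
  rwa [Fintype.sum_unique] at h

theorem F4_self (hA : IsMASA M A) (hE : IsE M A Ω E) (Q : Part A) (hy : y ∈ M) :
    F4 E Ω Q (fun _ => y) = DQ E Ω Q y := by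
  rw [F4, DQ, Complex.ofReal_sum]
  refine sum_congr rfl fun m _ => ?_
  have h : y * Q.e m * star y ∈ M := mul_mem (mul_mem hy (hA.1 _ (Q.mem m))) (star_mem hy)
  rw [tau_mul, ← hE.star _ h, star_mul, star_mul, star_star, (Q.proj m).isSelfAdjoint.star_eq,
    ← mul_assoc, inner_self_eq_norm_sq_to_K]
  simp

theorem sym (hA : IsMASA M A) (hΩ : IsTraceVector M Ω) (hE : IsE M A Ω E) {κ : Type} [Fintype κ]
    {Y : κ → H →L[ℂ] H} (hY : ∀ l, Y l ∈ M) (P : Part A) (hη : 0 < η) :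
    ∀ᶠ Q : Part A in atTop, Ph E Ω Q Y ≤ Ph E Ω P (fun l => star (Y l)) + η := by
  filter_upwards [half hA hΩ hE hY P hη] with Q hQ
  refine hQ.trans (add_le_add_left (sum_le_sum fun k _ => ?_) _)
  have h := gram hA hΩ hE (a := fun l => star (Y l) * P.e k) fun l =>
    mul_mem (star_mem (hY l)) (hA.1 _ (P.mem k))
  simp only [← blk (P.proj k)] at h
  simpa only [star_star] using h

theorem DD_star (hA : IsMASA M A) (hΩ : IsTraceVector M Ω) (hE : IsE M A Ω E) (hy : y ∈ M) :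
    DD E Ω A (star y) = DD E Ω A y := by
  have h : ∀ z ∈ M, DD E Ω A z ≤ DD E Ω A (star z) := fun z hz =>
    le_ciInf fun P => le_of_forall_pos_le_add fun η hη => by
      have := neBot hA
      obtain ⟨Q, hQ⟩ := (sym hA hΩ hE (Y := fun _ : Unit => z) (fun _ => hz) P hη).exists
      rw [← DQ_eq, ← DQ_eq] at hQ
      exact (DD_le Q z).trans hQ
  refine le_antisymm ?_ (h y hy)
  simpa only [star_star] using h _ (star_mem hy)

theorem stepb1 (hA : IsMASA M A) (hΩ : IsTraceVector M Ω) (hE : IsE M A Ω E) (hU : U ∈ M)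
    (hU' : U' ∈ M) (n1 : ‖U‖ ≤ 1) (n2 : ‖U'‖ ≤ 1) (P : Part A) (hθ : 0 < θ) (hη : 0 < η) :
    ∀ᶠ Q : Part A in atTop,
      Ph E Ω Q (fun l => U * P.e l * U') ≤ θ + DQ E Ω P (star U') / θ + η := by
  have he : ∀ l, P.e l ∈ M := fun l => hA.1 _ (P.mem l)
  filter_upwards [half hA hΩ hE (Y := fun l => U * P.e l * U')
    (fun l => mul_mem (mul_mem hU (he l)) hU') (Part.triv A) hη] with Q hQ
  refine hQ.trans (add_le_add_left ?_ _)
  obtain ⟨X, _, _, _, _, _, _, ev, hG⟩ := exists_gel hA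
  obtain ⟨I, hI, hτ⟩ := exists_dyn hA hΩ hG
  have hG' : star U * U ∈ M := mul_mem (star_mem hU) hU
  have hb : ∀ l, star U' * P.e l ∈ M := fun l => mul_mem (star_mem hU') (he l)
  have ha : ∀ l l', star U' * P.e l * (star U * U) * P.e l' ∈ M := fun l l' =>
    mul_mem (mul_mem (hb l) hG') (he l')
  have p1 : ∀ l z, P.e l * (P.e l * z) = P.e l * z := fun l z => by
    rw [← mul_assoc, (P.proj l).isIdempotentElem.eq]
  have e1 : ∀ l l', star (U * P.e l * U') * 1 * (U * P.e l' * U') =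
      star U' * P.e l * (star U * U) * P.e l' * star (star U' * P.e l') := fun l l' => by
    simp only [star_mul, star_star, (P.proj _).isSelfAdjoint.star_eq, mul_assoc, p1, one_mul]
  have e2 : DQ E Ω P (star U') = I (∑ l, qq E ev (star U' * P.e l) ^ 2) := by
    rw [map_sum]
    refine sum_congr rfl fun l _ => ?_
    have h := nsq_sum hE hG hτ (a := fun _ : Unit => star U' * P.e l) fun _ => hb l
    rw [Fintype.sum_unique, Fintype.sum_unique] at h
    rw [blk (P.proj l), h]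
  have e3 : ∀ x, ∑ l, ∑ l', qq E ev (star U' * P.e l * (star U * U) * P.e l') x ≤ 1 := fun x => by
    have h := ev_qq hE hG (a := fun p : P.ι × P.ι => star U' * P.e p.1 * (star U * U) * P.e p.2)
      (fun p => ha p.1 p.2) x
    have e : ∑ p : P.ι × P.ι, star U' * P.e p.1 * (star U * U) * P.e p.2 *
        star (star U' * P.e p.1 * (star U * U) * P.e p.2) =
        star U' * P.S (star U * U * (star U * U)) * U' := by
      rw [Fintype.sum_prod_type, Part.S, mul_sum, sum_mul]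
      refine sum_congr rfl fun l _ => ?_
      dsimp only
      rw [sum_congr rfl fun l' _ => (blk (P.proj l') _ _).symm, ← sum_mul, ← mul_sum, P.sum]
      simp only [star_mul, star_star, (P.proj _).isSelfAdjoint.star_eq, mul_assoc, mul_one]
    have hm : star U' * P.S (star U * U * (star U * U)) * U' ∈ M :=
      mul_mem (mul_mem (star_mem hU') (S_mem hA P (mul_mem hG' hG'))) hU'
    have n3 : ‖star U * U‖ ≤ 1 := by
      rw [CStarRing.norm_star_mul_self]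
      exact mul_le_one₀ n1 (norm_nonneg _) n1
    have n4 : ‖star U' * P.S (star U * U * (star U * U)) * U'‖ ≤ 1 :=
      (norm_mul_le _ _).trans (mul_le_one₀ ((norm_mul_le _ _).trans (mul_le_one₀
        ((norm_star U').trans_le n2) (norm_nonneg _) ((S_norm P _).trans ((norm_mul_le _ _).trans
          (mul_le_one₀ n3 (norm_nonneg _) n3))))) (norm_nonneg _) n2)
    have h5 := (ev_norm hG (hE.mem _ hm) x).trans ((hE.norm _ hm).trans n4)
    rw [← e, h, Complex.norm_real, Fintype.sum_prod_type] at h5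
    exact (le_abs_self _).trans h5
  have e4 : θ + DQ E Ω P (star U') / θ =
      I (θ • 1 + θ⁻¹ • ∑ l, qq E ev (star U' * P.e l) ^ 2) := by
    rw [map_add, map_smul, map_smul, hI.one, ← e2, smul_eq_mul, smul_eq_mul, mul_one, div_eq_inv_mul]
  have e5 : ∀ l l', ‖E (star (U * P.e l * U') * 1 * (U * P.e l' * U')) Ω‖ ^ 2 =
      I (sqm (ev (E (star U' * P.e l * (star U * U) * P.e l' * star (star U' * P.e l'))))) :=
    fun l l' => by
      rw [e1]
      exact nsq hG hτ (hE.mem _ (mul_mem (ha l l') (star_mem (hb l')))) _ fun _ => rfl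
  change ∑ _k : Unit, ∑ l, ∑ l', ‖E (star (U * P.e l * U') * 1 * (U * P.e l' * U')) Ω‖ ^ 2 ≤ _
  rw [Fintype.sum_unique, e4]
  simp only [e5, ← map_sum]
  refine mono hI fun x => ?_
  simp only [ContinuousMap.sum_apply, ContinuousMap.add_apply, ContinuousMap.smul_apply,
    ContinuousMap.pow_apply, ContinuousMap.one_apply, smul_eq_mul, mul_one]
  have g0 : 0 ≤ θ + θ⁻¹ * ∑ l, qq E ev (star U' * P.e l) x ^ 2 := by positivity
  have g1 : ∀ l, qq E ev (star U' * P.e l) x ≤ θ + θ⁻¹ * ∑ l, qq E ev (star U' * P.e l) x ^ 2 :=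
    fun l => by
      have h1 := single_le_sum (f := fun l => qq E ev (star U' * P.e l) x ^ 2)
        (fun l _ => sq_nonneg _) (mem_univ l)
      have h2 := mul_le_mul_of_nonneg_left h1 (inv_pos.2 hθ).le
      have h3 : θ⁻¹ * (qq E ev (star U' * P.e l) x - θ) ^ 2 =
          θ⁻¹ * qq E ev (star U' * P.e l) x ^ 2 - 2 * qq E ev (star U' * P.e l) x + θ := by
        field_simp
        ring
      have h4 : 0 ≤ θ⁻¹ * (qq E ev (star U' * P.e l) x - θ) ^ 2 := by positivity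
      have h5 := (qq_real hE hG (hb l) x).2
      linarith
  refine le_trans (sum_le_sum fun l _ => sum_le_sum fun l' _ => (ev_cs hE hG (ha l l') (hb l') x).trans
    (mul_le_mul_of_nonneg_left (g1 l') (qq_real hE hG (ha l l') x).2)) ?_
  simp only [← sum_mul]
  exact mul_le_of_le_one_left g0 (e3 x)

theorem stepb2 (hA : IsMASA M A) (hΩ : IsTraceVector M Ω) (hE : IsE M A Ω E) (hU : U ∈ M)
    (hU' : U' ∈ M) (n1 : ‖U‖ ≤ 1) (n2 : ‖U'‖ ≤ 1) (P : Part A) (hθ : 0 < θ) (hη : 0 < η) :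
    ∀ᶠ Q : Part A in atTop,
      Ph E Ω Q (fun l => U * P.e l * U') ≤ θ + DQ E Ω P U / θ + η := by
  have := neBot hA
  obtain ⟨P', hP⟩ := (stepb1 hA hΩ hE (star_mem hU') (star_mem hU) ((norm_star U').trans_le n2)
    ((norm_star U).trans_le n1) P hθ (half_pos hη)).exists
  filter_upwards [sym hA hΩ hE (Y := fun l => U * P.e l * U')
    (fun l => mul_mem (mul_mem hU (hA.1 _ (P.mem l))) hU') P' (half_pos hη)] with Q hQ
  simp only [star_mul, (P.proj _).isSelfAdjoint.star_eq, ← mul_assoc] at hQ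
  rw [star_star] at hP
  linarith

end Vale.Agent.P078.G
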