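import Vale.Agent.P078.G.Defs

/-!
First order expansion of a multilinear functional of a lazy random field.

PLAN. `T l = F (fun i => Pi.single (l i) 1)`, `F s = Σ_l T l Π_i s i (l i)` (`MultilinearMap.map_sum`). With
`c B = (1/r) Σ_a Π_{i ∈ B} chi (k i) (some a)`, `Hh ε = Σ_ω Π pw * F = Σ_l T l Π_λ (1 + ε (c (l⁻¹ λ) - 1))` (`Finset.prod_univ_sum`), a polynomial in `ε`
of degree `≤ card ι` (factors off the range of `l` are 1), bounded by 1 on `[0, 1]`. `coef`: coefficients of such polynomials are bounded by a constant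
(Lagrange interpolation or finite-dimensionality). Coefficient 0 is `F 1`; coefficient 1 is
`Σ_λ (avg_a F (1 + (chi (k i) (some a) - 1) • single λ) - F 1) = Σ_{β ≠ ∅} c' β G β` (`map_add_univ`, `map_smul_univ`/`piecewise`), `‖c' β‖ ≤ 2 ^ N`,
`c' {i} = -1` (sum of a nontrivial character), `G {i} = F 1`.
-/

open Finset Filter
open scoped Classical

namespace Vale.Agent.P078.G

theorem pw_nonneg {r : ℕ} {ε : ℝ} (h0 : 0 ≤ ε) (h1 : ε ≤ 1) (o : Option (ZMod r)) : 0 ≤ pw r ε o := by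
  cases o with
  | none => exact sub_nonneg.mpr h1
  | some a => exact div_nonneg h0 (Nat.cast_nonneg _)

theorem pw_sum {r : ℕ} [NeZero r] (ε : ℝ) {Λ : Type} [Fintype Λ] :
    ∑ ω : Λ → Option (ZMod r), ∏ l, pw r ε (ω l) = 1 := by
  have hr : (r : ℝ) ≠ 0 := Nat.cast_ne_zero.mpr (NeZero.ne r)
  have h : ∑ o, pw r ε o = 1 := by
    rw [Fintype.sum_option]
    simp only [pw, sum_const, card_univ, ZMod.card, nsmul_eq_mul]
    field_simp
    ring
  rw [← Fintype.piFinset_univ, ← prod_univ_sum fun _ => univ]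
  simp [h]

theorem chi_norm {r : ℕ} [NeZero r] (k : ZMod r) (o : Option (ZMod r)) : ‖chi k o‖ = 1 := by
  cases o with
  | none => simp [chi]
  | some a => simp [chi]

theorem coef (N : ℕ) : ∃ C : ℝ, 0 ≤ C ∧ ∀ p : Polynomial ℂ, p.natDegree ≤ N →
    (∀ t : ℝ, 0 ≤ t → t ≤ 1 → ‖p.eval (t : ℂ)‖ ≤ 1) → ∀ t : ℝ, 0 ≤ t → t ≤ 1 →
      ‖p.eval (t : ℂ) - p.coeff 0 - p.coeff 1 * t‖ ≤ C * t ^ 2 := by
  set v : ℕ → ℂ := fun i => (((i : ℝ) / (N + 1) : ℝ) : ℂ) with hv
  have hinj : Set.InjOn v (range (N + 1)) := by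
    intro a _ b _ h
    have h1 : (a : ℝ) / (N + 1) = b / (N + 1) := Complex.ofReal_injective h
    rw [div_left_inj' (by positivity)] at h1
    exact_mod_cast h1
  refine ⟨∑ j ∈ range N, ∑ i ∈ range (N + 1), ‖(Lagrange.basis (range (N + 1)) v i).coeff (j + 1 + 1)‖,
    by positivity, fun p hp hb t t0 t1 => ?_⟩
  have hc : ∀ j, ‖p.coeff j‖ ≤ ∑ i ∈ range (N + 1), ‖(Lagrange.basis (range (N + 1)) v i).coeff j‖ := by
    intro j
    have hd : p.degree < (range (N + 1)).card := by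
      rw [card_range]
      exact lt_of_le_of_lt Polynomial.degree_le_natDegree (by exact_mod_cast Nat.lt_succ_of_le hp)
    conv_lhs => rw [Lagrange.eq_interpolate hinj hd, Lagrange.interpolate_apply,
      Polynomial.finsetSum_coeff]
    refine (norm_sum_le _ _).trans (sum_le_sum fun i hi => ?_)
    rw [Polynomial.coeff_C_mul, norm_mul]
    refine mul_le_of_le_one_left (norm_nonneg _) (hb _ (by positivity) ?_)
    rw [div_le_one (by positivity)]
    exact_mod_cast (mem_range.mp hi).le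
  rw [Polynomial.eval_eq_sum_range' (show p.natDegree < N + 1 + 1 by omega), sum_range_succ',
    sum_range_succ']
  have e : ∑ j ∈ range N, p.coeff (j + 1 + 1) * (t : ℂ) ^ (j + 1 + 1) + p.coeff (0 + 1) * (t : ℂ) ^ (0 + 1) +
      p.coeff 0 * (t : ℂ) ^ 0 - p.coeff 0 - p.coeff 1 * t =
      ∑ j ∈ range N, p.coeff (j + 1 + 1) * (t : ℂ) ^ (j + 1 + 1) := by simp
  rw [e, sum_mul]
  refine (norm_sum_le _ _).trans (sum_le_sum fun j _ => ?_)
  rw [norm_mul, norm_pow, Complex.norm_real, Real.norm_of_nonneg t0]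
  exact mul_le_mul (hc _) (pow_le_pow_of_le_one t0 t1 (by omega)) (by positivity) (by positivity)

namespace Lz

open Polynomial

theorem coeff_prod {Λ : Type} (a : Λ → ℂ) (s : Finset Λ) :
    (∏ l ∈ s, (1 + C (a l) * X)).coeff 0 = 1 ∧ (∏ l ∈ s, (1 + C (a l) * X)).coeff 1 = ∑ l ∈ s, a l := by
  induction s using Finset.induction_on with
  | empty => simp [coeff_one]
  | insert x s hx ih =>
    rw [prod_insert hx, sum_insert hx, add_mul, one_mul, mul_assoc, coeff_add, coeff_add, coeff_C_mul,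
      coeff_C_mul, coeff_X_mul_zero, show (1 : ℕ) = 0 + 1 from rfl, coeff_X_mul, ih.1]
    rw [show (0 + 1 : ℕ) = 1 from rfl, ih.2]
    constructor <;> ring

variable {ι Λ : Type} [Fintype ι] [DecidableEq ι] [Fintype Λ]

theorem expand (F : MultilinearMap ℂ (fun _ : ι => Λ → ℂ) ℂ) (s : ι → Λ → ℂ) :
    F s = ∑ l : ι → Λ, (∏ i, s i (l i)) * F fun i => Pi.single (l i) 1 := by
  have e : s = fun i => ∑ x, s i x • (Pi.single x 1 : Λ → ℂ) := by
    funext i y
    simp [Finset.sum_apply, Pi.single_apply]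
  conv_lhs => rw [e]
  rw [F.map_sum]
  exact sum_congr rfl fun l _ => F.map_smul_univ _ _

variable {r : ℕ} [NeZero r]

/-- centred moments -/
noncomputable def cm (k : ι → ZMod r) (β : Finset ι) : ℂ :=
  (∑ a : ZMod r, ∏ i ∈ β, (chi (k i) (some a) - 1)) / r

omit [Fintype ι] [DecidableEq ι] in
theorem cm_empty (k : ι → ZMod r) : cm k ∅ = 1 := by
  have hr : (r : ℂ) ≠ 0 := Nat.cast_ne_zero.mpr (NeZero.ne r)
  simp [cm, hr]

omit [Fintype ι] [DecidableEq ι] in
theorem cm_single {k : ι → ZMod r} {i : ι} (hk : k i ≠ 0) : cm k {i} = -1 := by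
  have hr : (r : ℂ) ≠ 0 := Nat.cast_ne_zero.mpr (NeZero.ne r)
  have h : ∑ a : ZMod r, chi (k i) (some a) = 0 := by
    have := AddChar.sum_mulShift (k i) (ZMod.isPrimitive_stdAddChar r)
    rw [if_neg hk] at this
    simpa [chi, mul_comm] using this
  simp [cm, h, hr]

omit [DecidableEq ι] in
theorem cm_norm (k : ι → ZMod r) (β : Finset ι) : ‖cm k β‖ ≤ 2 ^ Fintype.card ι := by
  have hr : (0 : ℝ) < r := Nat.cast_pos.mpr (NeZero.pos r)
  rw [cm, norm_div, Complex.norm_natCast, div_le_iff₀ hr]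
  refine (norm_sum_le _ _).trans ((sum_le_sum (g := fun _ => 2 ^ Fintype.card ι) fun a _ => ?_).trans
    (by simp [mul_comm]))
  rw [norm_prod]
  refine (prod_le_prod (g := fun _ => 2) (fun _ _ => norm_nonneg _) fun i _ => ?_).trans ?_
  · refine (norm_sub_le _ _).trans ?_
    rw [chi_norm, norm_one]
    norm_num
  · rw [prod_const]
    exact pow_le_pow_right₀ (by norm_num) (card_le_univ β)

/-- first order coefficient of a cell -/
noncomputable def cb (k : ι → ZMod r) (B : Finset ι) : ℂ :=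
  ∑ β ∈ univ.erase ∅, if β ⊆ B then cm k β else 0

theorem cb_empty (k : ι → ZMod r) : cb k ∅ = 0 :=
  sum_eq_zero fun β hβ => if_neg fun h => (mem_erase.mp hβ).1 (subset_empty.mp h)

theorem cell (k : ι → ZMod r) (B : Finset ι) (t : ℝ) :
    ∑ o, (pw r t o : ℂ) * ∏ i ∈ B, chi (k i) o = 1 + cb k B * t := by
  have h1 : ∑ β : Finset ι, (if β ⊆ B then cm k β else 0) = 1 + cb k B := by
    rw [← add_sum_erase _ _ (mem_univ ∅), if_pos (empty_subset _), cm_empty, cb]
  have h2 : ∑ β : Finset ι, (if β ⊆ B then cm k β else 0) =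
      (∑ a : ZMod r, ∏ i ∈ B, chi (k i) (some a)) / r := by
    rw [← sum_filter, show univ.filter (fun β : Finset ι => β ⊆ B) = B.powerset by ext; simp]
    simp only [cm]
    rw [← sum_div, sum_comm]
    congr 1
    refine sum_congr rfl fun a _ => ?_
    rw [← prod_one_add]
    simp
  rw [Fintype.sum_option]
  simp only [pw, chi, prod_const_one, mul_one] at h2 ⊢
  rw [← mul_sum]
  have h3 := h1.symm.trans h2
  push_cast
  linear_combination (-(t : ℂ)) * h3

/-- the polynomial -/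
noncomputable def pol (F : MultilinearMap ℂ (fun _ : ι => Λ → ℂ) ℂ) (k : ι → ZMod r) : ℂ[X] :=
  ∑ l : ι → Λ, C (F fun i => Pi.single (l i) 1) *
    ∏ x, (1 + C (cb k (univ.filter fun i => l i = x)) * X)

variable (F : MultilinearMap ℂ (fun _ : ι => Λ → ℂ) ℂ) (k : ι → ZMod r)

theorem pol_eval (t : ℝ) : (pol F k).eval (t : ℂ) =
    ∑ ω : Λ → Option (ZMod r), ((∏ l, pw r t (ω l) : ℝ) : ℂ) * F (fun i l => chi (k i) (ω l)) := by
  rw [sum_congr rfl fun (ω : Λ → Option (ZMod r)) _ => by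
    rw [expand F fun i l => chi (k i) (ω l), mul_sum], sum_comm, pol, eval_finsetSum]
  refine sum_congr rfl fun l _ => ?_
  rw [eval_mul, eval_C, eval_prod]
  simp only [eval_add, eval_one, eval_mul, eval_C, eval_X, ← cell]
  rw [prod_univ_sum, Fintype.piFinset_univ, mul_sum]
  refine sum_congr rfl fun ω _ => ?_
  rw [prod_mul_distrib, ← prod_fiberwise univ l fun i => chi (k i) (ω (l i))]
  push_cast
  rw [prod_congr rfl fun x _ => prod_congr rfl fun i (hi : i ∈ univ.filter fun i => l i = x) =>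
    show chi (k i) (ω (l i)) = chi (k i) (ω x) by rw [(mem_filter.mp hi).2]]
  ring

theorem pol_deg : (pol F k).natDegree ≤ Fintype.card ι := by
  refine natDegree_sum_le_of_forall_le _ _ fun l _ => (natDegree_C_mul_le _ _).trans ?_
  refine (natDegree_prod_le _ _).trans ?_
  rw [← card_univ, card_eq_sum_card_fiberwise (f := l) (t := univ) fun _ _ => mem_univ _]
  refine sum_le_sum fun x _ => ?_
  rcases (univ.filter fun i => l i = x).eq_empty_or_nonempty with h | h
  · simp [h, cb_empty]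
  · refine le_trans ?_ (card_pos.mpr h)
    compute_degree

theorem pol_zero : (pol F k).coeff 0 = F 1 := by
  rw [expand F 1, pol, finsetSum_coeff]
  refine sum_congr rfl fun l _ => ?_
  rw [coeff_C_mul, (coeff_prod _ _).1]
  simp

theorem pol_one : (pol F k).coeff 1 = ∑ β ∈ univ.erase ∅,
    cm k β * ∑ x : Λ, F fun i => if i ∈ β then Pi.single x 1 else 1 := by
  rw [pol, finsetSum_coeff]
  simp only [coeff_C_mul, (coeff_prod _ _).2, cb, mul_sum]
  rw [sum_congr rfl fun l _ => sum_comm, sum_comm]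
  refine sum_congr rfl fun β _ => ?_
  rw [sum_comm]
  refine sum_congr rfl fun x _ => ?_
  rw [expand F fun i => if i ∈ β then Pi.single x 1 else 1, mul_sum]
  refine sum_congr rfl fun l _ => ?_
  split_ifs with h
  · rw [prod_eq_one fun i _ => ?_]
    · ring
    · split_ifs with hi
      · simp [(mem_filter.mp (h hi)).2]
      · rfl
  · obtain ⟨i, hi, hx⟩ := not_subset.mp h
    rw [prod_eq_zero (mem_univ i)]
    · ring
    · have : l i ≠ x := by simpa using hx
      simp [hi, this]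

theorem single_sum (i : ι) : ∑ x : Λ, F (fun j => if j ∈ ({i} : Finset ι) then Pi.single x 1 else 1) = F 1 := by
  have e : ∀ x : Λ, (fun j => if j ∈ ({i} : Finset ι) then (Pi.single x 1 : Λ → ℂ) else 1) =
      Function.update (1 : ι → Λ → ℂ) i (Pi.single x 1) := fun x => by
    funext j
    simp [Function.update_apply]
  simp only [e]
  rw [← F.map_update_sum, show ∑ a : Λ, (Pi.single a 1 : Λ → ℂ) = 1 from univ_sum_single (1 : Λ → ℂ)]
  simp

end Lz

theorem lazy (N : ℕ) : ∃ C : ℝ, 0 ≤ C ∧ ∀ (r : ℕ) [NeZero r] (ι Λ : Type) [Fintype ι] [DecidableEq ι]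
    [Fintype Λ], Fintype.card ι = N → ∀ (F : MultilinearMap ℂ (fun _ : ι => Λ → ℂ) ℂ) (k : ι → ZMod r),
    (∀ i, k i ≠ 0) → (∀ s : ι → Λ → ℂ, (∀ i l, ‖s i l‖ ≤ 1) → ‖F s‖ ≤ 1) → ∀ γ ε : ℝ, 0 ≤ γ → 0 ≤ ε →
    ε ≤ 1 → (∀ β : Finset ι, 2 ≤ β.card →
      ‖∑ l : Λ, F fun i => if i ∈ β then Pi.single l 1 else 1‖ ≤ γ) →
    ‖∑ ω : Λ → Option (ZMod r), ((∏ l, pw r ε (ω l) : ℝ) : ℂ) * F (fun i l => chi (k i) (ω l)) -
      (1 - N * ε) * F 1‖ ≤ C * (ε * γ + ε ^ 2) := by
  obtain ⟨C, C0, hC⟩ := coef N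
  refine ⟨C + 2 ^ N * 2 ^ N, by positivity, fun r _ ι Λ _ _ _ hN F k hk hF γ ε γ0 ε0 ε1 hγ => ?_⟩
  have h1 := hC (Lz.pol F k) (hN ▸ Lz.pol_deg F k) (fun t t0 t1 => by
    rw [Lz.pol_eval, ← pw_sum (r := r) t (Λ := Λ)]
    refine (norm_sum_le _ _).trans (sum_le_sum fun ω _ => ?_)
    have h0 : 0 ≤ ∏ l, pw r t (ω l) := prod_nonneg fun l _ => pw_nonneg t0 t1 _
    rw [norm_mul, Complex.norm_real, Real.norm_of_nonneg h0]
    exact mul_le_of_le_one_right h0 (hF _ fun i l => (chi_norm _ _).le)) ε ε0 ε1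
  rw [Lz.pol_eval, Lz.pol_zero, Lz.pol_one] at h1
  set G : Finset ι → ℂ := fun β => ∑ x : Λ, F fun i => if i ∈ β then Pi.single x 1 else 1 with hG
  have e1 : ∑ β ∈ univ.erase ∅, Lz.cm k β * G β =
      -(N * F 1) + ∑ β ∈ univ.filter fun β : Finset ι => 2 ≤ β.card, Lz.cm k β * G β := by
    have : (univ.erase ∅ : Finset (Finset ι)) = (univ.image fun i => ({i} : Finset ι)) ∪
        univ.filter fun β : Finset ι => 2 ≤ β.card := by
      ext β
      simp only [mem_erase, mem_univ, and_true, mem_union, mem_image, true_and, mem_filter]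
      rw [Ne, ← card_eq_zero]
      constructor
      · intro h
        by_cases h1 : β.card = 1
        · obtain ⟨a, ha⟩ := card_eq_one.mp h1
          exact .inl ⟨a, ha.symm⟩
        · right
          omega
      · rintro (⟨a, rfl⟩ | h)
        · simp
        · omega
    rw [this, sum_union, sum_image fun a _ b _ h => singleton_injective h]
    · congr 1
      have hs : ∀ i, Lz.cm k {i} * G {i} = -F 1 := fun i => by
        rw [Lz.cm_single (hk i), show G {i} = F 1 from Lz.single_sum F i, neg_one_mul]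
      rw [sum_congr rfl fun i _ => hs i]
      simp [hN]
    · rw [disjoint_left]
      intro β hβ hβ'
      obtain ⟨a, -, rfl⟩ := mem_image.mp hβ
      simp at hβ'
  have e2 : ‖∑ β ∈ univ.filter fun β : Finset ι => 2 ≤ β.card, Lz.cm k β * G β‖ ≤ 2 ^ N * 2 ^ N * γ := by
    refine (norm_sum_le _ _).trans ((sum_le_sum (g := fun _ => 2 ^ N * γ) fun β hβ => ?_).trans ?_)
    · rw [norm_mul]
      exact mul_le_mul (hN ▸ Lz.cm_norm k β) (hγ β (mem_filter.mp hβ).2) (norm_nonneg _) (by positivity)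
    · rw [sum_const, nsmul_eq_mul, mul_assoc]
      refine mul_le_mul_of_nonneg_right ?_ (by positivity)
      have := card_le_univ (univ.filter fun β : Finset ι => 2 ≤ β.card)
      rw [Fintype.card_finset, hN] at this
      exact_mod_cast this
  rw [e1] at h1
  set R := ∑ β ∈ univ.filter fun β : Finset ι => 2 ≤ β.card, Lz.cm k β * G β
  set Hh := ∑ ω : Λ → Option (ZMod r), ((∏ l, pw r ε (ω l) : ℝ) : ℂ) * F (fun i l => chi (k i) (ω l))
  rw [show Hh - (1 - N * ε) * F 1 = (Hh - F 1 - (-(N * F 1) + R) * ε) + R * ε by ring]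
  refine (norm_add_le _ _).trans ?_
  rw [norm_mul, Complex.norm_real, Real.norm_of_nonneg ε0]
  have h2 := mul_le_mul_of_nonneg_right e2 ε0
  have h3 : 0 ≤ C * (ε * γ) := by positivity
  have h4 : (0 : ℝ) ≤ 2 ^ N * 2 ^ N * ε ^ 2 := by positivity
  nlinarith

end Vale.Agent.P078.G
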