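import Vale.Agent.P078.G.StepD
import Vale.Agent.P078.G.Diff2

/-!
A mean on seeds that kills all good words with at least one slot.

PLAN. A law is a finite type with weights `≥ 0` of sum 1 and a map to `Seed A r` (or a `Finsupp`). `finite_law`: fix `ε`; build laws `μ j` recursively: `μ 0` = trivial seed,
`μ (j+1)` = law of `W.mul (P.lz ω)` with one `P` (`neBot`, finitely many eventual conditions) good for every seed `W` of `μ j`, every word of `T` and every
segment `(i, m)`, `i + m ≤ n`: `stepD` for segments containing a z-letter (`a t = W (k t)`, `Δ W` = sum of `DD` of the shorter z-segments; inner segments without z-letter have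
`E = 0` by `sep`, those with one are bounded by `E_le_DD`; `γ = (16 Δ)^(1/8) + ε ≤ θ + 16 Δ / θ⁷ + ε`, `η = ε²`), `stepT` for words without z-letter (`η = ε`).
With `d j (w, i, m)` the expectation of `DD`: `d (j+1) ≤ (1 - 4 m ε) d j + C ε (θ + 16 Δ_j / θ⁷ + 3 ε)` for all `θ > 0`, `d = 0` for `m = 0` (`DD_zero`). Real lemma: if
`d (j+1) ≤ (1 - c ε) d j + ε b` eventually, `1 ≤ c`, `c ε ≤ 1`, then eventually `d j ≤ 2 b`. Induction on `m`: for every `η` there is `ε₀` such that for `ε ≤ ε₀` eventually all `d j ≤ η`.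
`‖tau y‖ ≤ ‖E y Ω‖`, `‖E y Ω‖⁴ ≤ DD y`, so `‖tau y‖ ≤ θ + DD y / θ³`. `exists_mean`: ultrafilter on laws finer than the filter generated by the conditions (or on pairs (finite set of words, η) via
`finite_law`), limit of expectations on bounded functions (a submodule), `LinearMap.exists_extend`.
-/

open Finset Filter Topology
open scoped Classical

namespace Vale.Agent.P078.G

variable {H : Type*} [NormedAddCommGroup H] [InnerProductSpace ℂ H] [CompleteSpace H]
  {M : VonNeumannAlgebra H} {A : StarSubalgebra ℂ (H →L[ℂ] H)} {Ω : H}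
  {E : (H →L[ℂ] H) → H →L[ℂ] H}

variable {r : ℕ} [NeZero r]

namespace MeanAux

theorem geo {u : ℕ → ℝ} {ε c b : ℝ} (hε : 0 < ε) (hc : 1 ≤ c) (hcε : c * ε ≤ 1) (hb : 0 < b)
    (h : ∀ᶠ n in atTop, u (n + 1) ≤ (1 - c * ε) * u n + ε * b) : ∀ᶠ n in atTop, u n ≤ 2 * b := by
  obtain ⟨N, hN⟩ := eventually_atTop.1 h
  have h1 : ∀ k, u (k + N) - b ≤ (1 - c * ε) ^ k * (u N - b) := fun k => by
    induction k with
    | zero => simp
    | succ k ih =>
      have h2 := hN (k + N) (by omega)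
      have h3 := mul_le_mul_of_nonneg_left ih (sub_nonneg.2 hcε)
      have h4 : 0 ≤ (c - 1) * (ε * b) := mul_nonneg (by linarith) (by positivity)
      rw [show k + 1 + N = k + N + 1 by omega, pow_succ]
      linarith
  have h2 := (tendsto_pow_atTop_nhds_zero_of_lt_one (sub_nonneg.2 hcε)
    (show 1 - c * ε < 1 by nlinarith)).mul_const (u N - b)
  rw [zero_mul] at h2
  rw [← map_add_atTop_eq_nat N, eventually_map]
  filter_upwards [h2.eventually (gt_mem_nhds hb)] with k hk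
  linarith [h1 k]

theorem decay {J : Type*} [Fintype J] (lv : J → ℕ) {d : ℝ → ℕ → J → ℝ} {C c : J → ℝ}
    (hC : ∀ j, 0 ≤ C j) (hc : ∀ j, 1 ≤ c j)
    (h : ∀ j, (∀ ε n, d ε n j ≤ 0) ∨ ∀ ε, 0 < ε → ε ≤ 1 → ∀ n, ∀ θ, 0 < θ → d ε (n + 1) j ≤
      (1 - c j * ε) * d ε n j + C j * ε * (θ + 16 / θ ^ 7 *
        (∑ j' with lv j' < lv j, d ε n j') + ε)) (j : J) :
    ∀ η, 0 < η → ∀ᶠ ε in 𝓝[>] (0 : ℝ), ∀ᶠ n in atTop, d ε n j ≤ η := by
  induction hm : lv j using Nat.strong_induction_on generalizing j with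
  | _ m ih =>
  intro η hη
  rcases h j with h | h
  · exact .of_forall fun ε => .of_forall fun n => (h ε n).trans hη.le
  have C0 := hC j
  have c0 := hc j
  obtain ⟨θ, θ0, θ1⟩ : ∃ θ : ℝ, 0 < θ ∧ 2 * ((C j + 1) * (3 * θ)) = η :=
    ⟨η / (6 * (C j + 1)), by positivity, by field_simp; ring⟩
  have k1 : ∀ᶠ ε in 𝓝[>] (0 : ℝ), ∀ j' ∈ univ.filter fun j' => lv j' < lv j, ∀ᶠ n in atTop,
      d ε n j' ≤ θ ^ 8 / (16 * (Fintype.card J + 1)) :=
    (eventually_all_finset _).2 fun j' hj => ih _ (hm ▸ (mem_filter.1 hj).2) j' rfl _ (by positivity)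
  have k2 : ∀ᶠ ε in 𝓝[>] (0 : ℝ), ε ∈ Set.Ioo 0 (min θ (1 / c j)) :=
    Ioo_mem_nhdsGT (by positivity)
  filter_upwards [k1, k2] with ε e1 ⟨e2, e3⟩
  obtain ⟨e3, e4⟩ := lt_min_iff.1 e3
  rw [lt_div_iff₀ (by positivity), mul_comm] at e4
  rw [← θ1]
  refine geo e2 c0 e4.le (by positivity) ?_
  filter_upwards [(eventually_all_finset _).2 e1] with n hn
  refine (h ε e2 (by nlinarith) n θ θ0).trans (add_le_add le_rfl ?_)
  have s1 := sum_le_card_nsmul _ _ _ hn
  have s2 : ((univ.filter fun j' => lv j' < lv j).card : ℝ) ≤ Fintype.card J + 1 := by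
    exact_mod_cast (card_le_univ _).trans (Nat.le_succ _)
  have s3 : 16 / θ ^ 7 * (∑ j' with lv j' < lv j, d ε n j') ≤ θ := by
    rw [nsmul_eq_mul] at s1
    refine (mul_le_mul_of_nonneg_left (s1.trans (mul_le_mul_of_nonneg_right s2 (by positivity)))
      (by positivity)).trans (le_of_eq ?_)
    field_simp
  calc _ ≤ C j * ε * (3 * θ) := mul_le_mul_of_nonneg_left (by linarith) (by positivity)
    _ ≤ _ := by nlinarith [mul_pos e2 θ0]

/-- Finitely supported laws. -/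
structure Law (S : Type*) where
  κ : Type
  [fin : Fintype κ]
  q : κ → ℝ
  W : κ → S
  q0 : ∀ o, 0 ≤ q o
  q1 : ∑ o, q o = 1

attribute [instance] Law.fin

/-- Expectation. -/
def Law.ex {S : Type*} (L : Law S) (f : S → ℝ) : ℝ := ∑ o, L.q o * f (L.W o)

theorem sys (hA : IsMASA M A) {J : Type*} [Fintype J] (lv : J → ℕ) {f : J → Seed A r → ℝ}
    {C c : J → ℝ} (hC : ∀ j, 0 ≤ C j) (hc : ∀ j, 1 ≤ c j)
    (h : ∀ j, (∀ W, f j W ≤ 0) ∨ ∀ ε, 0 < ε → ε ≤ 1 → ∀ W : Seed A r, ∀ᶠ P : Part A in atTop,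
      ∀ θ, 0 < θ → ∑ ω : P.ι → Option (ZMod r), (∏ l, pw r ε (ω l)) * f j (W.mul hA (P.lz ω)) ≤
      (1 - c j * ε) * f j W + C j * ε * (θ + 16 / θ ^ 7 * (∑ j' with lv j' < lv j, f j' W) + ε))
    {η : ℝ} (hη : 0 < η) : ∃ L : Law (Seed A r), ∀ j, L.ex (f j) ≤ η := by
  have := neBot hA
  have st : ∀ (ε : ℝ) (L : Law (Seed A r)), ∃ L' : Law (Seed A r), 0 < ε → ε ≤ 1 → ∀ j,
      ¬(∀ W, f j W ≤ 0) → ∀ θ, 0 < θ → L'.ex (f j) ≤ (1 - c j * ε) * L.ex (f j) + C j * ε *
        (θ + 16 / θ ^ 7 * (∑ j' with lv j' < lv j, L.ex (f j')) + ε) := fun ε L => by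
    by_cases hε : 0 < ε ∧ ε ≤ 1
    swap
    · exact ⟨L, fun h1 h2 => absurd ⟨h1, h2⟩ hε⟩
    obtain ⟨P, hP⟩ := (eventually_all.2 fun j : {j // ¬∀ W, f j W ≤ 0} => eventually_all.2
      fun o => (h j).resolve_left j.2 ε hε.1 hε.2 (L.W o)).exists
    refine ⟨⟨L.κ × (P.ι → Option (ZMod r)), fun p => L.q p.1 * ∏ l, pw r ε (p.2 l),
      fun p => (L.W p.1).mul hA (P.lz p.2), fun p => mul_nonneg (L.q0 _)
        (prod_nonneg fun l _ => pw_nonneg hε.1.le hε.2 _), ?_⟩, fun _ _ j hj θ hθ => ?_⟩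
    · simp only [Fintype.sum_prod_type, ← mul_sum, pw_sum, L.q1, mul_one]
    · have k := sum_le_sum fun o (_ : o ∈ univ) =>
        mul_le_mul_of_nonneg_left (hP ⟨j, hj⟩ o θ hθ) (L.q0 o)
      refine le_of_eq_of_le ?_ (k.trans (le_of_eq ?_))
      · simp only [Law.ex, Fintype.sum_prod_type, mul_sum, mul_assoc]
      · have e : ∀ o, L.q o * ((1 - c j * ε) * f j (L.W o) + C j * ε * (θ + 16 / θ ^ 7 *
            (∑ j' with lv j' < lv j, f j' (L.W o)) + ε)) = (1 - c j * ε) * (L.q o * f j (L.W o)) +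
            (C j * ε * (θ + ε) * L.q o + C j * ε * (16 / θ ^ 7) *
              ∑ j' with lv j' < lv j, L.q o * f j' (L.W o)) := fun o => by
          rw [← mul_sum]
          ring
        rw [sum_congr rfl fun o _ => e o, sum_add_distrib, sum_add_distrib, ← mul_sum, ← mul_sum,
          ← mul_sum, L.q1, sum_comm]
        simp only [Law.ex]
        ring
  choose nx hnx using st
  let L0 : Law (Seed A r) := ⟨Unit, fun _ => 1, fun _ => Seed.one A r, fun _ => zero_le_one, by simp⟩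
  have k := fun j => decay lv (d := fun ε n j => ((nx ε)^[n] L0).ex (f j)) hC hc (fun j => by
    by_cases hj : ∀ W, f j W ≤ 0
    · exact .inl fun ε n => sum_nonpos fun o _ =>
        mul_nonpos_of_nonneg_of_nonpos (Law.q0 _ o) (hj _)
    · refine .inr fun ε e1 e2 n θ hθ => ?_
      rw [Function.iterate_succ_apply']
      exact hnx ε _ e1 e2 j hj θ hθ) j η hη
  obtain ⟨ε, hε⟩ := (eventually_all.2 k).exists
  obtain ⟨n, hn⟩ := (eventually_all.2 hε).exists
  exact ⟨_, hn⟩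

theorem root_le {x θ : ℝ} (hx : 0 ≤ x) (hθ : 0 < θ) (n : ℕ) : x ≤ θ + x ^ (n + 1) / θ ^ n := by
  rcases le_total x θ with h | h
  · exact h.trans (le_add_of_nonneg_right (by positivity))
  · refine le_trans ?_ (le_add_of_nonneg_left hθ.le)
    rw [le_div_iff₀ (by positivity), pow_succ']
    gcongr

omit [NeZero r] in
theorem U_mem (hA : IsMASA M A) {w : Wd H r} (g : Good M A Ω E w) (t : ℕ) (ht : t ≤ w.n) :
    w.U t ∈ M ∧ ‖w.U t‖ ≤ 1 := by
  refine ⟨?_, g.norm t ht⟩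
  by_cases z : w.z t
  · exact (g.z t ht z).1
  · obtain ⟨u, a, ha, e⟩ := g.nz t ht z
    exact e ▸ mul_mem (op_mem u) (hA.1 a ha)

omit [CompleteSpace H] in
theorem tau_le_Om (h : ‖Ω‖ = 1) (y : H →L[ℂ] H) : ‖tau Ω y‖ ≤ ‖y Ω‖ :=
  (norm_inner_le_norm (𝕜 := ℂ) _ _).trans (by rw [h, one_mul])

/-- Segments with a centered letter. -/
def Vz (w : Wd H r) (i m : ℕ) : Prop := i + m ≤ w.n ∧ ∃ t, i ≤ t ∧ t ≤ i + m ∧ w.z t

variable (E Ω) in
/-- The functionals to be made small. -/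
noncomputable def fn (w : Wd H r) {N : ℕ} : Fin N × Fin N ⊕ Fin 4 → Seed A r → ℝ
  | .inl p => fun W => if Vz w p.1 p.2 then
      DD E Ω A (sg w.U (fun t => W.W (w.k t)) p.1 p.2) else 0
  | .inr c => fun W => if ∀ t ≤ w.n, ¬w.z t then
      (![1, -1, Complex.I, -Complex.I] c * tau Ω (w.ev W)).re else 0

/-- The levels. -/
def lev {N : ℕ} : Fin N × Fin N ⊕ Fin 4 → ℕ
  | .inl p => p.2
  | .inr _ => N

omit [NeZero r] in
theorem fn_nonneg (w : Wd H r) {N : ℕ} {j : Fin N × Fin N ⊕ Fin 4} (h : lev j < N) (W : Seed A r) :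
    0 ≤ fn Ω E w j W := by
  rcases j with p | c
  · simp only [fn]
    split_ifs
    exacts [DD_nonneg _, le_rfl]
  · exact absurd h (lt_irrefl _)

end MeanAux

open MeanAux

theorem finite_law (hA : IsMASA M A) (hΩ : IsTraceVector M Ω) (hE : IsE M A Ω E)
    (T : Finset (Wd H r)) (hT : ∀ w ∈ T, Good M A Ω E w ∧ 0 < w.n) {η : ℝ} (hη : 0 < η) :
    ∃ (κ : Type) (_ : Fintype κ) (q : κ → ℝ) (W : κ → Seed A r), (∀ o, 0 ≤ q o) ∧ ∑ o, q o = 1 ∧
      ∀ w ∈ T, ‖∑ o, (q o : ℂ) * tau Ω (w.ev (W o))‖ ≤ η := by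
  obtain ⟨N, hN⟩ : ∃ N, ∀ w ∈ T, w.n < N :=
    ⟨T.sup Wd.n + 1, fun w hw => Nat.lt_succ_of_le (le_sup (f := Wd.n) hw)⟩
  choose CD CD0 hD using stepD hA hΩ hE
  choose CT CT0 hT' using stepT hA hΩ hE
  have aW : ∀ (w : Wd H r) (W : Seed A r) t, W.W (w.k t) ∈ A ∧ ‖W.W (w.k t)‖ ≤ 1 :=
    fun w W t => ⟨W.mem _, W.norm_le _⟩
  have sM : ∀ w ∈ T, ∀ (W : Seed A r) i m, i + m ≤ w.n → sg w.U (fun t => W.W (w.k t)) i m ∈ M :=
    fun w hw W i m h => sg_mem (fun t _ ht => (U_mem hA (hT w hw).1 t (by omega)).1)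
      fun t _ _ => hA.1 _ (W.mem _)
  obtain ⟨L, hL⟩ := sys hA (J := T × (Fin N × Fin N ⊕ Fin 4)) (fun j => lev j.2)
    (f := fun j => fn Ω E j.1.1 j.2)
    (C := fun j => j.2.elim (fun p => 2 * CD p.2 + 1) fun _ => 2 * CT j.1.1.n)
    (c := fun j => j.2.elim (fun p => max 1 (4 * (p.2 : ℕ))) fun _ => j.1.1.n)
    (by
      rintro ⟨w, p | c⟩
      · exact add_nonneg (mul_nonneg zero_le_two (CD0 _)) zero_le_one
      · exact mul_nonneg zero_le_two (CT0 _))
    (by
      rintro ⟨w, p | c⟩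
      · exact le_max_left _ _
      · exact Nat.one_le_cast.2 (hT _ w.2).2)
    (by
      rintro ⟨⟨w, hw⟩, ⟨i, m⟩ | c⟩
      · obtain ⟨g, -⟩ := hT w hw
        by_cases v : Vz w i m
        swap
        · exact .inl fun W => le_of_eq (if_neg v)
        rcases Nat.eq_zero_or_pos (m : ℕ) with m0 | m0
        · refine .inl fun W => le_of_eq ((if_pos v).trans ?_)
          obtain ⟨v1, t, t1, t2, t3⟩ := v
          rw [m0]
          exact DD_zero hA hΩ hE (g.z i (by omega) (by rwa [show (i : ℕ) = t by omega]))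
        refine .inr fun ε e1 e2 W => ?_
        set Δ := ∑ j' : T × (Fin N × Fin N ⊕ Fin 4) with lev j'.2 < m, fn Ω E j'.1.1 j'.2 W with hΔ
        have nn : ∀ j' ∈ univ.filter fun j' : T × (Fin N × Fin N ⊕ Fin 4) => lev j'.2 < m,
            0 ≤ fn Ω E j'.1.1 j'.2 W := fun j' hj => fn_nonneg _ ((mem_filter.1 hj).2.trans m.2) W
        have Δ0 : 0 ≤ Δ := sum_nonneg nn
        have le : ∀ i' m' : ℕ, m' < m → i' + m' ≤ w.n → (∃ t, i' ≤ t ∧ t ≤ i' + m' ∧ w.z t) →
            DD E Ω A (sg w.U (fun t => W.W (w.k t)) i' m') ≤ Δ := fun i' m' h1 h2 h3 => by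
          have := hN w hw
          exact le_of_eq_of_le (if_pos (show Vz w i' m' from ⟨h2, h3⟩)).symm (single_le_sum nn (a := (⟨w, hw⟩,
            .inl (⟨i', by omega⟩, ⟨m', by omega⟩))) (mem_filter.2 ⟨mem_univ _, h1⟩))
        obtain ⟨x, x0, x1⟩ : ∃ x : ℝ, 0 ≤ x ∧ x ^ 8 = 16 * Δ :=
          ⟨_, by positivity, Real.rpow_inv_natCast_pow (by positivity) (by norm_num)⟩
        obtain ⟨v1, t, t1, t2, t3⟩ := id v
        filter_upwards [hD m r w.U (fun t => W.W (w.k t)) w.k i ε (ε ^ 2) (x + ε) Δ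
          (fun t _ ht => U_mem hA g t (by omega)) (aW w W) (fun t _ ht => g.k t (by omega)) e1.le e2
          (by positivity) (by positivity) (x1 ▸ pow_lt_pow_left₀ (by linarith) x0 (by norm_num))
          (fun j m' h1 h2 => by
            by_cases z : ∃ t, j ≤ t ∧ t ≤ j + m' ∧ w.z t
            · exact (E_le_DD hA hΩ hE (sM w hw W j m' (by omega))).trans
                (le j m' (by omega) (by omega) z)
            · rw [g.sep j m' (by omega) (by omega) (fun t a b c => z ⟨t, a, b, c⟩) _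
                fun t => W.mem _]
              simpa using Δ0)
          fun m' hm => by
            by_cases z : t ≤ i + m'
            · exact .inl (le i m' hm (by omega) ⟨t, t1, z, t3⟩)
            · exact .inr (le _ _ (by omega) (by omega) ⟨t, by omega, by omega, t3⟩)] with P hP θ hθ
        have r1 := root_le x0 hθ 7
        have r2 : max 1 (4 * ((m : ℕ) : ℝ)) = 4 * (m : ℕ) :=
          max_eq_right (by linarith [(Nat.one_le_cast.2 m0 : (1 : ℝ) ≤ (m : ℕ))])
        rw [x1, ← div_mul_eq_mul_div] at r1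
        simp only [fn, if_pos v, Sum.elim_inl, r2]
        refine le_trans hP ?_
        have r3 := mul_le_mul_of_nonneg_left r1 (mul_nonneg (CD0 m) e1.le)
        have r4 : 0 ≤ (CD m + 1) * ε * (θ + 16 / θ ^ 7 * Δ) := by
          have := CD0 m
          positivity
        change _ ≤ _ + _ * (θ + 16 / θ ^ 7 * Δ + ε)
        linarith
      · obtain ⟨g, n0⟩ := hT w hw
        by_cases v : ∀ t ≤ w.n, ¬w.z t
        swap
        · exact .inl fun W => le_of_eq (if_neg v)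
        refine .inr fun ε e1 e2 W => ?_
        have Δ0 : 0 ≤ ∑ j' : T × (Fin N × Fin N ⊕ Fin 4) with lev j'.2 < N, fn Ω E j'.1.1 j'.2 W :=
          sum_nonneg fun j' hj => fn_nonneg _ (mem_filter.1 hj).2 W
        filter_upwards [hT' w.n r w.U (fun t => W.W (w.k t)) w.k 0 ε ε
          (fun t _ ht => U_mem hA g t (by omega)) (aW w W) (fun t _ ht => g.k t (by omega)) e1.le e2
          e1 fun j m' h1 h2 => g.sep j m' h1 (by omega) (fun t a b => v t (by omega)) _
            fun t => W.mem _] with P hP θ hθ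
        simp only [fn, if_pos v, Sum.elim_inr]
        have u1 : ‖![1, -1, Complex.I, -Complex.I] c‖ = 1 := by fin_cases c <;> simp
        generalize ![1, -1, Complex.I, -Complex.I] c = u at u1
        have r1 := (Complex.re_le_norm (u * _)).trans ((norm_mul _ _).trans_le
          ((mul_le_of_le_one_left (norm_nonneg _) u1.le).trans hP))
        rw [mul_sub, Complex.sub_re, mul_sum, Complex.re_sum, mul_left_comm,
          show (1 - w.n * ε : ℂ) = ((1 - w.n * ε : ℝ) : ℂ) by push_cast; rfl,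
          Complex.re_ofReal_mul] at r1
        simp only [mul_left_comm u, Complex.re_ofReal_mul] at r1
        have r4 : 0 ≤ 2 * CT w.n * ε * (θ + 16 / θ ^ 7 * ∑ j' : T × (Fin N × Fin N ⊕ Fin 4) with
            lev j'.2 < N, fn Ω E j'.1.1 j'.2 W) := by
          have := CT0 w.n
          positivity
        refine (sub_le_iff_le_add'.1 r1).trans (add_le_add le_rfl ?_)
        change _ ≤ _ * (θ + 16 / θ ^ 7 * (∑ j' : T × (Fin N × Fin N ⊕ Fin 4) with
            lev j'.2 < N, fn Ω E j'.1.1 j'.2 W) + ε)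
        linarith)
    (η := min (η / 2) ((η / 2) ^ 4)) (by positivity)
  refine ⟨L.κ, L.fin, L.q, L.W, L.q0, L.q1, fun w hw => ?_⟩
  by_cases v : ∀ t ≤ w.n, ¬w.z t
  · have k : ∀ c : Fin 4, (![1, -1, Complex.I, -Complex.I] c *
        ∑ o, (L.q o : ℂ) * tau Ω (w.ev (L.W o))).re ≤ η / 2 := fun c => by
      refine le_of_eq_of_le ?_ ((hL (⟨w, hw⟩, .inr c)).trans (min_le_left _ _))
      simp only [Law.ex, fn, if_pos v, mul_sum, Complex.re_sum]
      exact sum_congr rfl fun o _ => by rw [mul_left_comm, Complex.re_ofReal_mul]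
    have k0 := k 0
    have k1 := k 1
    have k2 := k 2
    have k3 := k 3
    generalize ∑ o, (L.q o : ℂ) * tau Ω (w.ev (L.W o)) = z at k0 k1 k2 k3
    simp at k0 k1 k2 k3
    refine (Complex.norm_le_abs_re_add_abs_im z).trans ?_
    linarith [abs_le.2 ⟨by linarith, k0⟩, (abs_le.2 ⟨by linarith, k3⟩ : |z.im| ≤ η / 2)]
  · push Not at v
    obtain ⟨t, t1, t2⟩ := v
    have := hN w hw
    have k := (hL (⟨w, hw⟩, .inl (⟨0, by omega⟩, ⟨w.n, this⟩))).trans (min_le_right _ _)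
    have v : Vz w 0 w.n :=
      ⟨by omega, t, by omega, by omega, t2⟩
    simp only [Law.ex, fn, if_pos v] at k
    have b : ∀ W : Seed A r, ‖tau Ω (w.ev W)‖ ≤ η / 2 + 1 / (η / 2) ^ 3 *
        DD E Ω A (sg w.U (fun t => W.W (w.k t)) 0 w.n) := fun W => by
      have m := sM w hw W 0 w.n (by omega)
      rw [Wd.ev, ← hE.tr _ m, one_div_mul_eq_div]
      exact (tau_le_Om hΩ.1 _).trans ((root_le (norm_nonneg _) (half_pos hη) 3).trans
        (add_le_add le_rfl (div_le_div_of_nonneg_right (E_le_DD hA hΩ hE m) (by positivity))))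
    refine (norm_sum_le _ _).trans ((sum_le_sum fun o _ => ((norm_mul _ _).trans (by
      rw [Complex.norm_real, Real.norm_of_nonneg (L.q0 o)])).trans_le
        (mul_le_mul_of_nonneg_left (b (L.W o)) (L.q0 o))).trans ?_)
    simp only [mul_add, sum_add_distrib, ← sum_mul, L.q1, mul_left_comm (L.q _), ← mul_sum]
    have k2 := mul_le_mul_of_nonneg_left k (show 0 ≤ 1 / (η / 2) ^ 3 by positivity)
    rw [show 1 / (η / 2) ^ 3 * (η / 2) ^ 4 = η / 2 by field_simp] at k2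
    linarith

theorem mean_of_law {S J : Type*} {f : J → S → ℂ} (hb : ∀ j, ∃ c, ∀ s, ‖f j s‖ ≤ c)
    (h : ∀ (T : Finset J) (η : ℝ), 0 < η → ∃ (κ : Type) (_ : Fintype κ) (q : κ → ℝ) (W : κ → S),
      (∀ o, 0 ≤ q o) ∧ ∑ o, q o = 1 ∧ ∀ j ∈ T, ‖∑ o, (q o : ℂ) * f j (W o)‖ ≤ η) :
    ∃ Λ : (S → ℂ) →ₗ[ℂ] ℂ, IsMean Λ ∧ ∀ j, Λ (f j) = 0 := by
  choose κ fin q W q0 q1 hq using fun p : Finset J × ℕ => h p.1 (1 / (p.2 + 1)) Nat.one_div_pos_of_nat
  let e : Finset J × ℕ → (S → ℂ) → ℂ := fun p g => ∑ o, (q p o : ℂ) * g (W p o)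
  let 𝒰 : Ultrafilter (Finset J × ℕ) := Ultrafilter.of (atTop ×ˢ atTop)
  have ea : ∀ p g g', e p (g + g') = e p g + e p g' := fun p g g' => by
    simp only [e, Pi.add_apply, mul_add, sum_add_distrib]
  have es : ∀ p (c : ℂ) g, e p (c • g) = c * e p g := fun p c g => by
    simp only [e, Pi.smul_apply, smul_eq_mul, mul_sum, mul_left_comm c]
  let B : Submodule ℂ (S → ℂ) :=
    { carrier := {g | ∃ z, Tendsto (fun p => e p g) 𝒰 (𝓝 z)}
      add_mem' := fun ⟨z, hz⟩ ⟨z', hz'⟩ => ⟨_, (hz.add hz').congr fun p => (ea p _ _).symm⟩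
      zero_mem' := ⟨0, by simp [e]⟩
      smul_mem' := fun c g ⟨z, hz⟩ => ⟨_, (hz.const_mul c).congr fun p => (es p _ _).symm⟩ }
  choose l hl using fun g : B => g.2
  let Λ0 : B →ₗ[ℂ] ℂ :=
    { toFun := l
      map_add' := fun g g' => tendsto_nhds_unique (hl _)
        (((hl g).add (hl g')).congr fun p => (ea p _ _).symm)
      map_smul' := fun c g => tendsto_nhds_unique (hl _)
        (((hl g).const_mul c).congr fun p => (es p _ _).symm) }
  obtain ⟨Λ, hΛ⟩ := Λ0.exists_extend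
  have t1 : ∀ g z, Tendsto (fun p => e p g) 𝒰 (𝓝 z) → Λ g = z := fun g z hz =>
    (LinearMap.congr_fun hΛ ⟨g, z, hz⟩).trans (tendsto_nhds_unique (hl _) hz)
  have t2 : ∀ g c, (∀ s, ‖g s‖ ≤ c) → Tendsto (fun p => e p g) 𝒰 (𝓝 (Λ g)) := fun g c hg => by
    obtain ⟨z, -, hz⟩ := (isCompact_closedBall (0 : ℂ) c).ultrafilter_le_nhds'
      (𝒰.map fun p => e p g) (Filter.mem_map.2 (Eventually.of_forall fun p => mem_closedBall_zero_iff.2
        ((norm_sum_le _ _).trans ((sum_le_sum (g := fun o => q p o * c) fun o _ => by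
          rw [norm_mul, Complex.norm_real, Real.norm_of_nonneg (q0 p o)]
          exact mul_le_mul_of_nonneg_left (hg _) (q0 p o)).trans (by rw [← sum_mul, q1, one_mul])))))
    exact t1 g z hz ▸ hz
  refine ⟨Λ, ⟨fun g c d h1 h2 => ?_, fun g c h1 => t1 _ _ ((t2 g c h1).star.congr fun p => ?_)⟩,
    fun j => t1 _ _ (Tendsto.mono_left ?_ (Ultrafilter.of_le _))⟩
  · refine le_of_tendsto' ((Complex.continuous_re.tendsto _).comp (t2 g c h1)) fun p => ?_
    simp only [Function.comp, e, Complex.re_sum, Complex.re_ofReal_mul]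
    exact (sum_le_sum fun o _ => mul_le_mul_of_nonneg_left (h2 _) (q0 p o)).trans
      (by rw [← sum_mul, q1, one_mul])
  · simp [e]
  · have _ := hb
    refine squeeze_zero_norm' ?_ (tendsto_one_div_add_atTop_nhds_zero_nat.comp tendsto_snd)
    filter_upwards [tendsto_fst.eventually (eventually_ge_atTop ({j} : Finset J))] with p hp
    exact hq p j (hp (mem_singleton_self j))

theorem exists_mean (hA : IsMASA M A) (hΩ : IsTraceVector M Ω) (hE : IsE M A Ω E) :
    ∃ Λ : (Seed A r → ℂ) →ₗ[ℂ] ℂ, IsMean Λ ∧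
      ∀ w : Wd H r, Good M A Ω E w → 0 < w.n → Λ (fun W => tau Ω (w.ev W)) = 0 := by
  obtain ⟨Λ, h1, h2⟩ := mean_of_law (J := {w : Wd H r // Good M A Ω E w ∧ 0 < w.n})
    (f := fun w (W : Seed A r) => tau Ω (w.1.ev W)) (fun w => ⟨1, fun W =>
      (tau_le_Om hΩ.1 _).trans (((w.1.ev W).le_opNorm Ω).trans (by
        rw [hΩ.1, mul_one]
        exact sg_norm (fun t _ ht => w.2.1.norm t (by omega)) fun t _ _ => W.norm_le _))⟩)
    fun T η hη => by
      obtain ⟨κ, i, q, W, q0, q1, h⟩ := finite_law hA hΩ hE (T.image Subtype.val)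
        (fun w hw => by
          obtain ⟨j, -, rfl⟩ := mem_image.1 hw
          exact j.2) hη
      exact ⟨κ, i, q, W, q0, q1, fun j hj => h _ (mem_image_of_mem _ hj)⟩
  exact ⟨Λ, h1, fun w g n => h2 ⟨w, g, n⟩⟩

end Vale.Agent.P078.G
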