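import Vale.Agent.P078.G.Defs

/-!
Bookkeeping for products of letters and slots.
-/

open Finset Filter
open scoped Classical

namespace Vale.Agent.P078.G

variable {H : Type*} [NormedAddCommGroup H] [InnerProductSpace ℂ H] [CompleteSpace H]
  {M : VonNeumannAlgebra H} {A : StarSubalgebra ℂ (H →L[ℂ] H)} {Ω : H}
  {E : (H →L[ℂ] H) → H →L[ℂ] H}

variable {U U' s s' : ℕ → H →L[ℂ] H} {i n : ℕ}

omit [CompleteSpace H] in
theorem sg_congr (h1 : ∀ t, i ≤ t → t ≤ i + n → U t = U' t) (h2 : ∀ t, i ≤ t → t < i + n → s t = s' t) :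
    sg U s i n = sg U' s' i n := by
  induction n with
  | zero => exact h1 i le_rfl le_rfl
  | succ n ih =>
    rw [sg, sg, ih (fun t a b => h1 t a (by omega)) (fun t a b => h2 t a (by omega)),
      h2 _ (by omega) (by omega), h1 _ (by omega) (by omega)]

omit [CompleteSpace H] in
theorem sg_split (U s : ℕ → H →L[ℂ] H) (i m n : ℕ) :
    sg U s i (m + 1 + n) = sg U s i m * s (i + m) * sg U s (i + m + 1) n := by
  induction n with
  | zero => rfl
  | succ n ih =>
    rw [← add_assoc, sg, ih, sg, show i + (m + 1 + n) = i + m + 1 + n by omega]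
    simp only [mul_assoc]

omit [CompleteSpace H] in
theorem sg_shift (U s : ℕ → H →L[ℂ] H) (i j n : ℕ) :
    sg U s (i + j) n = sg (fun t => U (t + j)) (fun t => s (t + j)) i n := by
  induction n with
  | zero => rfl
  | succ n ih =>
    rw [sg, sg, ih, show i + j + n = i + n + j by omega, show i + n + j + 1 = i + n + 1 + j by omega]

theorem sg_mem (h1 : ∀ t, i ≤ t → t ≤ i + n → U t ∈ M) (h2 : ∀ t, i ≤ t → t < i + n → s t ∈ M) :
    sg U s i n ∈ M := by
  induction n with
  | zero => exact h1 i le_rfl le_rfl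
  | succ n ih =>
    exact mul_mem (mul_mem (ih (fun t a b => h1 t a (by omega)) fun t a b => h2 t a (by omega))
      (h2 _ (by omega) (by omega))) (h1 _ (by omega) (by omega))

omit [CompleteSpace H] in
theorem sg_norm (h1 : ∀ t, i ≤ t → t ≤ i + n → ‖U t‖ ≤ 1) (h2 : ∀ t, i ≤ t → t < i + n → ‖s t‖ ≤ 1) :
    ‖sg U s i n‖ ≤ 1 := by
  induction n with
  | zero => exact h1 i le_rfl le_rfl
  | succ n ih =>
    have := ih (fun t a b => h1 t a (by omega)) fun t a b => h2 t a (by omega)
    exact (norm_mul_le _ _).trans (mul_le_one₀ ((norm_mul_le _ _).trans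
      (mul_le_one₀ this (norm_nonneg _) (h2 _ (by omega) (by omega)))) (norm_nonneg _)
      (h1 _ (by omega) (by omega)))

theorem sg_star (U s : ℕ → H →L[ℂ] H) (i j n c : ℕ) (hc : c = i + j + n) :
    star (sg U s i n) = sg (fun t => star (U (c - t))) (fun t => star (s (c - 1 - t))) j n := by
  induction n generalizing j with
  | zero => simp [sg, hc]
  | succ n ih =>
    rw [sg, star_mul, star_mul, ih (j + 1) (by omega), show n + 1 = 0 + 1 + n by omega, sg_split]
    simp only [sg, add_zero, mul_assoc]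
    rw [show c - j = i + n + 1 by omega, show c - 1 - j = i + n by omega]

end Vale.Agent.P078.G
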